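import Mathlib

set_option autoImplicit false

/-!
Polynomial functions, the pointwise definition of rationality of a cubic fourfold,
and the normal form `f(x) + wᵀ Q(x) w`.
-/

namespace P287H468
open MvPolynomial

/-- a polynomial function, homogeneous of degree `n` -/
def PH {ι : Type} (n : ℕ) (f : (ι → ℂ) → ℂ) : Prop :=
  ∃ p : MvPolynomial ι ℂ, p.IsHomogeneous n ∧ ∀ x, eval x p = f x

section PH
variable {ι κ : Type}

theorem PH.coord (i : ι) : PH 1 (fun x : ι → ℂ => x i) :=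
  ⟨X i, isHomogeneous_X ℂ i, fun x => by simp⟩

theorem PH.const (c : ℂ) : PH 0 (fun _ : ι → ℂ => c) :=
  ⟨C c, isHomogeneous_C ι c, fun x => by simp⟩

theorem PH.zero (n : ℕ) : PH n (fun _ : ι → ℂ => 0) :=
  ⟨0, isHomogeneous_zero ι ℂ n, fun x => by simp⟩

theorem PH.congr {n : ℕ} {f g : (ι → ℂ) → ℂ} (hf : PH n f) (h : ∀ x, f x = g x) : PH n g := by
  obtain ⟨p, hp, hp2⟩ := hf
  exact ⟨p, hp, fun x => by rw [hp2, h]⟩

theorem PH.of_eq {n m : ℕ} {f : (ι → ℂ) → ℂ} (hf : PH n f) (h : n = m) : PH m f := h ▸ hf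

theorem PH.add {n : ℕ} {f g : (ι → ℂ) → ℂ} (hf : PH n f) (hg : PH n g) :
    PH n (fun x => f x + g x) := by
  obtain ⟨p, hp, hp2⟩ := hf
  obtain ⟨q, hq, hq2⟩ := hg
  exact ⟨p + q, hp.add hq, fun x => by rw [map_add, hp2, hq2]⟩

theorem PH.mul {n m : ℕ} {f g : (ι → ℂ) → ℂ} (hf : PH n f) (hg : PH m g) :
    PH (n + m) (fun x => f x * g x) := by
  obtain ⟨p, hp, hp2⟩ := hf
  obtain ⟨q, hq, hq2⟩ := hg
  exact ⟨p * q, hp.mul hq, fun x => by rw [map_mul, hp2, hq2]⟩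

theorem PH.cmul {n : ℕ} {f : (ι → ℂ) → ℂ} (c : ℂ) (hf : PH n f) :
    PH n (fun x => c * f x) :=
  ((PH.const c).mul hf).of_eq (by omega)

theorem PH.neg {n : ℕ} {f : (ι → ℂ) → ℂ} (hf : PH n f) : PH n (fun x => - f x) :=
  (hf.cmul (-1)).congr (fun x => by ring)

theorem PH.sub {n : ℕ} {f g : (ι → ℂ) → ℂ} (hf : PH n f) (hg : PH n g) :
    PH n (fun x => f x - g x) :=
  (hf.add hg.neg).congr (fun x => by ring)

theorem PH.pow {n : ℕ} {f : (ι → ℂ) → ℂ} (hf : PH n f) (k : ℕ) :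
    PH (n * k) (fun x => f x ^ k) := by
  obtain ⟨p, hp, hp2⟩ := hf
  exact ⟨p ^ k, hp.pow k, fun x => by rw [map_pow, hp2]⟩

theorem PH.sum {n : ℕ} {α : Type} (s : Finset α) {f : α → (ι → ℂ) → ℂ}
    (hf : ∀ a ∈ s, PH n (f a)) : PH n (fun x => ∑ a ∈ s, f a x) := by
  classical
  induction s using Finset.induction_on with
  | empty => exact (PH.zero n).congr (fun x => by simp)
  | insert a s ha ih =>
    refine ((hf a (Finset.mem_insert_self a s)).add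
      (ih fun b hb => hf b (Finset.mem_insert_of_mem hb))).congr (fun x => ?_)
    rw [Finset.sum_insert ha]

theorem PH.prod {α : Type} (s : Finset α) {n : α → ℕ} {f : α → (ι → ℂ) → ℂ}
    (hf : ∀ a ∈ s, PH (n a) (f a)) : PH (∑ a ∈ s, n a) (fun x => ∏ a ∈ s, f a x) := by
  classical
  induction s using Finset.induction_on with
  | empty => exact (PH.const 1).congr (fun x => by simp)
  | insert a s ha ih =>
    refine (((hf a (Finset.mem_insert_self a s)).mul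
      (ih fun b hb => hf b (Finset.mem_insert_of_mem hb))).congr (fun x => ?_)).of_eq ?_
    · rw [Finset.prod_insert ha]
    · rw [Finset.sum_insert ha]

/-- value at a scaled point -/
theorem PH.smul_eval [Fintype ι] {n : ℕ} {f : (ι → ℂ) → ℂ} (hf : PH n f) (a : ℂ) (x : ι → ℂ) :
    f (a • x) = a ^ n * f x := by
  obtain ⟨p, hp, hp2⟩ := hf
  rw [← hp2, ← hp2, eval_eq', eval_eq', Finset.mul_sum]
  refine Finset.sum_congr rfl fun d hd => ?_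
  have h1 : d.degree = n := by
    by_contra h
    exact (mem_support_iff.1 hd) (hp.coeff_eq_zero h)
  have h2 : ∑ i, d i = n := by
    rw [← h1, Finsupp.degree_eq_sum]
  simp only [Pi.smul_apply, smul_eq_mul, mul_pow, Finset.prod_mul_distrib]
  rw [Finset.prod_pow_eq_pow_sum, h2]
  ring

theorem PH.comp {n m : ℕ} {f : (κ → ℂ) → ℂ} {g : (ι → ℂ) → (κ → ℂ)} (hf : PH n f)
    (hg : ∀ i, PH m (fun t => g t i)) : PH (m * n) (fun t => f (g t)) := by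
  obtain ⟨p, hp, hp2⟩ := hf
  choose q hq hq2 using hg
  refine ⟨aeval q p, hp.aeval q hq, fun x => ?_⟩
  beta_reduce
  rw [← hp2 (g x)]
  have h1 : (fun i => eval x (q i)) = g x := by
    funext i; exact hq2 i x
  rw [← h1]
  have h2 := aeval_bind₁ (R := ℂ) (S := ℂ) x q p
  rw [← aeval_eq_bind₁] at h2
  have e1 : ∀ (κ' : Type) (y : κ' → ℂ) (r : MvPolynomial κ' ℂ), aeval y r = eval y r := by
    intro κ' y r
    rw [← coe_aeval_eq_eval]
    rfl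
  simpa only [e1] using h2

/-- a nonzero polynomial function stays nonzero after multiplication -/
theorem PH.mul_ne [Finite ι] {n m : ℕ} {f g : (ι → ℂ) → ℂ} (hf : PH n f) (hg : PH m g)
    (h1 : ∃ x, f x ≠ 0) (h2 : ∃ x, g x ≠ 0) : ∃ x, f x ≠ 0 ∧ g x ≠ 0 := by
  obtain ⟨p, hp, hp2⟩ := hf
  obtain ⟨q, hq, hq2⟩ := hg
  by_contra hcon
  push Not at hcon
  have h3 : p * q = 0 := by
    apply MvPolynomial.funext
    intro x
    rw [map_mul, map_zero, hp2, hq2]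
    by_cases h : f x = 0
    · rw [h, zero_mul]
    · rw [hcon x h, mul_zero]
  rcases mul_eq_zero.1 h3 with h | h
  · obtain ⟨x, hx⟩ := h1
    apply hx
    rw [← hp2, h, map_zero]
  · obtain ⟨x, hx⟩ := h2
    apply hx
    rw [← hq2, h, map_zero]

end PH

/-- The projective hypersurface `F = 0` in `P⁵` is rational: there are homogeneous polynomial maps
`φ`, `ψ` between `P⁴` and `P⁵`, inverse to each other between the nonempty open set `c ≠ 0`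
of `P⁴` and the open set `d ≠ 0` of the hypersurface. -/
def IsRat (F : (Fin 6 → ℂ) → ℂ) : Prop :=
  ∃ (n m k l : ℕ) (φ : (Fin 5 → ℂ) → (Fin 6 → ℂ)) (ψ : (Fin 6 → ℂ) → (Fin 5 → ℂ))
    (c : (Fin 5 → ℂ) → ℂ) (d : (Fin 6 → ℂ) → ℂ),
    (∀ i, PH n (fun t => φ t i)) ∧ (∀ i, PH m (fun x => ψ x i)) ∧ PH k c ∧ PH l d ∧
    (∃ t, c t ≠ 0) ∧
    (∀ t, c t ≠ 0 → F (φ t) = 0 ∧ d (φ t) ≠ 0 ∧ ∃ a : ℂ, a ≠ 0 ∧ ψ (φ t) = a • t) ∧
    (∀ x, F x = 0 → d x ≠ 0 → c (ψ x) ≠ 0 ∧ ∃ a : ℂ, a ≠ 0 ∧ φ (ψ x) = a • x)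

theorem IsRat.of_pair {F : (Fin 6 → ℂ) → ℂ} {n m k l : ℕ}
    {φ : (Fin 5 → ℂ) → (Fin 6 → ℂ)} {ψ : (Fin 6 → ℂ) → (Fin 5 → ℂ)}
    {c : (Fin 5 → ℂ) → ℂ} {d : (Fin 6 → ℂ) → ℂ}
    (hφ : ∀ i, PH n (fun t => φ t i)) (hψ : ∀ i, PH m (fun x => ψ x i)) (hc : PH k c)
    (hd : PH l d) (hne : ∃ t, c t ≠ 0 ∧ d (φ t) ≠ 0)
    (h1 : ∀ t, c t ≠ 0 → d (φ t) ≠ 0 → F (φ t) = 0 ∧ ∃ a : ℂ, a ≠ 0 ∧ ψ (φ t) = a • t)
    (h2 : ∀ x, F x = 0 → d x ≠ 0 → c (ψ x) ≠ 0 → ∃ a : ℂ, a ≠ 0 ∧ φ (ψ x) = a • x) :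
    IsRat F := by
  refine ⟨n, m, k + n * l, l + m * k, φ, ψ, fun t => c t * d (φ t), fun x => d x * c (ψ x),
    hφ, hψ, hc.mul (hd.comp hφ), hd.mul (hc.comp hψ), ?_, ?_, ?_⟩
  · obtain ⟨t, ht1, ht2⟩ := hne
    exact ⟨t, mul_ne_zero ht1 ht2⟩
  · intro t ht
    have hc1 : c t ≠ 0 := left_ne_zero_of_mul ht
    have hd1 : d (φ t) ≠ 0 := right_ne_zero_of_mul ht
    obtain ⟨h3, a, ha, h4⟩ := h1 t hc1 hd1
    refine ⟨h3, mul_ne_zero hd1 ?_, a, ha, h4⟩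
    rw [h4, hc.smul_eval]
    exact mul_ne_zero (pow_ne_zero _ ha) hc1
  · intro x hx hdx
    have hd1 : d x ≠ 0 := left_ne_zero_of_mul hdx
    have hc1 : c (ψ x) ≠ 0 := right_ne_zero_of_mul hdx
    obtain ⟨a, ha, h4⟩ := h2 x hx hd1 hc1
    refine ⟨mul_ne_zero hc1 ?_, a, ha, h4⟩
    rw [h4, hd.smul_eval]
    exact mul_ne_zero (pow_ne_zero _ ha) hd1

/-- rationality does not change under a linear change of coordinates -/
theorem IsRat.of_comp {F : (Fin 6 → ℂ) → ℂ} (g g' : Matrix (Fin 6) (Fin 6) ℂ)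
    (hg : g * g' = 1) (h : IsRat (fun y => F (g.mulVec y))) : IsRat F := by
  obtain ⟨n, m, k, l, φ, ψ, c, d, hφ, hψ, hc, hd, hne, h1, h2⟩ := h
  have hg' : g' * g = 1 := mul_eq_one_comm.1 hg
  have lin : ∀ (M : Matrix (Fin 6) (Fin 6) ℂ) (i : Fin 6), PH 1 (fun x => (M.mulVec x) i) := by
    intro M i
    refine (PH.sum Finset.univ (fun j _ => (PH.coord j).cmul (M i j))).congr fun x => ?_
    simp only [Matrix.mulVec, dotProduct]
  refine ⟨n, m, k, l, fun t => g.mulVec (φ t), fun x => ψ (g'.mulVec x), c,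
    fun x => d (g'.mulVec x), ?_, ?_, hc, ?_, hne, ?_, ?_⟩
  · intro i
    refine (PH.sum Finset.univ (fun j _ => (hφ j).cmul (g i j))).congr fun x => ?_
    simp only [Matrix.mulVec, dotProduct]
  · intro i
    exact ((hψ i).comp (lin g')).of_eq (by omega)
  · exact (hd.comp (lin g')).of_eq (by omega)
  · intro t ht
    obtain ⟨h3, h4, h5⟩ := h1 t ht
    have h6 : g'.mulVec (g.mulVec (φ t)) = φ t := by
      rw [Matrix.mulVec_mulVec, hg', Matrix.one_mulVec]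
    refine ⟨h3, ?_, ?_⟩
    · beta_reduce; rw [h6]; exact h4
    · beta_reduce; rw [h6]; exact h5
  · intro x hx hdx
    have h6 : g.mulVec (g'.mulVec x) = x := by
      rw [Matrix.mulVec_mulVec, hg, Matrix.one_mulVec]
    obtain ⟨h3, a, ha, h4⟩ := h2 (g'.mulVec x) (by beta_reduce; rw [h6]; exact hx) hdx
    refine ⟨h3, a, ha, ?_⟩
    beta_reduce
    rw [h4, Matrix.mulVec_smul, h6]

/-- the first three coordinates -/
def xx (z : Fin 6 → ℂ) : Fin 3 → ℂ := ![z 0, z 1, z 2]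
/-- the last three coordinates -/
def ww (z : Fin 6 → ℂ) : Fin 3 → ℂ := ![z 3, z 4, z 5]
/-- the point with coordinates `x`, `w` -/
def pt (x w : Fin 3 → ℂ) : Fin 6 → ℂ := ![x 0, x 1, x 2, w 0, w 1, w 2]
/-- the linear family of matrices `x₀ Q₀ + x₁ Q₁ + x₂ Q₂` -/
def QQ (Q : Fin 3 → Matrix (Fin 3) (Fin 3) ℂ) (x : Fin 3 → ℂ) : Matrix (Fin 3) (Fin 3) ℂ :=
  x 0 • Q 0 + x 1 • Q 1 + x 2 • Q 2
/-- the normal form of a cubic invariant under an involution of type `(1,1,1,-1,-1,-1)` -/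
def F3 (f : (Fin 3 → ℂ) → ℂ) (Q : Fin 3 → Matrix (Fin 3) (Fin 3) ℂ) (z : Fin 6 → ℂ) : ℂ :=
  f (xx z) + dotProduct (ww z) ((QQ Q (xx z)).mulVec (ww z))
/-- the net of conics has no base point -/
def BPF (Q : Fin 3 → Matrix (Fin 3) (Fin 3) ℂ) : Prop :=
  ∀ w : Fin 3 → ℂ, (∀ i, dotProduct w ((Q i).mulVec w) = 0) → w = 0

/-- symmetric trilinear form with coefficient tensor `a` -/
def Tri (a : Fin 6 → Fin 6 → Fin 6 → ℂ) (x y z : Fin 6 → ℂ) : ℂ :=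
  ∑ i, ∑ j, ∑ k, a i j k * x i * y j * z k
/-- symmetry of the tensor -/
def SymT (a : Fin 6 → Fin 6 → Fin 6 → ℂ) : Prop :=
  ∀ i j k, a i j k = a j i k ∧ a i j k = a i k j
/-- the hypersurface `Tri a x x x = 0` is smooth -/
def Smo (a : Fin 6 → Fin 6 → Fin 6 → ℂ) : Prop :=
  ∀ x, (∀ y, Tri a x x y = 0) → x = 0

end P287H468
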