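import Mathlib
import Vale.Agent.P287.H468.Defs

set_option autoImplicit false
set_option linter.all false

/-!
From an Eckardt point and a plane not through it to two disjoint planes.
-/

namespace P287H468
open Module

section Abs
variable {E : Type} [AddCommGroup E] [Module ℂ E]

/-- a symmetric trilinear form -/
structure SymL (T : E →ₗ[ℂ] E →ₗ[ℂ] E →ₗ[ℂ] ℂ) : Prop where
  h12 : ∀ x y z, T x y z = T y x z
  h23 : ∀ x y z, T x y z = T x z y

/-- `p` is an Eckardt point of the cubic `T x x x = 0` -/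
structure EckL (T : E →ₗ[ℂ] E →ₗ[ℂ] E →ₗ[ℂ] ℂ) (p : E) : Prop where
  ne : p ≠ 0
  ppp : T p p p = 0
  con : ∀ x, T p p x = 0 → T p x x = 0

/-- the linear form `α` of an Eckardt point -/
noncomputable def al (T : E →ₗ[ℂ] E →ₗ[ℂ] E →ₗ[ℂ] ℂ) (p w0 : E) : E →ₗ[ℂ] ℂ :=
  T p w0 - ((1 / 2) * T p w0 w0) • T p p

theorem al_apply (T : E →ₗ[ℂ] E →ₗ[ℂ] E →ₗ[ℂ] ℂ) (p w0 x : E) :
    al T p w0 x = T p w0 x - (1 / 2) * T p w0 w0 * T p p x := by
  simp [al]

variable {T : E →ₗ[ℂ] E →ₗ[ℂ] E →ₗ[ℂ] ℂ} {p w0 : E}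

theorem con2 (hs : SymL T) (hp : EckL T p) {x y : E} (hx : T p p x = 0) (hy : T p p y = 0) :
    T p x y = 0 := by
  have h1 := hp.con x hx
  have h2 := hp.con y hy
  have h3 := hp.con (x + y) (by rw [map_add, hx, hy, add_zero])
  simp only [map_add, LinearMap.add_apply] at h3
  rw [h1, h2, hs.h23 p y x] at h3
  linear_combination (1 / 2) * h3

theorem pxy (hs : SymL T) (hp : EckL T p) (hw : T p p w0 = 1) (x y : E) :
    T p x y = al T p w0 x * T p p y + al T p w0 y * T p p x := by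
  have h := con2 hs hp (x := x - T p p x • w0) (y := y - T p p y • w0)
    (by rw [map_sub, map_smul, hw]; simp) (by rw [map_sub, map_smul, hw]; simp)
  simp only [map_sub, map_smul, LinearMap.sub_apply, LinearMap.smul_apply, smul_eq_mul] at h
  rw [hs.h23 p x w0] at h
  rw [al_apply, al_apply]
  linear_combination h

theorem al_p (hs : SymL T) (hp : EckL T p) (hw : T p p w0 = 1) : al T p w0 p = 1 := by
  rw [al_apply, hs.h23 p w0 p, hw, hp.ppp]
  ring

/-- restriction of a trilinear form to a subspace -/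
noncomputable def res (T : E →ₗ[ℂ] E →ₗ[ℂ] E →ₗ[ℂ] ℂ) (H : Submodule ℂ E) :
    H →ₗ[ℂ] H →ₗ[ℂ] H →ₗ[ℂ] ℂ where
  toFun x := (T (x : E)).domRestrict₁₂ H H
  map_add' x y := by
    ext u v
    simp only [LinearMap.domRestrict₁₂_apply, LinearMap.add_apply, Submodule.coe_add, map_add]
  map_smul' r x := by
    ext u v
    simp only [LinearMap.domRestrict₁₂_apply, LinearMap.smul_apply, Submodule.coe_smul, map_smul,
      RingHom.id_apply]

theorem res_apply (T : E →ₗ[ℂ] E →ₗ[ℂ] E →ₗ[ℂ] ℂ) (H : Submodule ℂ E) (x y z : H) :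
    res T H x y z = T (x : E) (y : E) (z : E) := rfl

/-- the four-dimensional space carrying the cubic surface of the Eckardt point -/
noncomputable def HH (T : E →ₗ[ℂ] E →ₗ[ℂ] E →ₗ[ℂ] ℂ) (p w0 : E) : Submodule ℂ E :=
  LinearMap.ker ((T p p).prod (al T p w0))

theorem mem_HH {x : E} : x ∈ HH T p w0 ↔ T p p x = 0 ∧ al T p w0 x = 0 := by
  rw [HH, LinearMap.mem_ker, LinearMap.prod_apply]
  simp

theorem HH_dim [FiniteDimensional ℂ E] (hdim : finrank ℂ E = 6) (hs : SymL T) (hp : EckL T p)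
    (hw : T p p w0 = 1) : finrank ℂ (HH T p w0) = 4 := by
  have h1 := LinearMap.finrank_range_add_finrank_ker ((T p p).prod (al T p w0))
  have h2 : LinearMap.range ((T p p).prod (al T p w0)) = ⊤ := by
    rw [LinearMap.range_eq_top]
    rintro ⟨r, s⟩
    refine ⟨r • w0 + (s - r * al T p w0 w0) • p, ?_⟩
    have e1 : T p p (r • w0 + (s - r * al T p w0 w0) • p) = r := by
      rw [map_add, map_smul, map_smul, hw, hp.ppp]; simp
    have e2 : al T p w0 (r • w0 + (s - r * al T p w0 w0) • p) = s := by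
      rw [map_add, map_smul, map_smul, al_p hs hp hw]; simp
    exact Prod.ext e1 e2
  rw [h2, finrank_top, hdim] at h1
  have h3 : finrank ℂ (ℂ × ℂ) = 2 := by simp
  rw [h3] at h1
  have h4 : finrank ℂ (HH T p w0) = finrank ℂ (LinearMap.ker ((T p p).prod (al T p w0))) := rfl
  omega

/-- the cubic surface is smooth -/
theorem HH_smooth (hs : SymL T) (hsm : ∀ x, (∀ y, T x x y = 0) → x = 0) (hp : EckL T p)
    (hw : T p p w0 = 1) (y : HH T p w0)
    (hy : ∀ x, res T (HH T p w0) y y x = 0) : y = 0 := by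
  obtain ⟨hy1, hy2⟩ := mem_HH.1 y.2
  set yy : E := (y : E) with hyy
  -- `T y y x = μ L x`
  have hker : ∀ x, T yy yy x = T yy yy w0 * T p p x := by
    intro x
    have hpy : T yy yy p = 0 := by
      rw [hs.h23, hs.h12, pxy hs hp hw, hy1]
      ring
    set z := x - T p p x • w0 with hz
    have hz1 : T p p z = 0 := by rw [hz, map_sub, map_smul, hw]; simp
    set z' := z - al T p w0 z • p with hz'
    have hz'm : z' ∈ HH T p w0 := by
      rw [mem_HH]
      constructor
      · rw [hz', map_sub, map_smul, hz1, hp.ppp]; simp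
      · rw [hz', map_sub, map_smul, al_p hs hp hw]; simp
    have h5 := hy ⟨z', hz'm⟩
    rw [res_apply] at h5
    change T yy yy z' = 0 at h5
    rw [hz', map_sub, map_smul, hpy, hz, map_sub, map_smul] at h5
    simp only [smul_eq_mul] at h5
    linear_combination h5
  obtain ⟨s, hs2⟩ := IsAlgClosed.exists_pow_nat_eq (-(T yy yy w0)) (n := 2) (by norm_num)
  have h6 : yy + s • p = 0 := by
    apply hsm
    intro x
    simp only [map_add, map_smul, LinearMap.add_apply, LinearMap.smul_apply, smul_eq_mul]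
    rw [hker x, hs.h12 yy p x, pxy hs hp hw yy x, hy1, hy2]
    linear_combination (T p p x) * hs2
  have h7 : s = 0 := by
    have := congrArg (al T p w0) h6
    rw [map_add, map_smul, hy2, al_p hs hp hw] at this
    simpa using this
  rw [h7, zero_smul, add_zero] at h6
  exact Subtype.ext h6

end Abs

/-- statement of the existence of a skew line -/
def SkewStmt : Prop :=
  ∀ (E : Type) [AddCommGroup E] [Module ℂ E] [FiniteDimensional ℂ E],
    Module.finrank ℂ E = 4 → ∀ (T : E →ₗ[ℂ] E →ₗ[ℂ] E →ₗ[ℂ] ℂ),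
    (∀ x y z, T x y z = T y x z) → (∀ x y z, T x y z = T x z y) →
    (∀ x, (∀ y, T x x y = 0) → x = 0) → ∀ (u v : E), LinearIndependent ℂ ![u, v] →
    (∀ s t : ℂ, T (s • u + t • v) (s • u + t • v) (s • u + t • v) = 0) →
    ∃ y1 y2 : E, LinearIndependent ℂ ![u, v, y1, y2] ∧
      ∀ s t : ℂ, T (s • y1 + t • y2) (s • y1 + t • y2) (s • y1 + t • y2) = 0

/-- statement of the existence of a line -/
def LineStmt : Prop :=
  ∀ (E : Type) [AddCommGroup E] [Module ℂ E] [FiniteDimensional ℂ E],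
    Module.finrank ℂ E = 4 → ∀ (T : E →ₗ[ℂ] E →ₗ[ℂ] E →ₗ[ℂ] ℂ),
    (∀ x y z, T x y z = T y x z) → (∀ x y z, T x y z = T x z y) →
    (∀ x, (∀ y, T x x y = 0) → x = 0) → ∃ u v : E, LinearIndependent ℂ ![u, v] ∧
    ∀ s t : ℂ, T (s • u + t • v) (s • u + t • v) (s • u + t • v) = 0

end P287H468
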