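import Mathlib
import Vale.Agent.P287.H468.Defs

set_option autoImplicit false
set_option linter.all false

/-!
A homogeneous cubic polynomial in six variables is given by a symmetric tensor.
-/

namespace P287H468
open MvPolynomial

theorem pd_comm (i j : Fin 6) (F : MvPolynomial (Fin 6) ℂ) :
    pderiv i (pderiv j F) = pderiv j (pderiv i F) := by
  have h : ⁅(pderiv i : Derivation ℂ (MvPolynomial (Fin 6) ℂ) (MvPolynomial (Fin 6) ℂ)),
      (pderiv j : Derivation ℂ (MvPolynomial (Fin 6) ℂ) (MvPolynomial (Fin 6) ℂ))⁆ = 0 := by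
    apply MvPolynomial.derivation_ext
    intro k
    rw [Derivation.commutator_apply, pderiv_X, pderiv_X]
    simp only [Pi.single_apply]
    split_ifs <;> simp
  have h2 := congrArg (fun D => D F) h
  simp only [Derivation.commutator_apply, Derivation.coe_zero, Pi.zero_apply] at h2
  exact sub_eq_zero.1 h2

/-- Euler's identity, evaluated -/
theorem euler_eval {n : ℕ} {F : MvPolynomial (Fin 6) ℂ} (hF : F.IsHomogeneous n)
    (x : Fin 6 → ℂ) : ∑ i, x i * eval x (pderiv i F) = n * eval x F := by
  have h := congrArg (eval x) hF.sum_X_mul_pderiv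
  simp only [map_sum, map_mul, eval_X, nsmul_eq_mul, map_natCast] at h
  exact h

/-- the tensor of third derivatives -/
noncomputable def ten (F : MvPolynomial (Fin 6) ℂ) (i j k : Fin 6) : ℂ :=
  (1 / 6) * eval 0 (pderiv i (pderiv j (pderiv k F)))

theorem ten_sym (F : MvPolynomial (Fin 6) ℂ) : SymT (ten F) := by
  intro i j k
  constructor
  · rw [ten, ten, pd_comm]
  · rw [ten, ten, pd_comm j k]

theorem third_const {F : MvPolynomial (Fin 6) ℂ} (hF : F.IsHomogeneous 3) (i j k : Fin 6)
    (x : Fin 6 → ℂ) : eval x (pderiv i (pderiv j (pderiv k F))) = 6 * ten F i j k := by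
  have h0 : (pderiv i (pderiv j (pderiv k F))).IsHomogeneous 0 := by
    have := ((hF.pderiv (i := k)).pderiv (i := j)).pderiv (i := i)
    simpa using this
  have h1 : ∃ c, pderiv i (pderiv j (pderiv k F)) = C c := by
    exact ⟨_, totalDegree_eq_zero_iff_eq_C.1 ((totalDegree_zero_iff_isHomogeneous _).2 h0)⟩
  obtain ⟨c, hc⟩ := h1
  rw [ten, hc, eval_C, eval_C]
  ring

theorem second_val {F : MvPolynomial (Fin 6) ℂ} (hF : F.IsHomogeneous 3) (j k : Fin 6)
    (x : Fin 6 → ℂ) : eval x (pderiv j (pderiv k F)) = ∑ i, 6 * ten F i j k * x i := by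
  have h0 : (pderiv j (pderiv k F)).IsHomogeneous 1 := by
    have := (hF.pderiv (i := k)).pderiv (i := j)
    simpa using this
  have h1 := euler_eval h0 x
  rw [Nat.cast_one, one_mul] at h1
  rw [← h1]
  refine Finset.sum_congr rfl fun i _ => ?_
  rw [third_const hF]
  ring

theorem first_val {F : MvPolynomial (Fin 6) ℂ} (hF : F.IsHomogeneous 3) (k : Fin 6)
    (x : Fin 6 → ℂ) : eval x (pderiv k F) = ∑ j, ∑ i, 3 * ten F i j k * x i * x j := by
  have h0 : (pderiv k F).IsHomogeneous 2 := by
    have := hF.pderiv (i := k)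
    simpa using this
  have h1 := euler_eval h0 x
  have h2 : (2 : ℂ) * eval x (pderiv k F) = 2 * ∑ j, ∑ i, 3 * ten F i j k * x i * x j := by
    rw [Nat.cast_ofNat] at h1
    rw [← h1, Finset.mul_sum]
    refine Finset.sum_congr rfl fun j _ => ?_
    rw [second_val hF, Finset.mul_sum, Finset.mul_sum]
    refine Finset.sum_congr rfl fun i _ => ?_
    ring
  exact mul_left_cancel₀ two_ne_zero h2

theorem grad_val {F : MvPolynomial (Fin 6) ℂ} (hF : F.IsHomogeneous 3) (x y : Fin 6 → ℂ) :
    ∑ i, eval x (pderiv i F) * y i = 3 * Tri (ten F) x x y := by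
  have e : Tri (ten F) x x y = ∑ k, ∑ j, ∑ i, ten F i j k * x i * x j * y k := by
    unfold Tri
    rw [Finset.sum_comm]
    refine (Finset.sum_congr rfl fun j _ => Finset.sum_comm).trans ?_
    rw [Finset.sum_comm]
  rw [e, Finset.mul_sum]
  refine Finset.sum_congr rfl fun k _ => ?_
  rw [first_val hF, Finset.sum_mul, Finset.mul_sum]
  refine Finset.sum_congr rfl fun j _ => ?_
  rw [Finset.sum_mul, Finset.mul_sum]
  refine Finset.sum_congr rfl fun i _ => ?_
  ring

theorem val_ten {F : MvPolynomial (Fin 6) ℂ} (hF : F.IsHomogeneous 3) (x : Fin 6 → ℂ) :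
    eval x F = Tri (ten F) x x x := by
  have h1 := euler_eval hF x
  have h2 := grad_val hF x x
  have h3 : ∑ i, x i * eval x (pderiv i F) = ∑ i, eval x (pderiv i F) * x i :=
    Finset.sum_congr rfl fun i _ => mul_comm _ _
  rw [h3, h2] at h1
  have h4 : (3 : ℂ) * Tri (ten F) x x x = 3 * eval x F := by
    rw [h1]; norm_num
  exact (mul_left_cancel₀ three_ne_zero h4).symm

end P287H468
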