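import Mathlib
import Vale.Agent.P287.H468.Defs

set_option autoImplicit false
set_option linter.all false

/-!
Tensors as trilinear maps, and change of coordinates.
-/

namespace P287H468

/-- six-dimensional space -/
abbrev E6 : Type := Fin 6 → ℂ

/-- the trilinear map of a tensor -/
noncomputable def T6 (a : Fin 6 → Fin 6 → Fin 6 → ℂ) : E6 →ₗ[ℂ] E6 →ₗ[ℂ] E6 →ₗ[ℂ] ℂ :=
  ∑ i, ∑ j, ∑ k, (LinearMap.proj i : E6 →ₗ[ℂ] ℂ).smulRight
    ((LinearMap.proj j : E6 →ₗ[ℂ] ℂ).smulRight (a i j k • (LinearMap.proj k : E6 →ₗ[ℂ] ℂ)))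

theorem T6_apply (a : Fin 6 → Fin 6 → Fin 6 → ℂ) (x y z : E6) :
    T6 a x y z = Tri a x y z := by
  simp only [T6, Tri, LinearMap.sum_apply, LinearMap.smulRight_apply, LinearMap.proj_apply,
    LinearMap.smul_apply, smul_eq_mul]
  refine Finset.sum_congr rfl fun i _ => Finset.sum_congr rfl fun j _ =>
    Finset.sum_congr rfl fun k _ => ?_
  ring

theorem T6_12 {a : Fin 6 → Fin 6 → Fin 6 → ℂ} (hs : SymT a) (x y z : E6) :
    T6 a x y z = T6 a y x z := by
  rw [T6_apply, T6_apply, Tri, Tri, Finset.sum_comm]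
  refine Finset.sum_congr rfl fun i _ => Finset.sum_congr rfl fun j _ =>
    Finset.sum_congr rfl fun k _ => ?_
  rw [(hs j i k).1]
  ring

theorem T6_23 {a : Fin 6 → Fin 6 → Fin 6 → ℂ} (hs : SymT a) (x y z : E6) :
    T6 a x y z = T6 a x z y := by
  rw [T6_apply, T6_apply, Tri, Tri]
  refine Finset.sum_congr rfl fun i _ => ?_
  rw [Finset.sum_comm]
  refine Finset.sum_congr rfl fun j _ => Finset.sum_congr rfl fun k _ => ?_
  rw [(hs i k j).2]
  ring

/-- the tensor of a trilinear map -/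
def tt (T : E6 →ₗ[ℂ] E6 →ₗ[ℂ] E6 →ₗ[ℂ] ℂ) (i j k : Fin 6) : ℂ :=
  T (Pi.single i 1) (Pi.single j 1) (Pi.single k 1)

theorem single_sum (x : E6) : x = ∑ i, x i • (Pi.single i 1 : E6) := by
  funext j
  simp [Finset.sum_apply, Pi.single_apply]

theorem tt_apply (T : E6 →ₗ[ℂ] E6 →ₗ[ℂ] E6 →ₗ[ℂ] ℂ) (x y z : E6) :
    Tri (tt T) x y z = T x y z := by
  have e : T x y z = ∑ i, ∑ j, ∑ k, x i * (y j * (z k * T (Pi.single i 1) (Pi.single j 1)
      (Pi.single k 1))) := by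
    conv_lhs => rw [single_sum x]
    rw [map_sum, LinearMap.sum_apply, LinearMap.sum_apply]
    refine Finset.sum_congr rfl fun i _ => ?_
    rw [map_smul, LinearMap.smul_apply, LinearMap.smul_apply]
    conv_lhs => rw [single_sum y]
    rw [map_sum, LinearMap.sum_apply, smul_eq_mul, Finset.mul_sum]
    refine Finset.sum_congr rfl fun j _ => ?_
    rw [map_smul, LinearMap.smul_apply]
    conv_lhs => rw [single_sum z]
    rw [map_sum, smul_eq_mul, Finset.mul_sum, Finset.mul_sum]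
    refine Finset.sum_congr rfl fun k _ => ?_
    rw [map_smul, smul_eq_mul]
  rw [e, Tri]
  refine Finset.sum_congr rfl fun i _ => Finset.sum_congr rfl fun j _ =>
    Finset.sum_congr rfl fun k _ => ?_
  rw [tt]
  ring

/-- change of coordinates: the pulled back trilinear map -/
noncomputable def pull (T : E6 →ₗ[ℂ] E6 →ₗ[ℂ] E6 →ₗ[ℂ] ℂ) (g : E6 →ₗ[ℂ] E6) :
    E6 →ₗ[ℂ] E6 →ₗ[ℂ] E6 →ₗ[ℂ] ℂ where
  toFun x := (T (g x)).compl₁₂ g g
  map_add' x y := by
    ext u v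
    simp
  map_smul' r x := by
    ext u v
    simp

theorem pull_apply (T : E6 →ₗ[ℂ] E6 →ₗ[ℂ] E6 →ₗ[ℂ] ℂ) (g : E6 →ₗ[ℂ] E6) (x y z : E6) :
    pull T g x y z = T (g x) (g y) (g z) := rfl

end P287H468
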