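import Mathlib
import Vale.Agent.P287.H468.Defs
import Vale.Agent.P287.H468.Gl2

set_option autoImplicit false
set_option linter.all false

/-!
Two disjoint planes from an Eckardt point and a plane not through it.
-/

namespace P287H468
open Module

section Abs
variable {E : Type} [AddCommGroup E] [Module ℂ E]
variable {T : E →ₗ[ℂ] E →ₗ[ℂ] E →ₗ[ℂ] ℂ} {p w0 : E}

/-- the cubic restricted to the tangent hyperplane is a cone -/
theorem cone_eq (hs : SymL T) (hp : EckL T p) {x : E} (hx : T p p x = 0) (r : ℂ) :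
    T (x + r • p) (x + r • p) (x + r • p) = T x x x := by
  have h1 := hp.con x hx
  have h2 : T x p p = 0 := by rw [hs.h12, hs.h23, hx]
  have h3 : T x p x = 0 := by rw [hs.h12, h1]
  have h4 : T x x p = 0 := by rw [hs.h23, h3]
  have h5 : T p x p = 0 := by rw [hs.h23, hx]
  simp only [map_add, map_smul, LinearMap.add_apply, LinearMap.smul_apply, smul_eq_mul,
    h1, h2, h3, h4, h5, hx, hp.ppp]
  ring

theorem planes [FiniteDimensional ℂ E] (hskew : SkewStmt) (hs : SymL T)
    (hsm : ∀ x, (∀ y, T x x y = 0) → x = 0) (hp : EckL T p) (hdim : finrank ℂ E = 6)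
    (W : Submodule ℂ E) (hW : finrank ℂ W = 3) (hpW : p ∉ W) (h0 : ∀ x ∈ W, T x x x = 0)
    (hne : ∃ w ∈ W, T p p w ≠ 0) :
    ∃ b : Fin 6 → E, LinearIndependent ℂ b ∧
      (∀ r s t : ℂ, T (r • b 0 + s • b 1 + t • b 2) (r • b 0 + s • b 1 + t • b 2)
        (r • b 0 + s • b 1 + t • b 2) = 0) ∧
      (∀ r s t : ℂ, T (r • b 3 + s • b 4 + t • b 5) (r • b 3 + s • b 4 + t • b 5)
        (r • b 3 + s • b 4 + t • b 5) = 0) := by
  obtain ⟨w, hwW, hw⟩ := hne
  set w0 : E := (T p p w)⁻¹ • w with hw0
  have hw0W : w0 ∈ W := W.smul_mem _ hwW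
  have hw1 : T p p w0 = 1 := by
    rw [hw0, map_smul, smul_eq_mul, inv_mul_cancel₀ hw]
  -- the line `W ∩ ker L`
  set K := LinearMap.ker ((T p p).domRestrict W) with hK
  have hKd : finrank ℂ K = 2 := by
    have h1 := LinearMap.finrank_range_add_finrank_ker ((T p p).domRestrict W)
    have h2 : LinearMap.range ((T p p).domRestrict W) = ⊤ := by
      rw [LinearMap.range_eq_top]
      intro r
      refine ⟨r • ⟨w0, hw0W⟩, ?_⟩
      rw [map_smul, LinearMap.domRestrict_apply]
      simp [hw1]
    rw [h2, finrank_top, hW, finrank_self] at h1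
    have h4 : finrank ℂ K = finrank ℂ (LinearMap.ker ((T p p).domRestrict W)) := rfl
    omega
  let bK : Basis (Fin 2) ℂ K := finBasisOfFinrankEq ℂ K hKd
  set u : E := ((bK 0 : K) : W).1 with hu
  set v : E := ((bK 1 : K) : W).1 with hv
  have huW : u ∈ W := ((bK 0 : K) : W).2
  have hvW : v ∈ W := ((bK 1 : K) : W).2
  have huL : T p p u = 0 := LinearMap.mem_ker.1 (bK 0).2
  have hvL : T p p v = 0 := LinearMap.mem_ker.1 (bK 1).2
  have huv : ∀ r s : ℂ, r • u + s • v = 0 → r = 0 ∧ s = 0 := by
    intro r s h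
    have h1 := bK.linearIndependent
    rw [Fintype.linearIndependent_iff] at h1
    have h2 := h1 ![r, s] (by
      rw [Fin.sum_univ_two]
      apply Subtype.ext
      apply Subtype.ext
      simpa using h)
    exact ⟨by simpa using h2 0, by simpa using h2 1⟩
  -- projected to the four-dimensional space
  have hproj : ∀ x, T p p x = 0 → x - al T p w0 x • p ∈ HH T p w0 := by
    intro x hx
    rw [mem_HH]
    constructor
    · rw [map_sub, map_smul, hx, hp.ppp]; simp
    · rw [map_sub, map_smul, al_p hs hp hw1]; simp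
  set u' : HH T p w0 := ⟨u - al T p w0 u • p, hproj u huL⟩ with hu'
  set v' : HH T p w0 := ⟨v - al T p w0 v • p, hproj v hvL⟩ with hv'
  have hpcoef : ∀ (r : ℂ) (x : E), x ∈ W → x = r • p → r = 0 := by
    intro r x hx h
    by_contra hr
    apply hpW
    have : p = r⁻¹ • x := by rw [h, smul_smul, inv_mul_cancel₀ hr, one_smul]
    rw [this]
    exact W.smul_mem _ hx
  have huv' : ∀ r s : ℂ, r • u' + s • v' = 0 → r = 0 ∧ s = 0 := by
    intro r s h
    have h1 : r • (u - al T p w0 u • p) + s • (v - al T p w0 v • p) = 0 := by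
      have := congrArg (Subtype.val) h
      simpa using this
    have h2 : r • u + s • v = (r * al T p w0 u + s * al T p w0 v) • p := by
      rw [← sub_eq_zero, ← h1]
      module
    have h3 := hpcoef _ _ (W.add_mem (W.smul_mem r huW) (W.smul_mem s hvW)) h2
    rw [h3, zero_smul] at h2
    exact huv r s h2
  have hli' : LinearIndependent ℂ ![u', v'] := by
    rw [LinearIndependent.pair_iff]
    exact huv'
  have hz' : ∀ s t : ℂ, res T (HH T p w0) (s • u' + t • v') (s • u' + t • v')
      (s • u' + t • v') = 0 := by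
    intro s t
    rw [res_apply]
    have e : ((s • u' + t • v' : HH T p w0) : E) =
        (s • u + t • v) + (-(s * al T p w0 u + t * al T p w0 v)) • p := by
      have : ((s • u' + t • v' : HH T p w0) : E) =
        s • (u - al T p w0 u • p) + t • (v - al T p w0 v • p) := by simp [hu', hv']
      rw [this]
      module
    rw [e, cone_eq hs hp (by rw [map_add, map_smul, map_smul, huL, hvL]; simp)]
    exact h0 _ (W.add_mem (W.smul_mem s huW) (W.smul_mem t hvW))
  obtain ⟨y1, y2, hyli, hy0⟩ := hskew (HH T p w0) (HH_dim hdim hs hp hw1)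
    (res T (HH T p w0)) (fun x y z => hs.h12 _ _ _) (fun x y z => hs.h23 _ _ _)
    (HH_smooth hs hsm hp hw1) u' v' hli' hz'
  obtain ⟨hy1a, hy1b⟩ := mem_HH.1 y1.2
  obtain ⟨hy2a, hy2b⟩ := mem_HH.1 y2.2
  refine ⟨![p, (y1 : E), (y2 : E), u, v, w0], ?_, ?_, ?_⟩
  · rw [Fintype.linearIndependent_iff]
    intro c hc
    simp only [Fin.sum_univ_six, Matrix.cons_val] at hc
    have c5 : c 5 = 0 := by
      have := congrArg (T p p) hc
      simp only [map_add, map_smul, hp.ppp, hy1a, hy2a, huL, hvL, hw1, smul_eq_mul, mul_zero,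
        map_zero] at this
      simpa using this
    have cal : c 0 + c 3 * al T p w0 u + c 4 * al T p w0 v = 0 := by
      have := congrArg (al T p w0) hc
      simp only [map_add, map_smul, al_p hs hp hw1, hy1b, hy2b, c5, smul_eq_mul, mul_zero,
        map_zero, zero_smul, zero_mul] at this
      linear_combination this
    have h2 : c 3 • u' + c 4 • v' + c 1 • y1 + c 2 • y2 = 0 := by
      apply Subtype.ext
      have e : ((c 3 • u' + c 4 • v' + c 1 • y1 + c 2 • y2 : HH T p w0) : E) =
        c 3 • (u - al T p w0 u • p) + c 4 • (v - al T p w0 v • p) + c 1 • (y1 : E)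
          + c 2 • (y2 : E) := by simp [hu', hv']
      rw [e, Submodule.coe_zero]
      have e2 : c 3 • (u - al T p w0 u • p) + c 4 • (v - al T p w0 v • p) + c 1 • (y1 : E)
          + c 2 • (y2 : E) = (c 0 • p + c 1 • (y1 : E) + c 2 • (y2 : E) + c 3 • u + c 4 • v
          + c 5 • w0) - (c 0 + c 3 * al T p w0 u + c 4 * al T p w0 v) • p - c 5 • w0 := by
        module
      rw [e2, hc, cal, c5]
      simp
    rw [Fintype.linearIndependent_iff] at hyli
    have h3 := hyli ![c 3, c 4, c 1, c 2] (by
      simp only [Fin.sum_univ_four, Matrix.cons_val]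
      exact h2)
    have c3 : c 3 = 0 := by simpa using h3 0
    have c4 : c 4 = 0 := by simpa using h3 1
    have c1 : c 1 = 0 := by simpa using h3 2
    have c2 : c 2 = 0 := by simpa using h3 3
    have c0 : c 0 = 0 := by
      rw [c3, c4] at cal
      simpa using cal
    intro i
    fin_cases i
    · exact c0
    · exact c1
    · exact c2
    · exact c3
    · exact c4
    · exact c5
  · intro r s t
    simp only [Matrix.cons_val]
    have h1 := hy0 s t
    rw [res_apply] at h1
    have h2 := cone_eq hs hp (x := s • (y1 : E) + t • (y2 : E))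
      (by rw [map_add, map_smul, map_smul, hy1a, hy2a]; simp) r
    have e : r • p + s • (y1 : E) + t • (y2 : E) = s • (y1 : E) + t • (y2 : E) + r • p := by
      module
    rw [e, h2]
    simpa using h1
  · intro r s t
    simp only [Matrix.cons_val]
    exact h0 _ (W.add_mem (W.add_mem (W.smul_mem r huW) (W.smul_mem s hvW)) (W.smul_mem t hw0W))

end Abs

end P287H468
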