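import Mathlib

set_option autoImplicit false

namespace P287H468
namespace TE
open Polynomial

/-- roots of quadratic, cubic and quartic polynomials over the complex numbers -/
theorem root2 (a b c : ℂ) (ha : a ≠ 0) : ∃ x : ℂ, a * x ^ 2 + b * x + c = 0 := by
  have h : (C a * X ^ 2 + C b * X + C c : ℂ[X]).degree = 2 := degree_quadratic ha
  obtain ⟨x, hx⟩ := IsAlgClosed.exists_root (C a * X ^ 2 + C b * X + C c : ℂ[X])
    (by rw [h]; norm_num)
  refine ⟨x, ?_⟩
  simpa [IsRoot.def] using hx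

theorem root3 (a b c d : ℂ) (ha : a ≠ 0) : ∃ x : ℂ, a * x ^ 3 + b * x ^ 2 + c * x + d = 0 := by
  have h : (C a * X ^ 3 + C b * X ^ 2 + C c * X + C d : ℂ[X]).degree = 3 := degree_cubic ha
  obtain ⟨x, hx⟩ := IsAlgClosed.exists_root (C a * X ^ 3 + C b * X ^ 2 + C c * X + C d : ℂ[X])
    (by rw [h]; norm_num)
  refine ⟨x, ?_⟩
  simpa [IsRoot.def] using hx

theorem root4 (a b c d e : ℂ) (ha : a ≠ 0) :
    ∃ x : ℂ, a * x ^ 4 + b * x ^ 3 + c * x ^ 2 + d * x + e = 0 := by
  have h : (C a * X ^ 4 + C b * X ^ 3 + C c * X ^ 2 + C d * X + C e : ℂ[X]).degree = 4 := by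
    compute_degree!
  obtain ⟨x, hx⟩ := IsAlgClosed.exists_root
    (C a * X ^ 4 + C b * X ^ 3 + C c * X ^ 2 + C d * X + C e : ℂ[X])
    (by rw [h]; norm_num)
  refine ⟨x, ?_⟩
  simpa [IsRoot.def] using hx

theorem sqrt_ex (a : ℂ) : ∃ x : ℂ, x ^ 2 = a := by
  obtain ⟨x, hx⟩ := IsAlgClosed.exists_pow_nat_eq a (n := 2) (by norm_num)
  exact ⟨x, hx⟩

section Core
variable {V : Type} [AddCommGroup V] [Module ℂ V]

/-- symmetric trilinear forms -/
structure Sym3 (T : V →ₗ[ℂ] V →ₗ[ℂ] V →ₗ[ℂ] ℂ) : Prop where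
  s12 : ∀ x y z, T x y z = T y x z
  s23 : ∀ x y z, T x y z = T x z y

variable {T : V →ₗ[ℂ] V →ₗ[ℂ] V →ₗ[ℂ] ℂ}

theorem Sym3.s13 (h : Sym3 T) (x y z : V) : T x y z = T z y x := by
  rw [h.s12 x y z, h.s23 y x z, h.s12 y z x]

/-- two commuting reflections: `p`, `q` the reflected vectors, `U` the common fixed space -/
structure Eck (T : V →ₗ[ℂ] V →ₗ[ℂ] V →ₗ[ℂ] ℂ) (U : Submodule ℂ V) (p q : V) : Prop where
  pU : ∀ x ∈ U, ∀ y ∈ U, T p x y = 0
  qU : ∀ x ∈ U, ∀ y ∈ U, T q x y = 0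
  pqU : ∀ x ∈ U, T p q x = 0
  ppp : T p p p = 0
  ppq : T p p q = 0
  pqq : T p q q = 0
  qqq : T q q q = 0

theorem Eck.symm {U : Submodule ℂ V} {p q : V} (hT : Sym3 T) (h : Eck T U p q) :
    Eck T U q p where
  pU := h.qU
  qU := h.pU
  pqU := fun x hx => by rw [hT.s12, h.pqU x hx]
  ppp := h.qqq
  ppq := by rw [hT.s13, h.pqq]
  pqq := by rw [hT.s12, hT.s23, h.ppq]
  qqq := h.ppp

/-- expansion of the cubic form -/
theorem Eck.cube {U : Submodule ℂ V} {p q : V} (hT : Sym3 T) (h : Eck T U p q) {u : V}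
    (hu : u ∈ U) (r s : ℂ) :
    T (u + r • p + s • q) (u + r • p + s • q) (u + r • p + s • q) =
      T u u u + 3 * r ^ 2 * T p p u + 3 * s ^ 2 * T q q u := by
  have e1 := h.pU u hu u hu
  have e2 := h.qU u hu u hu
  have e3 := h.pqU u hu
  have e4 := h.ppp
  have e5 := h.ppq
  have e6 := h.pqq
  have e7 := h.qqq
  simp only [map_add, map_smul, LinearMap.add_apply, LinearMap.smul_apply, smul_eq_mul]
  rw [hT.s12 u p u, hT.s13 u u p, hT.s13 u p p, hT.s23 p u p, hT.s12 u q u, hT.s13 u u q,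
    hT.s13 u q q, hT.s23 q u q, hT.s13 u p q, hT.s12 q p u, hT.s23 q u p, hT.s12 q p u,
    hT.s12 u q p, hT.s23 q u p, hT.s12 q p u, hT.s23 p u q, hT.s23 p q p, hT.s13 q p p,
    hT.s12 q p q, hT.s13 q q p]
  rw [e1, e2, e3, e4, e5, e6, e7]
  ring

/-- a singular point is the origin -/
theorem Eck.sing {U : Submodule ℂ V} {p q : V} (hT : Sym3 T) (h : Eck T U p q)
    (hV : ∀ y : V, ∃ u ∈ U, ∃ r s : ℂ, y = u + r • p + s • q)
    (hi : ∀ u ∈ U, ∀ r s : ℂ, u + r • p + s • q = 0 → u = 0 ∧ r = 0 ∧ s = 0)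
    (hsm : ∀ x, (∀ y, T x x y = 0) → x = 0)
    {w : V} (hw : w ∈ U) (α β : ℂ)
    (h1 : ∀ u ∈ U, T w w u + α ^ 2 * T p p u + β ^ 2 * T q q u = 0)
    (h2 : α * T p p w = 0) (h3 : β * T q q w = 0) : w = 0 ∧ α = 0 ∧ β = 0 := by
  apply hi w hw α β
  apply hsm
  intro y
  obtain ⟨u, hu, r, s, rfl⟩ := hV y
  have wwp : T w w p = 0 := by rw [hT.s13, h.pU w hw w hw]
  have wwq : T w w q = 0 := by rw [hT.s13, h.qU w hw w hw]
  have wpu : T w p u = 0 := by rw [hT.s12, h.pU w hw u hu]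
  have wpp : T w p p = T p p w := by rw [hT.s13]
  have wpq : T w p q = 0 := by rw [hT.s12, hT.s23, h.pqU w hw]
  have wqu : T w q u = 0 := by rw [hT.s12, h.qU w hw u hu]
  have wqp : T w q p = 0 := by rw [hT.s13, h.pqU w hw]
  have wqq : T w q q = T q q w := by rw [hT.s13]
  have pwu : T p w u = 0 := h.pU w hw u hu
  have pwp : T p w p = T p p w := by rw [hT.s23]
  have pwq : T p w q = 0 := by rw [hT.s23, h.pqU w hw]
  have ppp : T p p p = 0 := h.ppp
  have ppq : T p p q = 0 := h.ppq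
  have pqu : T p q u = 0 := h.pqU u hu
  have pqp : T p q p = 0 := by rw [hT.s23, h.ppq]
  have pqq : T p q q = 0 := h.pqq
  have qwu : T q w u = 0 := h.qU w hw u hu
  have qwp : T q w p = 0 := by rw [hT.s12, wqp]
  have qwq : T q w q = T q q w := by rw [hT.s23]
  have qpu : T q p u = 0 := by rw [hT.s12, pqu]
  have qpp : T q p p = 0 := by rw [hT.s13, ppq]
  have qpq : T q p q = 0 := by rw [hT.s12, pqq]
  have qqp : T q q p = 0 := by rw [hT.s13, pqq]
  have qqq : T q q q = 0 := h.qqq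
  have k1 := h1 u hu
  simp only [map_add, map_smul, LinearMap.add_apply, LinearMap.smul_apply, smul_eq_mul]
  rw [wwp, wwq, wpu, wpp, wpq, wqu, wqp, wqq, pwu, pwp, pwq, ppp, ppq, pqu, pqp, pqq, qwu, qwp,
    qwq, qpu, qpp, qpq, qqp, qqq]
  linear_combination k1 + 2 * r * h2 + 2 * s * h3

/-- the two linear forms `T p p ·`, `T q q ·` on `U` -/
noncomputable def Phi (T : V →ₗ[ℂ] V →ₗ[ℂ] V →ₗ[ℂ] ℂ) (U : Submodule ℂ V) (p q : V) :
    U →ₗ[ℂ] ℂ × ℂ :=
  ((T p p).comp U.subtype).prod ((T q q).comp U.subtype)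

theorem Phi_apply (U : Submodule ℂ V) (p q : V) (u : U) :
    Phi T U p q u = (T p p (u : V), T q q (u : V)) := rfl

theorem Eck.range {U : Submodule ℂ V} {p q : V} (hT : Sym3 T) (h : Eck T U p q)
    (hV : ∀ y : V, ∃ u ∈ U, ∃ r s : ℂ, y = u + r • p + s • q)
    (hi : ∀ u ∈ U, ∀ r s : ℂ, u + r • p + s • q = 0 → u = 0 ∧ r = 0 ∧ s = 0)
    (hsm : ∀ x, (∀ y, T x x y = 0) → x = 0) : LinearMap.range (Phi T U p q) = ⊤ := by
  by_contra hne
  obtain ⟨f, hf0, hf⟩ := Submodule.exists_le_ker_of_lt_top _ (lt_top_iff_ne_top.2 hne)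
  obtain ⟨α, hα⟩ := sqrt_ex (f (1, 0))
  obtain ⟨β, hβ⟩ := sqrt_ex (f (0, 1))
  have hfe : ∀ x y : ℂ, f (x, y) = x * f (1, 0) + y * f (0, 1) := by
    intro x y
    have e : ((x, y) : ℂ × ℂ) = x • (1, 0) + y • (0, 1) := by
      ext <;> simp
    rw [e, map_add, map_smul, map_smul]
    rfl
  have key := h.sing hT hV hi hsm (w := 0) U.zero_mem α β (by
    intro u hu
    have h1 : Phi T U p q ⟨u, hu⟩ ∈ LinearMap.ker f := hf (LinearMap.mem_range_self _ _)
    rw [LinearMap.mem_ker, Phi_apply, hfe] at h1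
    rw [hα, hβ]
    simp only [map_zero, LinearMap.zero_apply]
    linear_combination h1) (by simp) (by simp)
  apply hf0
  refine LinearMap.ext fun z => ?_
  obtain ⟨x, y⟩ := z
  rw [hfe, ← hα, ← hβ, key.2.1, key.2.2]
  simp

/-- dual vectors, and a basis of the common kernel -/
theorem Eck.data {U : Submodule ℂ V} {p q : V} (hT : Sym3 T) (h : Eck T U p q)
    (hV : ∀ y : V, ∃ u ∈ U, ∃ r s : ℂ, y = u + r • p + s • q)
    (hi : ∀ u ∈ U, ∀ r s : ℂ, u + r • p + s • q = 0 → u = 0 ∧ r = 0 ∧ s = 0)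
    (hsm : ∀ x, (∀ y, T x x y = 0) → x = 0) [FiniteDimensional ℂ V]
    (hU : Module.finrank ℂ U = 4) :
    ∃ v ∈ U, ∃ v' ∈ U, ∃ b ∈ U, ∃ b' ∈ U, T p p v = 1 ∧ T q q v = 0 ∧ T p p v' = 0 ∧
      T q q v' = 1 ∧ T p p b = 0 ∧ T q q b = 0 ∧ T p p b' = 0 ∧ T q q b' = 0 ∧
      (∀ x y : ℂ, x • b + y • b' = 0 → x = 0 ∧ y = 0) ∧
      ∀ w ∈ U, T p p w = 0 → T q q w = 0 → ∃ x y : ℂ, w = x • b + y • b' := by
  have hr := h.range hT hV hi hsm
  have hs : Function.Surjective (Phi T U p q) := LinearMap.range_eq_top.1 hr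
  obtain ⟨v, hv⟩ := hs (1, 0)
  obtain ⟨v', hv'⟩ := hs (0, 1)
  rw [Phi_apply, Prod.mk.injEq] at hv hv'
  have h1 := LinearMap.finrank_range_add_finrank_ker (Phi T U p q)
  rw [hr, finrank_top, hU] at h1
  have h2 : Module.finrank ℂ (LinearMap.ker (Phi T U p q)) = 2 := by
    have h3 : Module.finrank ℂ (ℂ × ℂ) = 2 := by simp
    omega
  let B := Module.finBasisOfFinrankEq ℂ (LinearMap.ker (Phi T U p q)) h2
  have hk : ∀ i, T p p ((B i : U) : V) = 0 ∧ T q q ((B i : U) : V) = 0 := by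
    intro i
    have h3 : Phi T U p q (B i : U) = 0 := LinearMap.mem_ker.1 (B i).2
    rw [Phi_apply, Prod.mk_eq_zero] at h3
    exact h3
  refine ⟨v, v.2, v', v'.2, (B 0 : U), (B 0 : U).2, (B 1 : U), (B 1 : U).2, hv.1, hv.2, hv'.1,
    hv'.2, (hk 0).1, (hk 0).2, (hk 1).1, (hk 1).2, ?_, ?_⟩
  · intro x y hxy
    have h3 : x • B 0 + y • B 1 = 0 := by
      apply Subtype.ext
      apply Subtype.ext
      simpa using hxy
    have h4 := B.linearIndependent
    rw [Fintype.linearIndependent_iff] at h4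
    have h5 := h4 ![x, y] (by rw [Fin.sum_univ_two]; simpa using h3)
    exact ⟨by simpa using h5 0, by simpa using h5 1⟩
  · intro w hw hw1 hw2
    have hwk : (⟨w, hw⟩ : U) ∈ LinearMap.ker (Phi T U p q) := by
      rw [LinearMap.mem_ker, Phi_apply, Prod.mk_eq_zero]
      exact ⟨hw1, hw2⟩
    have h3 := B.sum_repr ⟨⟨w, hw⟩, hwk⟩
    rw [Fin.sum_univ_two] at h3
    refine ⟨B.repr ⟨⟨w, hw⟩, hwk⟩ 0, B.repr ⟨⟨w, hw⟩, hwk⟩ 1, ?_⟩
    have h4 := congrArg (fun z : LinearMap.ker (Phi T U p q) => ((z : U) : V)) h3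
    simp only [Submodule.coe_add, Submodule.coe_smul] at h4
    exact h4.symm

/-- the cubic form on a line -/
theorem Sym3.cube2 (hT : Sym3 T) (u v : V) (r s : ℂ) :
    T (r • u + s • v) (r • u + s • v) (r • u + s • v) =
      r ^ 3 * T u u u + 3 * r ^ 2 * s * T u u v + 3 * r * s ^ 2 * T u v v + s ^ 3 * T v v v := by
  simp only [map_add, map_smul, LinearMap.add_apply, LinearMap.smul_apply, smul_eq_mul]
  rw [hT.s23 u v u, hT.s13 v u u, hT.s12 v u v, hT.s13 v v u]
  ring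

/-- a binary cubic form without multiple roots: two independent roots, spanning -/
theorem two_roots (hT : Sym3 T) {b b' : V}
    (hb : ∀ x y : ℂ, x • b + y • b' = 0 → x = 0 ∧ y = 0)
    (hn : ∀ x y : ℂ, x • b + y • b' ≠ 0 → T (x • b + y • b') (x • b + y • b') b ≠ 0 ∨
      T (x • b + y • b') (x • b + y • b') b' ≠ 0) :
    ∃ x y x' y' : ℂ, (T (x • b + y • b') (x • b + y • b') (x • b + y • b') = 0) ∧
      (T (x' • b + y' • b') (x' • b + y' • b') (x' • b + y' • b') = 0) ∧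
      (T (x • b + y • b') (x • b + y • b') (x' • b + y' • b') ≠ 0) ∧
      (T (x • b + y • b') (x' • b + y' • b') (x' • b + y' • b') ≠ 0) := by
  -- a first root `w` and a complement `z`
  have hb0 : b ≠ 0 := by
    intro h0
    have := hb 1 0 (by rw [h0]; simp)
    exact one_ne_zero this.1
  have step1 : ∃ x y s t : ℂ, T (x • b + y • b') (x • b + y • b') (x • b + y • b') = 0 ∧
      x • b + y • b' ≠ 0 ∧ (∃ c d : ℂ, b = c • (x • b + y • b') + d • (s • b + t • b')) ∧
      (∃ c d : ℂ, b' = c • (x • b + y • b') + d • (s • b + t • b')) := by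
    by_cases h0 : T b b b = 0
    · refine ⟨1, 0, 0, 1, by simpa using h0, by simpa using hb0, ⟨1, 0, by simp⟩, ⟨0, 1, by simp⟩⟩
    · obtain ⟨x, hx⟩ := root3 (T b b b) (3 * T b b b') (3 * T b b' b') (T b' b' b') h0
      refine ⟨x, 1, 1, 0, ?_, ?_, ⟨0, 1, by simp⟩, ⟨1, -x, by module⟩⟩
      · rw [hT.cube2]
        linear_combination hx
      · intro h1
        exact one_ne_zero (hb x 1 h1).2
  obtain ⟨x, y, s, t, hw, hw0, ⟨c, d, hc⟩, ⟨c', d', hc'⟩⟩ := step1
  have hlin : ∀ (x1 : V) (w z : V) (c d : ℂ), T x1 x1 (c • w + d • z) =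
      c * T x1 x1 w + d * T x1 x1 z := by
    intro x1 w z c d
    simp only [map_add, map_smul, smul_eq_mul]
  -- first nondegeneracy
  have h1 : T (x • b + y • b') (x • b + y • b') (s • b + t • b') ≠ 0 := by
    intro h2
    rcases hn x y hw0 with h3 | h3
    · apply h3
      rw [show T (x • b + y • b') (x • b + y • b') b = T (x • b + y • b') (x • b + y • b')
        (c • (x • b + y • b') + d • (s • b + t • b')) by rw [← hc], hlin, hw, h2]
      ring
    · apply h3
      rw [show T (x • b + y • b') (x • b + y • b') b' = T (x • b + y • b') (x • b + y • b')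
        (c' • (x • b + y • b') + d' • (s • b + t • b')) by rw [← hc'], hlin, hw, h2]
      ring
  set w := x • b + y • b' with hwdef
  set z := s • b + t • b' with hzdef
  obtain ⟨m, hm⟩ := root2 (3 * T w w z) (3 * T w z z) (T z z z) (mul_ne_zero (by norm_num) h1)
  have hz : (m * x + s) • b + (m * y + t) • b' = m • w + (1 : ℂ) • z := by
    rw [hwdef, hzdef]; module
  have h2 : T (m • w + (1 : ℂ) • z) (m • w + (1 : ℂ) • z) (m • w + (1 : ℂ) • z) = 0 := by
    rw [hT.cube2, hw]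
    linear_combination hm
  have h3 : T w w (m • w + (1 : ℂ) • z) ≠ 0 := by
    rw [hlin, hw]
    simpa using h1
  refine ⟨x, y, m * x + s, m * y + t, hw, ?_, ?_, ?_⟩
  · rw [hz]; exact h2
  · rw [hz]; exact h3
  · rw [hz]
    have h4 : (m * x + s) • b + (m * y + t) • b' ≠ 0 := by
      rw [hz]
      intro h5
      apply h3
      rw [h5]
      simp
    set z' := m • w + (1 : ℂ) • z with hz'
    have e1 : b = (c - d * m) • w + d • z' := by
      rw [hz']
      calc b = c • w + d • z := hc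
        _ = _ := by module
    have e2 : b' = (c' - d' * m) • w + d' • z' := by
      rw [hz']
      calc b' = c' • w + d' • z := hc'
        _ = _ := by module
    intro h5
    have h6 : T z' z' w = 0 := by rw [hT.s13, h5]
    rcases hn _ _ h4 with h7 | h7
    · apply h7
      rw [hz]
      rw [show T z' z' b = T z' z' ((c - d * m) • w + d • z') by rw [← e1], hlin, h6, h2]
      ring
    · apply h7
      rw [hz]
      rw [show T z' z' b' = T z' z' ((c' - d' * m) • w + d' • z') by rw [← e2], hlin, h6, h2]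
      ring

/-- the plane through `q` -/
theorem Eck.plane {U : Submodule ℂ V} {p q : V} (hT : Sym3 T) (h : Eck T U p q)
    {w z v : V} (hw : w ∈ U) (hz : z ∈ U) (hv : v ∈ U)
    (hw1 : T p p w = 0) (hw2 : T q q w = 0) (hz1 : T p p z = 0) (hz2 : T q q z = 0)
    (hv1 : T p p v = 1) (hv2 : T q q v = 0) (hww : T w w w = 0) (hzz : T z z z = 0)
    (hwz : T w z z ≠ 0) :
    ∃ c m n : ℂ, ∀ r s t : ℂ,
      T (r • q + s • (w + c • p) + t • (v + m • z + n • p))
        (r • q + s • (w + c • p) + t • (v + m • z + n • p))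
        (r • q + s • (w + c • p) + t • (v + m • z + n • p)) = 0 := by
  obtain ⟨m, hm⟩ := root4 (3 * (T w z z) ^ 2)
    (12 * T w z z * T w v z - 12 * T w w z * T v z z)
    (3 * (4 * (T w v z) ^ 2 + 2 * T w v v * T w z z) -
      4 * (T w w v * (3 * T v z z) + T w w z * (3 * T v v z)))
    (12 * T w v v * T w v z - 4 * (T w w v * (3 * T v v z) + T w w z * T v v v))
    (3 * (T w v v) ^ 2 - 4 * T w w v * T v v v)
    (mul_ne_zero (by norm_num) (pow_ne_zero _ hwz))
  -- the three coefficients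
  set A := T w w (v + m • z) with hA
  set B := T w (v + m • z) (v + m • z) with hB
  set C := T (v + m • z) (v + m • z) (v + m • z) with hC
  have hA' : A = T w w v + m * T w w z := by
    rw [hA]; simp only [map_add, map_smul, smul_eq_mul]
  have hB' : B = T w v v + 2 * m * T w v z + m ^ 2 * T w z z := by
    rw [hB]; simp only [map_add, map_smul, LinearMap.add_apply, LinearMap.smul_apply, smul_eq_mul]
    rw [hT.s23 w z v]; ring
  have hC' : C = T v v v + 3 * m * T v v z + 3 * m ^ 2 * T v z z := by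
    have h1 := hT.cube2 v z 1 m
    rw [one_smul, hzz] at h1
    rw [hC, h1]; ring
  have hdisc : 3 * B ^ 2 = 4 * A * C := by
    rw [hA', hB', hC']
    linear_combination hm
  obtain ⟨c, hc⟩ := sqrt_ex (-A)
  obtain ⟨n0, hn0⟩ := sqrt_ex (-C / 3)
  have hcn : (2 * c * n0) ^ 2 = B ^ 2 := by
    have : (2 * c * n0) ^ 2 = 4 * c ^ 2 * n0 ^ 2 := by ring
    rw [this, hc, hn0]
    linear_combination (-1 / 3 : ℂ) * hdisc
  have hn : ∃ n : ℂ, n ^ 2 = -C / 3 ∧ 2 * c * n = -B := by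
    rcases sq_eq_sq_iff_eq_or_eq_neg.1 hcn with h1 | h1
    · refine ⟨-n0, by rw [neg_sq, hn0], ?_⟩
      linear_combination -h1
    · exact ⟨n0, hn0, h1⟩
  obtain ⟨n, hn1, hn2⟩ := hn
  refine ⟨c, m, n, fun r s t => ?_⟩
  have hu : s • w + t • (v + m • z) ∈ U :=
    U.add_mem (U.smul_mem _ hw) (U.smul_mem _ (U.add_mem hv (U.smul_mem _ hz)))
  have e1 : r • q + s • (w + c • p) + t • (v + m • z + n • p) =
      (s • w + t • (v + m • z)) + (s * c + t * n) • p + r • q := by module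
  rw [e1, h.cube hT hu, hT.cube2, hww, ← hA, ← hB, ← hC]
  have e2 : T p p (s • w + t • (v + m • z)) = t := by
    simp only [map_add, map_smul, smul_eq_mul, hw1, hz1, hv1]
    ring
  have e3 : T q q (s • w + t • (v + m • z)) = 0 := by
    simp only [map_add, map_smul, smul_eq_mul, hw2, hz2, hv2]
    ring
  rw [e2, e3]
  linear_combination 3 * s ^ 2 * t * hc + 3 * s * t ^ 2 * hn2 + 3 * t ^ 3 * hn1

/-- two disjoint planes on the cubic -/
theorem Eck.planes {U : Submodule ℂ V} {p q : V} (hT : Sym3 T) (h : Eck T U p q)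
    (hV : ∀ y : V, ∃ u ∈ U, ∃ r s : ℂ, y = u + r • p + s • q)
    (hi : ∀ u ∈ U, ∀ r s : ℂ, u + r • p + s • q = 0 → u = 0 ∧ r = 0 ∧ s = 0)
    (hsm : ∀ x, (∀ y, T x x y = 0) → x = 0) [FiniteDimensional ℂ V]
    (hU : Module.finrank ℂ U = 4) :
    ∃ P : Fin 6 → V, (∀ g : Fin 6 → ℂ, ∑ i, g i • P i = 0 → g = 0) ∧
      (∀ x : Fin 3 → ℂ, T (x 0 • P 0 + x 1 • P 1 + x 2 • P 2)
        (x 0 • P 0 + x 1 • P 1 + x 2 • P 2) (x 0 • P 0 + x 1 • P 1 + x 2 • P 2) = 0) ∧
      (∀ x : Fin 3 → ℂ, T (x 0 • P 3 + x 1 • P 4 + x 2 • P 5)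
        (x 0 • P 3 + x 1 • P 4 + x 2 • P 5) (x 0 • P 3 + x 1 • P 4 + x 2 • P 5) = 0) := by
  obtain ⟨v, hv, v', hv', b, hb, b', hb', v1, v2, v1', v2', b1, b2, b1', b2', hbi, hbs⟩ :=
    h.data hT hV hi hsm hU
  have hn : ∀ x y : ℂ, x • b + y • b' ≠ 0 → T (x • b + y • b') (x • b + y • b') b ≠ 0 ∨
      T (x • b + y • b') (x • b + y • b') b' ≠ 0 := by
    intro x y hxy
    by_contra hcon
    push Not at hcon
    obtain ⟨k1, k2⟩ := hcon
    have hw : x • b + y • b' ∈ U := U.add_mem (U.smul_mem _ hb) (U.smul_mem _ hb')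
    have w1 : T p p (x • b + y • b') = 0 := by
      simp only [map_add, map_smul, smul_eq_mul, b1, b1']; ring
    have w2 : T q q (x • b + y • b') = 0 := by
      simp only [map_add, map_smul, smul_eq_mul, b2, b2']; ring
    set w := x • b + y • b' with hwd
    obtain ⟨α, hα⟩ := sqrt_ex (-(T w w v))
    obtain ⟨β, hβ⟩ := sqrt_ex (-(T w w v'))
    have key := h.sing hT hV hi hsm hw α β (by
      intro u hu
      have hu' : u - T p p u • v - T q q u • v' ∈ U :=
        U.sub_mem (U.sub_mem hu (U.smul_mem _ hv)) (U.smul_mem _ hv')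
      obtain ⟨x1, y1, h1⟩ := hbs _ hu' (by
        simp only [map_sub, map_smul, smul_eq_mul, v1, v1']; ring) (by
        simp only [map_sub, map_smul, smul_eq_mul, v2, v2']; ring)
      have h2 := congrArg (fun z => T w w z) h1
      simp only [map_sub, map_add, map_smul, smul_eq_mul, k1, k2] at h2
      rw [hα, hβ]
      linear_combination h2) (by rw [w1, mul_zero]) (by rw [w2, mul_zero])
    exact hxy key.1
  obtain ⟨x, y, x', y', hw3, hz3, hwwz, hwzz⟩ := two_roots hT hbi hn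
  have hw : x • b + y • b' ∈ U := U.add_mem (U.smul_mem _ hb) (U.smul_mem _ hb')
  have w1 : T p p (x • b + y • b') = 0 := by
    simp only [map_add, map_smul, smul_eq_mul, b1, b1']; ring
  have w2 : T q q (x • b + y • b') = 0 := by
    simp only [map_add, map_smul, smul_eq_mul, b2, b2']; ring
  have hz : x' • b + y' • b' ∈ U := U.add_mem (U.smul_mem _ hb) (U.smul_mem _ hb')
  have z1 : T p p (x' • b + y' • b') = 0 := by
    simp only [map_add, map_smul, smul_eq_mul, b1, b1']; ring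
  have z2 : T q q (x' • b + y' • b') = 0 := by
    simp only [map_add, map_smul, smul_eq_mul, b2, b2']; ring
  set w := x • b + y • b' with hwd
  set z := x' • b + y' • b' with hzd
  have hzww : T z w w ≠ 0 := by rw [hT.s13]; exact hwwz
  have hzzw : T z z w ≠ 0 := by rw [hT.s13]; exact hwzz
  obtain ⟨c, m, n, hP⟩ := h.plane hT hw hz hv w1 w2 z1 z2 v1 v2 hw3 hz3 hwzz
  obtain ⟨c', m', n', hP'⟩ := (h.symm hT).plane hT hz hw hv' z2 z1 w2 w1 v2' v1' hz3 hw3 hzww
  refine ⟨![q, w + c • p, v + m • z + n • p, p, z + c' • q, v' + m' • w + n' • q], ?_,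
    fun t => ?_, fun t => ?_⟩
  · intro g hg
    have e : ∑ i, g i • (![q, w + c • p, v + m • z + n • p, p, z + c' • q,
        v' + m' • w + n' • q] : Fin 6 → V) i =
        (g 1 • w + g 2 • (v + m • z) + g 4 • z + g 5 • (v' + m' • w)) +
        (g 1 * c + g 2 * n + g 3) • p + (g 0 + g 4 * c' + g 5 * n') • q := by
      rw [Fin.sum_univ_six]
      simp only [Matrix.cons_val]
      module
    rw [e] at hg
    have hu : g 1 • w + g 2 • (v + m • z) + g 4 • z + g 5 • (v' + m' • w) ∈ U :=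
      U.add_mem (U.add_mem (U.add_mem (U.smul_mem _ hw)
        (U.smul_mem _ (U.add_mem hv (U.smul_mem _ hz)))) (U.smul_mem _ hz))
        (U.smul_mem _ (U.add_mem hv' (U.smul_mem _ hw)))
    obtain ⟨h1, h2, h3⟩ := hi _ hu _ _ hg
    have g2 : g 2 = 0 := by
      have h4 := congrArg (fun y => T p p y) h1
      simp only [map_add, map_smul, smul_eq_mul, w1, z1, v1, v1', map_zero] at h4
      linear_combination h4
    have g5 : g 5 = 0 := by
      have h4 := congrArg (fun y => T q q y) h1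
      simp only [map_add, map_smul, smul_eq_mul, w2, z2, v2, v2', map_zero] at h4
      linear_combination h4
    rw [g2, g5] at h1
    have g4 : g 4 = 0 := by
      have h4 := congrArg (fun y => T w w y) h1
      simp only [map_add, map_smul, smul_eq_mul, hw3, map_zero] at h4
      have h5 : g 4 * T w w z = 0 := by linear_combination h4
      exact (mul_eq_zero.1 h5).resolve_right hwwz
    have g1 : g 1 = 0 := by
      have h4 := congrArg (fun y => T z z y) h1
      simp only [map_add, map_smul, smul_eq_mul, hz3, map_zero] at h4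
      have h5 : g 1 * T z z w = 0 := by linear_combination h4
      exact (mul_eq_zero.1 h5).resolve_right hzzw
    have g3 : g 3 = 0 := by linear_combination h2 - c * g1 - n * g2
    have g0 : g 0 = 0 := by linear_combination h3 - c' * g4 - n' * g5
    funext i
    fin_cases i
    · exact g0
    · exact g1
    · exact g2
    · exact g3
    · exact g4
    · exact g5
  · exact hP (t 0) (t 1) (t 2)
  · exact hP' (t 0) (t 1) (t 2)

/-- dimension of the common fixed space -/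
theorem finrank_U {U : Submodule ℂ V} {p q : V} [FiniteDimensional ℂ V]
    (hV : ∀ y : V, ∃ u ∈ U, ∃ r s : ℂ, y = u + r • p + s • q)
    (hi : ∀ u ∈ U, ∀ r s : ℂ, u + r • p + s • q = 0 → u = 0 ∧ r = 0 ∧ s = 0) :
    Module.finrank ℂ U + 2 = Module.finrank ℂ V := by
  let f : (U × ℂ × ℂ) →ₗ[ℂ] V :=
    U.subtype.coprod ((LinearMap.toSpanSingleton ℂ V p).coprod (LinearMap.toSpanSingleton ℂ V q))
  have hf : ∀ x : U × ℂ × ℂ, f x = (x.1 : V) + x.2.1 • p + x.2.2 • q := by
    intro x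
    simp only [f, LinearMap.coprod_apply, Submodule.subtype_apply,
      LinearMap.toSpanSingleton_apply]
    abel
  have h1 : Function.Injective f := by
    rw [injective_iff_map_eq_zero]
    intro x hx
    rw [hf] at hx
    obtain ⟨h1, h2, h3⟩ := hi _ x.1.2 _ _ hx
    exact Prod.ext (Subtype.ext h1) (Prod.ext h2 h3)
  have h2 : Function.Surjective f := by
    intro y
    obtain ⟨u, hu, r, s, rfl⟩ := hV y
    exact ⟨(⟨u, hu⟩, r, s), by rw [hf]⟩
  have h3 := (LinearEquiv.ofBijective f ⟨h1, h2⟩).finrank_eq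
  rw [← h3, Module.finrank_prod, Module.finrank_prod, Module.finrank_self]

end Core

end TE
end P287H468
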