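import Vale.Agent.P287.H468.TwoPl
import Vale.Agent.P287.H468.TwoEckCore

set_option autoImplicit false

/-!
Two commuting Eckardt involutions: the cubic fourfold contains two disjoint planes, hence is
rational.
-/

namespace P287H468
namespace TE
open Matrix

/-- the trilinear form as a bundled map -/
noncomputable def TL (a : Fin 6 → Fin 6 → Fin 6 → ℂ) :
    (Fin 6 → ℂ) →ₗ[ℂ] (Fin 6 → ℂ) →ₗ[ℂ] (Fin 6 → ℂ) →ₗ[ℂ] ℂ :=
  LinearMap.mk₂ ℂ (fun x y =>
    { toFun := fun z => Tri a x y z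
      map_add' := fun z z' => Tri_add3 a x y z z'
      map_smul' := fun c z => Tri_smul3 a c x y z })
    (fun x x' y => LinearMap.ext fun z => Tri_add1 a x x' y z)
    (fun c x y => LinearMap.ext fun z => Tri_smul1 a c x y z)
    (fun x y y' => LinearMap.ext fun z => Tri_add2 a x y y' z)
    (fun c x y => LinearMap.ext fun z => Tri_smul2 a c x y z)

theorem TL_apply (a : Fin 6 → Fin 6 → Fin 6 → ℂ) (x y z : Fin 6 → ℂ) :
    TL a x y z = Tri a x y z := rfl

theorem TL_sym {a : Fin 6 → Fin 6 → Fin 6 → ℂ} (hs : SymT a) : Sym3 (TL a) where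
  s12 := fun x y z => Tri_swap12 hs x y z
  s23 := fun x y z => Tri_swap23 hs x y z

/-- the tensor in the coordinates given by six vectors -/
def tr (a : Fin 6 → Fin 6 → Fin 6 → ℂ) (P : Fin 6 → (Fin 6 → ℂ)) : Fin 6 → Fin 6 → Fin 6 → ℂ :=
  fun i j k => Tri a (P i) (P j) (P k)

theorem Tri_tr (a : Fin 6 → Fin 6 → Fin 6 → ℂ) (P : Fin 6 → (Fin 6 → ℂ)) (x y z : Fin 6 → ℂ) :
    Tri (tr a P) x y z = Tri a (∑ i, x i • P i) (∑ i, y i • P i) (∑ i, z i • P i) := by
  have hx : TL a (∑ i, x i • P i) = ∑ i, x i • TL a (P i) := by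
    rw [map_sum]; simp only [map_smul]
  have hy : ∀ i, TL a (P i) (∑ j, y j • P j) = ∑ j, y j • TL a (P i) (P j) := by
    intro i; rw [map_sum]; simp only [map_smul]
  have hz : ∀ i j, TL a (P i) (P j) (∑ k, z k • P k) = ∑ k, z k • TL a (P i) (P j) (P k) := by
    intro i j; rw [map_sum]; simp only [map_smul]
  rw [← TL_apply a, hx, LinearMap.sum_apply, LinearMap.sum_apply]
  refine Finset.sum_congr rfl fun i _ => ?_
  rw [LinearMap.smul_apply, LinearMap.smul_apply, hy, LinearMap.sum_apply, Finset.smul_sum]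
  refine Finset.sum_congr rfl fun j _ => ?_
  rw [LinearMap.smul_apply, hz, Finset.smul_sum, Finset.smul_sum]
  refine Finset.sum_congr rfl fun k _ => ?_
  simp only [tr, smul_eq_mul, TL_apply]
  ring

/-- the cubic in the coordinates of two disjoint planes -/
theorem rat_of_planes (a : Fin 6 → Fin 6 → Fin 6 → ℂ) (hs : SymT a) (hsm : Smo a)
    (P : Fin 6 → (Fin 6 → ℂ)) (hP : ∀ g : Fin 6 → ℂ, ∑ i, g i • P i = 0 → g = 0)
    (h1 : ∀ x : Fin 3 → ℂ, Tri a (x 0 • P 0 + x 1 • P 1 + x 2 • P 2)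
        (x 0 • P 0 + x 1 • P 1 + x 2 • P 2) (x 0 • P 0 + x 1 • P 1 + x 2 • P 2) = 0)
    (h2 : ∀ x : Fin 3 → ℂ, Tri a (x 0 • P 3 + x 1 • P 4 + x 2 • P 5)
        (x 0 • P 3 + x 1 • P 4 + x 2 • P 5) (x 0 • P 3 + x 1 • P 4 + x 2 • P 5) = 0) :
    IsRat (fun z => Tri a z z z) := by
  let g : Matrix (Fin 6) (Fin 6) ℂ := Matrix.of fun i j => P j i
  have hg : ∀ x : Fin 6 → ℂ, g *ᵥ x = ∑ i, x i • P i := by
    intro x
    funext i
    simp only [g, Matrix.mulVec, dotProduct, Matrix.of_apply, Finset.sum_apply, Pi.smul_apply,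
      smul_eq_mul]
    exact Finset.sum_congr rfl fun j _ => mul_comm _ _
  have hinj : Function.Injective g.mulVec := by
    intro x y hxy
    have h3 : g *ᵥ (x - y) = 0 := by
      rw [Matrix.mulVec_sub]
      exact sub_eq_zero.2 hxy
    rw [hg] at h3
    exact sub_eq_zero.1 (hP _ h3)
  have hu : IsUnit g := Matrix.mulVec_injective_iff_isUnit.1 hinj
  have hgg : g * g⁻¹ = 1 := Matrix.mul_nonsing_inv g ((Matrix.isUnit_iff_isUnit_det g).1 hu)
  have e : ∀ x y z : Fin 6 → ℂ, Tri (tr a P) x y z = Tri a (g *ᵥ x) (g *ᵥ y) (g *ᵥ z) := by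
    intro x y z
    rw [Tri_tr, hg, hg, hg]
  refine IsRat.of_comp g g⁻¹ hgg ?_
  have key : IsRat (fun z => Tri (tr a P) z z z) := by
    apply two_planes
    · intro i j k
      exact ⟨Tri_swap12 hs _ _ _, Tri_swap23 hs _ _ _⟩
    · intro x hx
      have h3 : g *ᵥ x = 0 := by
        apply hsm
        intro y
        have h4 := hx (g⁻¹ *ᵥ y)
        rw [e, Matrix.mulVec_mulVec, hgg, Matrix.one_mulVec] at h4
        exact h4
      apply hinj
      rw [h3, Matrix.mulVec_zero]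
    · intro x
      rw [Tri_tr]
      have h3 : ∑ i, (pt x 0) i • P i = x 0 • P 0 + x 1 • P 1 + x 2 • P 2 := by
        rw [Fin.sum_univ_six]
        simp [pt]
      rw [h3]
      exact h1 x
    · intro x
      rw [Tri_tr]
      have h3 : ∑ i, (pt 0 x) i • P i = x 0 • P 3 + x 1 • P 4 + x 2 • P 5 := by
        rw [Fin.sum_univ_six]
        simp [pt]
      rw [h3]
      exact h2 x
  have h5 : (fun z => Tri (tr a P) z z z) = fun y => Tri a (g *ᵥ y) (g *ᵥ y) (g *ᵥ y) := by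
    funext z
    exact e z z z
  rw [h5] at key
  exact key

/-- the abstract form: `p`, `q` two Eckardt points, `U` the common polar space -/
theorem rat_of_eck (a : Fin 6 → Fin 6 → Fin 6 → ℂ) (hs : SymT a) (hsm : Smo a)
    (U : Submodule ℂ (Fin 6 → ℂ)) (p q : Fin 6 → ℂ) (h : Eck (TL a) U p q)
    (hV : ∀ y : Fin 6 → ℂ, ∃ u ∈ U, ∃ r s : ℂ, y = u + r • p + s • q)
    (hi : ∀ u ∈ U, ∀ r s : ℂ, u + r • p + s • q = 0 → u = 0 ∧ r = 0 ∧ s = 0) :
    IsRat (fun z => Tri a z z z) := by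
  have hU : Module.finrank ℂ U = 4 := by
    have h1 := finrank_U hV hi
    rw [Module.finrank_fin_fun] at h1
    omega
  obtain ⟨P, hP, h1, h2⟩ := h.planes (TL_sym hs) hV hi hsm hU
  exact rat_of_planes a hs hsm P hP h1 h2

/-- polarization -/
theorem polar_inv {a : Fin 6 → Fin 6 → Fin 6 → ℂ} (hs : SymT a)
    (A : (Fin 6 → ℂ) →ₗ[ℂ] (Fin 6 → ℂ)) (hA : ∀ x, Tri a (A x) (A x) (A x) = Tri a x x x)
    (x y z : Fin 6 → ℂ) : Tri a (A x) (A y) (A z) = Tri a x y z := by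
  have hT := TL_sym hs
  have pol : ∀ x y z : Fin 6 → ℂ, 6 * Tri a x y z =
      Tri a (x + y + z) (x + y + z) (x + y + z) - Tri a (x + y) (x + y) (x + y) -
      Tri a (x + z) (x + z) (x + z) - Tri a (y + z) (y + z) (y + z) + Tri a x x x +
      Tri a y y y + Tri a z z z := by
    intro x y z
    simp only [Tri_add1, Tri_add2, Tri_add3]
    rw [Tri_swap23 hs x z y, Tri_swap12 hs y x z, Tri_swap23 hs y z x, Tri_swap12 hs y x z,
      Tri_swap12 hs z x y, Tri_swap23 hs x z y, Tri_swap23 hs z y x, Tri_swap12 hs z x y,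
      Tri_swap23 hs x z y]
    ring
  have h1 := pol x y z
  have h2 := pol (A x) (A y) (A z)
  rw [← map_add, ← map_add, ← map_add, ← map_add, hA, hA, hA, hA, hA, hA, hA, ← h1] at h2
  exact mul_left_cancel₀ (by norm_num) h2

/-- invariance under two reflections gives the vanishing of coefficients -/
theorem eck_of_refl {a : Fin 6 → Fin 6 → Fin 6 → ℂ} (hs : SymT a)
    (A B : (Fin 6 → ℂ) →ₗ[ℂ] (Fin 6 → ℂ)) (hiA : ∀ x, Tri a (A x) (A x) (A x) = Tri a x x x)
    (hiB : ∀ x, Tri a (B x) (B x) (B x) = Tri a x x x) {p q : Fin 6 → ℂ} (hAp : A p = -p)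
    (hAq : A q = q) (hBp : B p = p) (hBq : B q = -q) {U : Submodule ℂ (Fin 6 → ℂ)}
    (hUA : ∀ u ∈ U, A u = u) (hUB : ∀ u ∈ U, B u = u) : Eck (TL a) U p q := by
  have pA := polar_inv hs A hiA
  have pB := polar_inv hs B hiB
  have n1 : ∀ x y z, Tri a (-x) y z = - Tri a x y z := by
    intro x y z
    rw [← neg_one_smul ℂ x, Tri_smul1]; ring
  have n2 : ∀ x y z, Tri a x (-y) z = - Tri a x y z := by
    intro x y z
    rw [← neg_one_smul ℂ y, Tri_smul2]; ring
  have n3 : ∀ x y z, Tri a x y (-z) = - Tri a x y z := by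
    intro x y z
    rw [← neg_one_smul ℂ z, Tri_smul3]; ring
  refine ⟨fun x hx y hy => ?_, fun x hx y hy => ?_, fun x hx => ?_, ?_, ?_, ?_, ?_⟩
  · have h := pA p x y
    rw [hAp, hUA x hx, hUA y hy, n1] at h
    rw [TL_apply]
    linear_combination (-1 / 2 : ℂ) * h
  · have h := pB q x y
    rw [hBq, hUB x hx, hUB y hy, n1] at h
    rw [TL_apply]
    linear_combination (-1 / 2 : ℂ) * h
  · have h := pA p q x
    rw [hAp, hAq, hUA x hx, n1] at h
    rw [TL_apply]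
    linear_combination (-1 / 2 : ℂ) * h
  · have h := pA p p p
    rw [hAp, n1, n2, n3] at h
    rw [TL_apply]
    linear_combination (-1 / 2 : ℂ) * h
  · have h := pB p p q
    rw [hBp, hBq, n3] at h
    rw [TL_apply]
    linear_combination (-1 / 2 : ℂ) * h
  · have h := pA p q q
    rw [hAp, hAq, n1] at h
    rw [TL_apply]
    linear_combination (-1 / 2 : ℂ) * h
  · have h := pB q q q
    rw [hBq, n1, n2, n3] at h
    rw [TL_apply]
    linear_combination (-1 / 2 : ℂ) * h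

/-- the reflected vector of a reflection -/
theorem refl_vec {A : Matrix (Fin 6) (Fin 6) ℂ}
    (h : Module.finrank ℂ (LinearMap.ker (Matrix.toLin' (A + 1))) = 1) :
    ∃ p : Fin 6 → ℂ, p ≠ 0 ∧ A *ᵥ p = -p ∧ ∀ w, A *ᵥ w = -w → ∃ c : ℂ, w = c • p := by
  have hm : ∀ w : Fin 6 → ℂ, w ∈ LinearMap.ker (Matrix.toLin' (A + 1)) ↔ A *ᵥ w = -w := by
    intro w
    rw [LinearMap.mem_ker, Matrix.toLin'_apply, Matrix.add_mulVec, Matrix.one_mulVec]
    exact add_eq_zero_iff_eq_neg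
  obtain ⟨v, hv0, hv⟩ := finrank_eq_one_iff'.1 h
  refine ⟨v, fun h0 => hv0 (Subtype.ext h0), (hm v).1 v.2, fun w hw => ?_⟩
  obtain ⟨c, hc⟩ := hv ⟨w, (hm w).2 hw⟩
  exact ⟨c, (congrArg Subtype.val hc).symm⟩

/-- commuting distinct reflections: the first fixes the vector of the second -/
theorem fix_other {A B : Matrix (Fin 6) (Fin 6) ℂ} (hA : A * A = 1)
    (hAB : A * B = B * A) (hne : A ≠ B) {p q : Fin 6 → ℂ} (hp : A *ᵥ p = -p)
    (hps : ∀ w, A *ᵥ w = -w → ∃ c : ℂ, w = c • p) (hq0 : q ≠ 0) (hq : B *ᵥ q = -q)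
    (hqs : ∀ w, B *ᵥ w = -w → ∃ c : ℂ, w = c • q) (hB : B * B = 1) : A *ᵥ q = q := by
  have hAA : ∀ x, A *ᵥ (A *ᵥ x) = x := by
    intro x; rw [Matrix.mulVec_mulVec, hA, Matrix.one_mulVec]
  have hBB : ∀ x, B *ᵥ (B *ᵥ x) = x := by
    intro x; rw [Matrix.mulVec_mulVec, hB, Matrix.one_mulVec]
  have hc : ∀ x, A *ᵥ (B *ᵥ x) = B *ᵥ (A *ᵥ x) := by
    intro x; rw [Matrix.mulVec_mulVec, hAB, Matrix.mulVec_mulVec]
  obtain ⟨c, hcq⟩ := hqs (A *ᵥ q) (by rw [← hc, hq, Matrix.mulVec_neg])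
  have h1 : c * c = 1 := by
    have h2 := hAA q
    rw [hcq, Matrix.mulVec_smul, hcq, smul_smul] at h2
    have h3 : (c * c - 1) • q = 0 := by rw [sub_smul, h2, one_smul, sub_self]
    have h4 := (smul_eq_zero.1 h3).resolve_right hq0
    linear_combination h4
  rcases mul_self_eq_one_iff.1 h1 with h2 | h2
  · rw [hcq, h2, one_smul]
  · exfalso
    apply hne
    rw [h2, neg_one_smul] at hcq
    obtain ⟨d, hd⟩ := hps q hcq
    have hd0 : d ≠ 0 := by
      intro h0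
      apply hq0
      rw [hd, h0, zero_smul]
    have hp0 : p ≠ 0 := by
      intro h0
      apply hq0
      rw [hd, h0, smul_zero]
    have hBp : B *ᵥ p = -p := by
      have h3 : p = d⁻¹ • q := by rw [hd, smul_smul, inv_mul_cancel₀ hd0, one_smul]
      rw [h3, Matrix.mulVec_smul, hq, smul_neg]
    apply Matrix.toLin'.injective
    refine LinearMap.ext fun y => ?_
    rw [Matrix.toLin'_apply, Matrix.toLin'_apply]
    obtain ⟨r, hr⟩ := hps (y - A *ᵥ y) (by rw [Matrix.mulVec_sub, hAA]; abel)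
    obtain ⟨s, hs⟩ := hqs (y - B *ᵥ y) (by rw [Matrix.mulVec_sub, hBB]; abel)
    rw [hd, smul_smul] at hs
    have hAy : A *ᵥ y = y - r • p := by rw [← hr]; abel
    have hBy : B *ᵥ y = y - (s * d) • p := by rw [← hs]; abel
    have h3 := hc y
    rw [hAy, hBy, Matrix.mulVec_sub, Matrix.mulVec_sub, Matrix.mulVec_smul, Matrix.mulVec_smul,
      hp, hBp, hAy, hBy] at h3
    have h4 : (2 * (s * d - r)) • p = 0 := by
      have h5 : (2 * (s * d - r)) • p =
          (y - r • p - (s * d) • (-p)) - (y - (s * d) • p - r • (-p)) := by module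
      rw [h5, h3, sub_self]
    have h5 := (smul_eq_zero.1 h4).resolve_right hp0
    have h6 : r = s * d := by linear_combination (-1 / 2 : ℂ) * h5
    rw [hAy, hBy, h6]

end TE
open Matrix

/-- **Two commuting Eckardt involutions.** A smooth cubic fourfold invariant under two distinct
commuting reflections is rational. -/
theorem two_eck_inv (a : Fin 6 → Fin 6 → Fin 6 → ℂ) (hs : SymT a) (hsm : Smo a)
    (A B : Matrix (Fin 6) (Fin 6) ℂ) (hA : A * A = 1) (hB : B * B = 1) (hAB : A * B = B * A)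
    (hne : A ≠ B) (hiA : ∀ x, Tri a (A *ᵥ x) (A *ᵥ x) (A *ᵥ x) = Tri a x x x)
    (hiB : ∀ x, Tri a (B *ᵥ x) (B *ᵥ x) (B *ᵥ x) = Tri a x x x)
    (h1A : Module.finrank ℂ (LinearMap.ker (Matrix.toLin' (A + 1))) = 1)
    (h1B : Module.finrank ℂ (LinearMap.ker (Matrix.toLin' (B + 1))) = 1) :
    IsRat (fun z => Tri a z z z) := by
  obtain ⟨p, hp0, hp, hps⟩ := TE.refl_vec h1A
  obtain ⟨q, hq0, hq, hqs⟩ := TE.refl_vec h1B
  have hAq : A *ᵥ q = q := TE.fix_other hA hAB hne hp hps hq0 hq hqs hB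
  have hBp : B *ᵥ p = p := TE.fix_other hB hAB.symm hne.symm hq hqs hp0 hp hps hA
  have hAA : ∀ x, A *ᵥ (A *ᵥ x) = x := by
    intro x; rw [Matrix.mulVec_mulVec, hA, Matrix.one_mulVec]
  have hBB : ∀ x, B *ᵥ (B *ᵥ x) = x := by
    intro x; rw [Matrix.mulVec_mulVec, hB, Matrix.one_mulVec]
  let U : Submodule ℂ (Fin 6 → ℂ) :=
    { carrier := {u | A *ᵥ u = u ∧ B *ᵥ u = u}
      add_mem' := fun {x y} hx hy => by
        refine ⟨?_, ?_⟩
        · rw [Matrix.mulVec_add, hx.1, hy.1]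
        · rw [Matrix.mulVec_add, hx.2, hy.2]
      zero_mem' := ⟨Matrix.mulVec_zero A, Matrix.mulVec_zero B⟩
      smul_mem' := fun c x hx => by
        refine ⟨?_, ?_⟩
        · rw [Matrix.mulVec_smul, hx.1]
        · rw [Matrix.mulVec_smul, hx.2] }
  have hUm : ∀ u, u ∈ U ↔ A *ᵥ u = u ∧ B *ᵥ u = u := fun u => Iff.rfl
  refine TE.rat_of_eck a hs hsm U p q (TE.eck_of_refl hs (Matrix.toLin' A) (Matrix.toLin' B)
    ?_ ?_ ?_ ?_ ?_ ?_ ?_ ?_) ?_ ?_
  · intro x; rw [Matrix.toLin'_apply]; exact hiA x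
  · intro x; rw [Matrix.toLin'_apply]; exact hiB x
  · rw [Matrix.toLin'_apply]; exact hp
  · rw [Matrix.toLin'_apply]; exact hAq
  · rw [Matrix.toLin'_apply]; exact hBp
  · rw [Matrix.toLin'_apply]; exact hq
  · intro u hu; rw [Matrix.toLin'_apply]; exact ((hUm u).1 hu).1
  · intro u hu; rw [Matrix.toLin'_apply]; exact ((hUm u).1 hu).2
  · intro y
    obtain ⟨r, hr⟩ := hps (y - A *ᵥ y) (by rw [Matrix.mulVec_sub, hAA]; abel)
    obtain ⟨s, hs⟩ := hqs (y - B *ᵥ y) (by rw [Matrix.mulVec_sub, hBB]; abel)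
    have hAy : A *ᵥ y = y - r • p := by rw [← hr]; abel
    have hBy : B *ᵥ y = y - s • q := by rw [← hs]; abel
    refine ⟨y - (r / 2) • p - (s / 2) • q, ?_, r / 2, s / 2, by abel⟩
    rw [hUm]
    refine ⟨?_, ?_⟩
    · rw [Matrix.mulVec_sub, Matrix.mulVec_sub, Matrix.mulVec_smul, Matrix.mulVec_smul, hp, hAq,
        hAy]
      module
    · rw [Matrix.mulVec_sub, Matrix.mulVec_sub, Matrix.mulVec_smul, Matrix.mulVec_smul, hBp, hq,
        hBy]
      module
  · intro u hu r s h0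
    rw [hUm] at hu
    have h1 := congrArg (fun z => A *ᵥ z) h0
    have h2 := congrArg (fun z => B *ᵥ z) h0
    simp only [Matrix.mulVec_add, Matrix.mulVec_smul, hp, hAq, hBp, hq, hu.1, hu.2,
      Matrix.mulVec_zero] at h1 h2
    have hr : (2 * r) • p = 0 := by
      have h3 : (2 * r) • p = (u + r • p + s • q) - (u + r • (-p) + s • q) := by module
      rw [h3, h0, h1, sub_self]
    have hs' : (2 * s) • q = 0 := by
      have h3 : (2 * s) • q = (u + r • p + s • q) - (u + r • p + s • (-q)) := by module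
      rw [h3, h0, h2, sub_self]
    have hr0 : r = 0 := by
      have h3 := (smul_eq_zero.1 hr).resolve_right hp0
      linear_combination (1 / 2 : ℂ) * h3
    have hs0 : s = 0 := by
      have h3 := (smul_eq_zero.1 hs').resolve_right hq0
      linear_combination (1 / 2 : ℂ) * h3
    refine ⟨?_, hr0, hs0⟩
    rw [hr0, hs0, zero_smul, zero_smul, add_zero, add_zero] at h0
    exact h0

/-- the reflection `z₄ ↦ -z₄` -/
def TE.refl4 : (Fin 6 → ℂ) →ₗ[ℂ] (Fin 6 → ℂ) where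
  toFun := fun z => ![z 0, z 1, z 2, z 3, -z 4, z 5]
  map_add' := fun x y => by
    funext i; fin_cases i <;> simp [add_comm]
  map_smul' := fun c x => by
    funext i; fin_cases i <;> simp

/-- the reflection `z₅ ↦ -z₅` -/
def TE.refl5 : (Fin 6 → ℂ) →ₗ[ℂ] (Fin 6 → ℂ) where
  toFun := fun z => ![z 0, z 1, z 2, z 3, z 4, -z 5]
  map_add' := fun x y => by
    funext i; fin_cases i <;> simp [add_comm]
  map_smul' := fun c x => by
    funext i; fin_cases i <;> simp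

theorem TE.refl4_apply (z : Fin 6 → ℂ) : TE.refl4 z = ![z 0, z 1, z 2, z 3, -z 4, z 5] := rfl
theorem TE.refl5_apply (z : Fin 6 → ℂ) : TE.refl5 z = ![z 0, z 1, z 2, z 3, z 4, -z 5] := rfl

/-- the vectors with `z₄ = z₅ = 0` -/
def TE.U45 : Submodule ℂ (Fin 6 → ℂ) where
  carrier := {u | u 4 = 0 ∧ u 5 = 0}
  add_mem' := fun {x y} hx hy => by
    refine ⟨?_, ?_⟩
    · rw [Pi.add_apply, hx.1, hy.1, add_zero]
    · rw [Pi.add_apply, hx.2, hy.2, add_zero]
  zero_mem' := ⟨rfl, rfl⟩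
  smul_mem' := fun c x hx => by
    refine ⟨?_, ?_⟩
    · rw [Pi.smul_apply, hx.1, smul_zero]
    · rw [Pi.smul_apply, hx.2, smul_zero]

theorem TE.mem_U45 (u : Fin 6 → ℂ) : u ∈ TE.U45 ↔ u 4 = 0 ∧ u 5 = 0 := Iff.rfl

/-- the same in coordinates -/
theorem two_eck (a : Fin 6 → Fin 6 → Fin 6 → ℂ) (hs : SymT a) (hsm : Smo a)
    (h4 : ∀ z : Fin 6 → ℂ, Tri a ![z 0, z 1, z 2, z 3, -z 4, z 5] ![z 0, z 1, z 2, z 3, -z 4, z 5]
      ![z 0, z 1, z 2, z 3, -z 4, z 5] = Tri a z z z)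
    (h5 : ∀ z : Fin 6 → ℂ, Tri a ![z 0, z 1, z 2, z 3, z 4, -z 5] ![z 0, z 1, z 2, z 3, z 4, -z 5]
      ![z 0, z 1, z 2, z 3, z 4, -z 5] = Tri a z z z) :
    IsRat (fun z => Tri a z z z) := by
  refine TE.rat_of_eck a hs hsm TE.U45 (Pi.single 4 1) (Pi.single 5 1)
    (TE.eck_of_refl hs TE.refl4 TE.refl5 h4 h5 ?_ ?_ ?_ ?_ ?_ ?_) ?_ ?_
  · rw [TE.refl4_apply]; funext i; fin_cases i <;> simp
  · rw [TE.refl4_apply]; funext i; fin_cases i <;> simp
  · rw [TE.refl5_apply]; funext i; fin_cases i <;> simp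
  · rw [TE.refl5_apply]; funext i; fin_cases i <;> simp
  · intro u hu
    have h6 := (TE.mem_U45 u).1 hu
    rw [TE.refl4_apply]; funext i; fin_cases i <;> simp [h6.1]
  · intro u hu
    have h6 := (TE.mem_U45 u).1 hu
    rw [TE.refl5_apply]; funext i; fin_cases i <;> simp [h6.2]
  · intro y
    refine ⟨![y 0, y 1, y 2, y 3, 0, 0], ?_, y 4, y 5, ?_⟩
    · rw [TE.mem_U45]; simp
    · funext i
      rw [Pi.add_apply, Pi.add_apply, Pi.smul_apply, Pi.smul_apply]
      fin_cases i <;> simp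
  · intro u hu r s h0
    have h6 := (TE.mem_U45 u).1 hu
    have e4 : r = 0 := by
      have h7 := congrFun h0 4
      simpa [h6.1] using h7
    have e5 : s = 0 := by
      have h7 := congrFun h0 5
      simpa [h6.2] using h7
    rw [e4, e5, zero_smul, zero_smul, add_zero, add_zero] at h0
    exact ⟨h0, e4, e5⟩

end P287H468

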