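import Mathlib
import Vale.Agent.P287.H468.Defs
import Vale.Agent.P287.H468.Conv
import Vale.Agent.P287.H468.Gl1
import Vale.Agent.P287.H468.Gl3
import Vale.Agent.P287.H468.TwoEck

set_option autoImplicit false
set_option linter.all false

/-!
Statement level definitions, and the theorem from the two black boxes.
-/

namespace P287H468
open MvPolynomial

/-- the cubic `F = 0` is smooth: the partial derivatives have no common zero except the origin -/
def SmoothForm (F : MvPolynomial (Fin 6) ℂ) : Prop :=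
  ∀ x : Fin 6 → ℂ, (∀ i, eval x (pderiv i F) = 0) → x = 0

/-- `p` is an Eckardt point of `F = 0`: on the tangent hyperplane
`∑ i, ∂ᵢF(p) xᵢ = 0` the form `F` is invariant under translation by multiples of `p`, that is, the
tangent hyperplane section is a cone with vertex `p` -/
def EckardtPoint (F : MvPolynomial (Fin 6) ℂ) (p : Fin 6 → ℂ) : Prop :=
  p ≠ 0 ∧ ∀ x : Fin 6 → ℂ, ∑ i, eval p (pderiv i F) * x i = 0 →
    ∀ s : ℂ, eval (x + s • p) F = eval x F

/-- the hypersurface `F = 0` of `P⁵` is birational to `P⁴`: there are homogeneous polynomial maps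
`φ` from `P⁴` and `ψ` from `P⁵` which are inverse to each other between the nonempty open set
`c ≠ 0` of `P⁴` and the open set `d ≠ 0` of the hypersurface -/
def RationalForm (F : MvPolynomial (Fin 6) ℂ) : Prop :=
  ∃ (n m k l : ℕ) (φ : Fin 6 → MvPolynomial (Fin 5) ℂ) (ψ : Fin 5 → MvPolynomial (Fin 6) ℂ)
    (c : MvPolynomial (Fin 5) ℂ) (d : MvPolynomial (Fin 6) ℂ),
    (∀ i, (φ i).IsHomogeneous n) ∧ (∀ j, (ψ j).IsHomogeneous m) ∧ c.IsHomogeneous k ∧
    d.IsHomogeneous l ∧ c ≠ 0 ∧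
    (∀ t : Fin 5 → ℂ, eval t c ≠ 0 →
      eval (fun i => eval t (φ i)) F = 0 ∧ eval (fun i => eval t (φ i)) d ≠ 0 ∧
      ∃ a : ℂ, a ≠ 0 ∧ ∀ j, eval (fun i => eval t (φ i)) (ψ j) = a * t j) ∧
    (∀ x : Fin 6 → ℂ, eval x F = 0 → eval x d ≠ 0 →
      eval (fun j => eval x (ψ j)) c ≠ 0 ∧
      ∃ a : ℂ, a ≠ 0 ∧ ∀ i, eval (fun j => eval x (ψ j)) (φ i) = a * x i)

theorem RationalForm.of_isRat {F : MvPolynomial (Fin 6) ℂ} (h : IsRat (fun x => eval x F)) :
    RationalForm F := by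
  obtain ⟨n, m, k, l, φ, ψ, c, d, hφ, hψ, hc, hd, ⟨t0, ht0⟩, h1, h2⟩ := h
  choose Φ hΦ hΦ2 using hφ
  choose Ψ hΨ hΨ2 using hψ
  obtain ⟨C, hC, hC2⟩ := hc
  obtain ⟨D, hD, hD2⟩ := hd
  have eΦ : ∀ t, (fun i => eval t (Φ i)) = φ t := fun t => funext fun i => hΦ2 i t
  have eΨ : ∀ x, (fun j => eval x (Ψ j)) = ψ x := fun x => funext fun j => hΨ2 j x
  refine ⟨n, m, k, l, Φ, Ψ, C, D, hΦ, hΨ, hC, hD, ?_, ?_, ?_⟩
  · rintro rfl
    apply ht0
    rw [← hC2, map_zero]
  · intro t ht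
    rw [hC2] at ht
    obtain ⟨h3, h4, a, ha, h5⟩ := h1 t ht
    rw [eΦ t]
    refine ⟨h3, by rw [hD2]; exact h4, a, ha, fun j => ?_⟩
    rw [hΨ2]
    exact congrFun h5 j
  · intro x hx hdx
    rw [hD2] at hdx
    obtain ⟨h3, a, ha, h5⟩ := h2 x hx hdx
    rw [eΨ x]
    refine ⟨by rw [hC2]; exact h3, a, ha, fun i => ?_⟩
    rw [hΦ2]
    exact congrFun h5 i

section Conv
variable {F : MvPolynomial (Fin 6) ℂ} (hF : F.IsHomogeneous 3)
include hF

theorem smo_of (hsm : SmoothForm F) : Smo (ten F) := by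
  intro x hx
  apply hsm
  intro i
  have h1 := grad_val hF x (Pi.single i 1)
  rw [hx, mul_zero] at h1
  rw [← h1, Finset.sum_eq_single i]
  · simp
  · intro j _ hj
    simp [Pi.single_apply, hj]
  · simp

theorem symL_of : SymL (T6 (ten F)) :=
  ⟨T6_12 (ten_sym F), T6_23 (ten_sym F)⟩

theorem smL_of (hsm : SmoothForm F) (x : E6) (hx : ∀ y, T6 (ten F) x x y = 0) : x = 0 :=
  smo_of hF hsm x (fun y => by rw [← T6_apply]; exact hx y)

theorem eval_T6 (x : E6) : eval x F = T6 (ten F) x x x := by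
  rw [T6_apply, val_ten hF]

theorem eck_of {p : Fin 6 → ℂ} (hp : EckardtPoint F p) : EckL (T6 (ten F)) p := by
  obtain ⟨hp0, hp1⟩ := hp
  have hs := symL_of hF
  have key : ∀ x : E6, T6 (ten F) p p x = 0 → ∀ s : ℂ,
      3 * s * T6 (ten F) p x x + s ^ 3 * T6 (ten F) p p p = 0 := by
    intro x hx s
    have h1 := hp1 x (by rw [grad_val hF, ← T6_apply, hx, mul_zero]) s
    rw [eval_T6 hF, eval_T6 hF] at h1
    simp only [map_add, map_smul, LinearMap.add_apply, LinearMap.smul_apply, smul_eq_mul] at h1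
    rw [hs.h23 x x p, hs.h12 x p x, hs.h12 x p p, hs.h23 p x p, hx] at h1
    linear_combination h1
  have ppp : T6 (ten F) p p p = 0 := by
    have h2 := key 0 (by simp) 1
    simpa using h2
  refine ⟨hp0, ppp, ?_⟩
  intro x hx
  have h2 := key x hx 1
  rw [ppp] at h2
  have h3 : (3 : ℂ) * T6 (ten F) p x x = 0 := by linear_combination h2
  exact (mul_eq_zero.1 h3).resolve_left three_ne_zero

/-- rationality from two disjoint planes given by a basis -/
theorem rational_of_basis (hsm : SmoothForm F) (b : Fin 6 → E6) (hb : LinearIndependent ℂ b)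
    (h1 : ∀ r s t : ℂ, T6 (ten F) (r • b 0 + s • b 1 + t • b 2) (r • b 0 + s • b 1 + t • b 2)
        (r • b 0 + s • b 1 + t • b 2) = 0)
    (h2 : ∀ r s t : ℂ, T6 (ten F) (r • b 3 + s • b 4 + t • b 5) (r • b 3 + s • b 4 + t • b 5)
        (r • b 3 + s • b 4 + t • b 5) = 0) : RationalForm F := by
  apply RationalForm.of_isRat
  have h3 : (fun x => eval x F) = fun z => Tri (ten F) z z z := funext fun x => val_ten hF x
  rw [h3]
  apply TE.rat_of_planes (ten F) (ten_sym F) (smo_of hF hsm) b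
  · intro g hg
    rw [Fintype.linearIndependent_iff] at hb
    funext i
    exact hb g hg i
  · intro x
    rw [← T6_apply]
    exact h1 _ _ _
  · intro x
    rw [← T6_apply]
    exact h2 _ _ _

/-- Theorem EP, modulo the two black boxes -/
theorem ep (hskew : SkewStmt)
    (hno : ∀ U : Submodule ℂ E6, 4 ≤ Module.finrank ℂ U → (∀ x ∈ U, Tri (ten F) x x x = 0) → False)
    (hsm : SmoothForm F) {p : Fin 6 → ℂ} (hp : EckardtPoint F p) (W : Submodule ℂ (Fin 6 → ℂ))
    (hW : Module.finrank ℂ W = 3) (hpW : p ∉ W) (h0 : ∀ x ∈ W, eval x F = 0) :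
    RationalForm F := by
  have hpL := eck_of hF hp
  have hs := symL_of hF
  have h0' : ∀ x ∈ W, T6 (ten F) x x x = 0 := fun x hx => by rw [← eval_T6 hF]; exact h0 x hx
  have hne : ∃ w ∈ W, T6 (ten F) p p w ≠ 0 := by
    by_contra hcon
    push Not at hcon
    refine hno (W ⊔ Submodule.span ℂ {p}) ?_ ?_
    · have hd : Disjoint W (Submodule.span ℂ {p}) := by
        rw [Submodule.disjoint_span_singleton' hpL.ne]
        exact hpW
      have h1 := Submodule.finrank_sup_add_finrank_inf_eq W (Submodule.span ℂ {p})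
      rw [hd.eq_bot, finrank_bot, hW, finrank_span_singleton hpL.ne] at h1
      exact le_of_eq h1.symm
    · intro x hx
      rw [Submodule.mem_sup] at hx
      obtain ⟨y, hy, z, hz, rfl⟩ := hx
      rw [Submodule.mem_span_singleton] at hz
      obtain ⟨r, rfl⟩ := hz
      rw [← T6_apply, cone_eq hs hpL (hcon y hy)]
      exact h0' y hy
  obtain ⟨b, hb, h1, h2⟩ := planes hskew hs (smL_of hF hsm) hpL (by simp) W hW hpW h0' hne
  exact rational_of_basis hF hsm b hb h1 h2

end Conv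

end P287H468
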