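import Mathlib
import Vale.Agent.P287.H468.Defs
import Vale.Agent.P287.H468.Gl2
import Vale.Agent.P287.H468.Gl3

set_option autoImplicit false

/-!
A smooth cubic fourfold with two Eckardt points `p`, `q` contains a plane through `q` which does
not pass through `p`.
-/

namespace P287H468
open Module

section Abs
variable {E : Type} [AddCommGroup E] [Module ℂ E]
variable {T : E →ₗ[ℂ] E →ₗ[ℂ] E →ₗ[ℂ] ℂ} {p q w0 : E}

/-- the plane spanned by an Eckardt point and a line of its cubic surface -/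
theorem plane_of_line (hs : SymL T) (hq : EckL T q) (hw : T q q w0 = 1)
    (u v : HH T q w0) (huv : LinearIndependent ℂ ![u, v])
    (h0 : ∀ s t : ℂ, res T (HH T q w0) (s • u + t • v) (s • u + t • v) (s • u + t • v) = 0) :
    finrank ℂ (Submodule.span ℂ (Set.range ![q, (u : E), (v : E)])) = 3 ∧
      ∀ x ∈ Submodule.span ℂ (Set.range ![q, (u : E), (v : E)]), T x x x = 0 := by
  obtain ⟨hu1, hu2⟩ := mem_HH.1 u.2
  obtain ⟨hv1, hv2⟩ := mem_HH.1 v.2
  have hli : LinearIndependent ℂ ![q, (u : E), (v : E)] := by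
    rw [Fintype.linearIndependent_iff]
    intro c hc
    rw [Fin.sum_univ_three] at hc
    simp only [Matrix.cons_val] at hc
    have c0 : c 0 = 0 := by
      have h := congrArg (al T q w0) hc
      simp only [map_add, map_smul, al_p hs hq hw, hu2, hv2, smul_eq_mul, map_zero] at h
      linear_combination h
    rw [c0, zero_smul, zero_add] at hc
    have h1 : c 1 • u + c 2 • v = 0 := by
      apply Subtype.ext
      simpa using hc
    have h2 := LinearIndependent.pair_iff.1 huv _ _ h1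
    intro i
    fin_cases i
    · exact c0
    · exact h2.1
    · exact h2.2
  refine ⟨?_, ?_⟩
  · rw [finrank_span_eq_card hli, Fintype.card_fin]
  · intro x hx
    obtain ⟨c, rfl⟩ := (Submodule.mem_span_range_iff_exists_fun ℂ).1 hx
    rw [Fin.sum_univ_three]
    simp only [Matrix.cons_val]
    have h1 := h0 (c 1) (c 2)
    rw [res_apply] at h1
    have h2 := cone_eq hs hq (x := c 1 • (u : E) + c 2 • (v : E))
      (by rw [map_add, map_smul, map_smul, hu1, hv1]; simp) (c 0)
    have e : c 0 • q + c 1 • (u : E) + c 2 • (v : E) =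
        c 1 • (u : E) + c 2 • (v : E) + c 0 • q := by module
    rw [e, h2]
    simpa using h1

theorem second_eck [FiniteDimensional ℂ E] (hskew : SkewStmt) (hline : LineStmt) (hs : SymL T)
    (hsm : ∀ x, (∀ y, T x x y = 0) → x = 0) (hdim : finrank ℂ E = 6)
    (hp : EckL T p) (hq : EckL T q) (hpq : LinearIndependent ℂ ![p, q]) :
    ∃ W : Submodule ℂ E, finrank ℂ W = 3 ∧ p ∉ W ∧ ∀ x ∈ W, T x x x = 0 := by
  have hex : ∃ w : E, T q q w ≠ 0 := by
    by_contra hcon
    push Not at hcon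
    exact hq.ne (hsm q hcon)
  obtain ⟨w, hw⟩ := hex
  set w0 : E := (T q q w)⁻¹ • w with hw0
  have hw1 : T q q w0 = 1 := by
    rw [hw0, map_smul, smul_eq_mul, inv_mul_cancel₀ hw]
  have hsmH := HH_smooth hs hsm hq hw1
  have hdH := HH_dim hdim hs hq hw1
  obtain ⟨u, v, huv, h0⟩ := hline (HH T q w0) hdH (res T (HH T q w0))
    (fun x y z => hs.h12 _ _ _) (fun x y z => hs.h23 _ _ _) hsmH
  obtain ⟨hW, hW0⟩ := plane_of_line hs hq hw1 u v huv h0
  by_cases hpW : p ∈ Submodule.span ℂ (Set.range ![q, (u : E), (v : E)])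
  swap
  · exact ⟨_, hW, hpW, hW0⟩
  obtain ⟨y1, y2, hy, hy0⟩ := hskew (HH T q w0) hdH (res T (HH T q w0))
    (fun x y z => hs.h12 _ _ _) (fun x y z => hs.h23 _ _ _) hsmH u v huv h0
  rw [Fintype.linearIndependent_iff] at hy
  have hyy : LinearIndependent ℂ ![y1, y2] := by
    rw [LinearIndependent.pair_iff]
    intro s t hst
    have h1 := hy ![0, 0, s, t] (by
      rw [Fin.sum_univ_four]
      simp only [Matrix.cons_val]
      rw [zero_smul, zero_smul, zero_add, zero_add]
      exact hst)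
    exact ⟨by simpa using h1 2, by simpa using h1 3⟩
  obtain ⟨hW', hW0'⟩ := plane_of_line hs hq hw1 y1 y2 hyy hy0
  refine ⟨_, hW', ?_, hW0'⟩
  intro hpW'
  obtain ⟨c, hc⟩ := (Submodule.mem_span_range_iff_exists_fun ℂ).1 hpW
  obtain ⟨d, hd⟩ := (Submodule.mem_span_range_iff_exists_fun ℂ).1 hpW'
  rw [Fin.sum_univ_three] at hc hd
  simp only [Matrix.cons_val] at hc hd
  obtain ⟨-, hu2⟩ := mem_HH.1 u.2
  obtain ⟨-, hv2⟩ := mem_HH.1 v.2
  obtain ⟨-, hy1b⟩ := mem_HH.1 y1.2
  obtain ⟨-, hy2b⟩ := mem_HH.1 y2.2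
  have e : c 0 = d 0 := by
    have h := congrArg (al T q w0) (hc.trans hd.symm)
    simp only [map_add, map_smul, al_p hs hq hw1, hu2, hv2, hy1b, hy2b, smul_eq_mul] at h
    linear_combination h
  have h1 : c 1 • u + c 2 • v + (-d 1) • y1 + (-d 2) • y2 = 0 := by
    apply Subtype.ext
    have e1 : ((c 1 • u + c 2 • v + (-d 1) • y1 + (-d 2) • y2 : HH T q w0) : E) =
        (c 0 • q + c 1 • (u : E) + c 2 • (v : E)) - (d 0 • q + d 1 • (y1 : E) + d 2 • (y2 : E))
          + (d 0 - c 0) • q := by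
      have : ((c 1 • u + c 2 • v + (-d 1) • y1 + (-d 2) • y2 : HH T q w0) : E) =
        c 1 • (u : E) + c 2 • (v : E) + (-d 1) • (y1 : E) + (-d 2) • (y2 : E) := by simp
      rw [this]
      module
    rw [e1, hc, hd, e]
    simp
  have h2 := hy ![c 1, c 2, -d 1, -d 2] (by
    rw [Fin.sum_univ_four]
    simp only [Matrix.cons_val]
    exact h1)
  have c1 : c 1 = 0 := by simpa using h2 0
  have c2 : c 2 = 0 := by simpa using h2 1
  rw [c1, c2, zero_smul, zero_smul, add_zero, add_zero] at hc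
  have h3 := LinearIndependent.pair_iff.1 hpq 1 (-c 0) (by
    rw [← hc, one_smul, neg_smul, add_neg_cancel])
  exact one_ne_zero h3.1

end Abs

end P287H468
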