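import Mathlib
import Vale.Agent.P287.H468.Defs
import Vale.Agent.P287.H468.Gl1
import Vale.Agent.P287.H468.Gl2
import Vale.Agent.P287.H468.CZ

set_option autoImplicit false
set_option linter.all false

/-!
A smooth cubic fourfold contains no projective three-space.
-/

namespace P287H468
open Module MvPolynomial

/-- two quadratic forms (given by bilinear forms) in four variables have a common zero -/
theorem two_quad (A B : Fin 4 → Fin 4 → ℂ) :
    ∃ r : Fin 4 → ℂ, r ≠ 0 ∧ ∑ i, ∑ j, A i j * r i * r j = 0 ∧ ∑ i, ∑ j, B i j * r i * r j = 0 := by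
  obtain ⟨r, hr, h⟩ := exists_zero (m := 4) (k := 2) (by norm_num)
    (fun l => ∑ i, ∑ j, C (if l = 0 then A i j else B i j) * X i * X j) (by
      intro l
      simp [map_sum])
  refine ⟨r, hr, ?_, ?_⟩
  · have := h 0
    simpa [map_sum] using this
  · have := h 1
    simpa [map_sum] using this

theorem no_P3 (a : Fin 6 → Fin 6 → Fin 6 → ℂ) (hs : SymT a) (hsm : Smo a)
    (U : Submodule ℂ (Fin 6 → ℂ)) (hU : 4 ≤ finrank ℂ U) (h0 : ∀ x ∈ U, Tri a x x x = 0) :
    False := by
  have hL : SymL (T6 a) := ⟨T6_12 hs, T6_23 hs⟩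
  have h0' : ∀ x ∈ U, T6 a x x x = 0 := fun x hx => by rw [T6_apply]; exact h0 x hx
  -- polarization: `T x x y = 0` on `U`
  have hpol : ∀ x ∈ U, ∀ y ∈ U, T6 a x x y = 0 := by
    intro x hx y hy
    have h1 := h0' (x + y) (U.add_mem hx hy)
    have h2 := h0' (x - y) (U.sub_mem hx hy)
    simp only [map_add, map_sub, LinearMap.add_apply, LinearMap.sub_apply] at h1 h2
    rw [h0' x hx, h0' y hy, hL.h23 x y x, hL.h12 y x x, hL.h23 x y x, hL.h12 y x y,
      hL.h23 y y x, hL.h12 y x y] at h1 h2
    linear_combination (1 / 6) * h1 - (1 / 6) * h2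
  -- four independent vectors of `U` and a complement
  obtain ⟨b', hb'⟩ := exists_linearIndependent_of_le_finrank hU
  set b : Fin 4 → E6 := fun i => (b' i : E6) with hb
  have hbU : ∀ i, b i ∈ U := fun i => (b' i).2
  have hbli : LinearIndependent ℂ b := hb'.map' U.subtype (Submodule.ker_subtype U)
  set B : Submodule ℂ E6 := Submodule.span ℂ (Set.range b) with hB
  have hBd : finrank ℂ B = 4 := by
    rw [hB, finrank_span_eq_card hbli]
    simp
  obtain ⟨Cc, hC⟩ := Submodule.exists_isCompl B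
  have hCd : finrank ℂ Cc = 2 := by
    have h1 := Submodule.finrank_add_eq_of_isCompl hC
    rw [hBd] at h1
    have h2 : finrank ℂ E6 = 6 := by simp
    omega
  let c : Basis (Fin 2) ℂ Cc := finBasisOfFinrankEq ℂ Cc hCd
  obtain ⟨r, hr0, h1, h2⟩ := two_quad (fun i j => T6 a (b i) (b j) (c 0 : E6))
    (fun i j => T6 a (b i) (b j) (c 1 : E6))
  set x : E6 := ∑ i, r i • b i with hx
  have hxU : x ∈ U := Submodule.sum_mem _ fun i _ => U.smul_mem _ (hbU i)
  have hval : ∀ y, T6 a x x y = ∑ i, ∑ j, T6 a (b i) (b j) y * r i * r j := by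
    intro y
    have g1 : ∀ z : E6, T6 a x z y = ∑ i, r i * T6 a (b i) z y := by
      intro z
      rw [hx, map_sum, LinearMap.sum_apply, LinearMap.sum_apply]
      refine Finset.sum_congr rfl fun i _ => ?_
      rw [map_smul, LinearMap.smul_apply, LinearMap.smul_apply, smul_eq_mul]
    have g2 : ∀ z : E6, T6 a z x y = ∑ j, r j * T6 a z (b j) y := by
      intro z
      rw [hx, map_sum, LinearMap.sum_apply]
      refine Finset.sum_congr rfl fun i _ => ?_
      rw [map_smul, LinearMap.smul_apply, smul_eq_mul]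
    rw [g1]
    refine Finset.sum_congr rfl fun i _ => ?_
    rw [g2, Finset.mul_sum]
    refine Finset.sum_congr rfl fun j _ => ?_
    ring
  have hC0 : ∀ y ∈ Cc, T6 a x x y = 0 := by
    intro y hy
    have h3 := c.sum_repr ⟨y, hy⟩
    have h4 : y = c.repr ⟨y, hy⟩ 0 • (c 0 : E6) + c.repr ⟨y, hy⟩ 1 • (c 1 : E6) := by
      have h5 := congrArg Subtype.val h3
      rw [Fin.sum_univ_two] at h5
      simpa using h5.symm
    rw [h4, map_add, map_smul, map_smul, hval, hval, h1, h2]
    simp
  have hB0 : ∀ y ∈ B, T6 a x x y = 0 := by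
    intro y hy
    refine hpol x hxU y ?_
    have : B ≤ U := by
      rw [hB, Submodule.span_le]
      rintro _ ⟨i, rfl⟩
      exact hbU i
    exact this hy
  have hx0 : x = 0 := by
    apply hsm
    intro y
    rw [← T6_apply]
    have hy : y ∈ B ⊔ Cc := by
      rw [hC.sup_eq_top]
      exact Submodule.mem_top
    rw [Submodule.mem_sup] at hy
    obtain ⟨u, hu, v, hv, rfl⟩ := hy
    rw [map_add, hB0 u hu, hC0 v hv, add_zero]
  apply hr0
  rw [Fintype.linearIndependent_iff] at hbli
  funext i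
  exact hbli r (by rw [← hx, hx0]) i

end P287H468
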