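import Vale.Agent.P287.H468.Defs
import Vale.Agent.P287.H468.CZ

set_option autoImplicit false

/-!
Row R3: for a net of 3 x 3 matrices `Q(x)` and a nonzero cubic form `f` there are a matrix `K`
and a number `s`, not both zero, with `(K x)ᵀ Q(x) (K x) + s² det Q(x) = c f(x)`.
-/

namespace P287H468
open MvPolynomial Matrix

/-- the entries of the net are linear forms -/
theorem PH_entry (Q : Fin 3 → Matrix (Fin 3) (Fin 3) ℂ) (i j : Fin 3) :
    PH 1 (fun x : Fin 3 → ℂ => QQ Q x i j) := by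
  refine ((((PH.coord (0 : Fin 3)).cmul (Q 0 i j)).add
    ((PH.coord (1 : Fin 3)).cmul (Q 1 i j))).add
    ((PH.coord (2 : Fin 3)).cmul (Q 2 i j))).congr fun x => ?_
  simp only [QQ, Matrix.add_apply, Matrix.smul_apply, smul_eq_mul]
  ring

/-- the determinant of the net is a cubic form -/
theorem PH_det (Q : Fin 3 → Matrix (Fin 3) (Fin 3) ℂ) : PH 3 (fun x => (QQ Q x).det) := by
  have h3 : ∀ i j k l m n, PH 3 (fun x : Fin 3 → ℂ => QQ Q x i j * QQ Q x k l * QQ Q x m n) :=
    fun i j k l m n => ((PH_entry Q i j).mul (PH_entry Q k l)).mul (PH_entry Q m n)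
  refine ((((((h3 0 0 1 1 2 2).sub (h3 0 0 1 2 2 1)).sub (h3 0 1 1 0 2 2)).add
    (h3 0 1 1 2 2 0)).add (h3 0 2 1 0 2 1)).sub (h3 0 2 1 1 2 0)).congr fun x => ?_
  rw [Matrix.det_fin_three]

/-- the exponents of the ten cubic monomials -/
def monF : Fin 10 → Fin 3 → ℕ :=
  ![![3, 0, 0], ![0, 3, 0], ![0, 0, 3], ![2, 1, 0], ![2, 0, 1], ![1, 2, 0], ![0, 2, 1],
    ![1, 0, 2], ![0, 1, 2], ![1, 1, 1]]

theorem monF_surj : ∀ a b c : Fin 4, (a : ℕ) + b + c = 3 →
    ∃ j : Fin 10, monF j 0 = a ∧ monF j 1 = b ∧ monF j 2 = c := by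
  decide

/-- the ten cubic monomials -/
noncomputable def monK (j : Fin 10) : Fin 3 →₀ ℕ := Finsupp.equivFunOnFinite.symm (monF j)

theorem mon_surj (d : Fin 3 →₀ ℕ) (hd : d.degree = 3) : ∃ j, monK j = d := by
  rw [Finsupp.degree_eq_sum, Fin.sum_univ_three] at hd
  obtain ⟨j, h0, h1, h2⟩ := monF_surj ⟨d 0, by omega⟩ ⟨d 1, by omega⟩ ⟨d 2, by omega⟩ hd
  refine ⟨j, ?_⟩
  ext i
  fin_cases i
  · exact h0
  · exact h1
  · exact h2

/-- the index of the entry `(i, k)` among ten unknowns -/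
def ixx (i k : Fin 3) : Fin 10 := (finProdFinEquiv (i, k)).castSucc

theorem ixx_surj : ∀ j : Fin 10, j = Fin.last 9 ∨ ∃ i k, j = ixx i k := by
  decide

theorem exists_K {f : (Fin 3 → ℂ) → ℂ} (hf : PH 3 f) (hf0 : ∃ x, f x ≠ 0)
    (Q : Fin 3 → Matrix (Fin 3) (Fin 3) ℂ) :
    ∃ (K : Matrix (Fin 3) (Fin 3) ℂ) (s c : ℂ), (K ≠ 0 ∨ s ≠ 0) ∧
      ∀ x, (K *ᵥ x) ⬝ᵥ (QQ Q x *ᵥ (K *ᵥ x)) + s ^ 2 * (QQ Q x).det = c * f x := by
  obtain ⟨p, hp, hp2⟩ := hf
  obtain ⟨D, hD, hD2⟩ := PH_det Q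
  have hp0 : p ≠ 0 := by
    rintro rfl
    obtain ⟨x, hx⟩ := hf0
    exact hx (by rw [← hp2, map_zero])
  obtain ⟨d0, hd0⟩ := MvPolynomial.ne_zero_iff.1 hp0
  obtain ⟨j0, hj0⟩ := mon_surj d0 (by
    by_contra h
    exact hd0 (hp.coeff_eq_zero h))
  rw [← hj0] at hd0
  -- the polynomial with coefficients depending on the unknowns
  set P : (Fin 10 → ℂ) → MvPolynomial (Fin 3) ℂ := fun y =>
    (∑ i : Fin 3, ∑ j : Fin 3, ∑ k : Fin 3, ∑ l : Fin 3, ∑ m : Fin 3,
      C (y (ixx i k) * y (ixx j l) * Q m i j) * (X k * X l * X m)) +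
      C (y (Fin.last 9) ^ 2) * D with hP
  have hPh : ∀ y, (P y).IsHomogeneous 3 := by
    intro y
    rw [hP]
    refine IsHomogeneous.add ?_ ?_
    · refine IsHomogeneous.sum _ _ _ fun i _ => IsHomogeneous.sum _ _ _ fun j _ =>
        IsHomogeneous.sum _ _ _ fun k _ => IsHomogeneous.sum _ _ _ fun l _ =>
        IsHomogeneous.sum _ _ _ fun m _ => ?_
      have h1 := (isHomogeneous_C (Fin 3) (y (ixx i k) * y (ixx j l) * Q m i j)).mul
        (((isHomogeneous_X ℂ k).mul (isHomogeneous_X ℂ l)).mul (isHomogeneous_X ℂ m))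
      exact h1
    · have h1 := (isHomogeneous_C (Fin 3) (y (Fin.last 9) ^ 2)).mul hD
      exact h1
  set F : (Fin 3 →₀ ℕ) → MvPolynomial (Fin 10) ℂ := fun d =>
    (∑ i : Fin 3, ∑ j : Fin 3, ∑ k : Fin 3, ∑ l : Fin 3, ∑ m : Fin 3,
      C (Q m i j * coeff d (X k * X l * X m : MvPolynomial (Fin 3) ℂ)) *
        (X (ixx i k) * X (ixx j l))) +
      C (coeff d D) * X (Fin.last 9) ^ 2 with hF
  have hFP : ∀ y d, aeval y (F d) = coeff d (P y) := by
    intro y d
    rw [hP, hF]
    simp only [map_add, map_sum, coeff_add, coeff_sum, coeff_C_mul]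
    refine congrArg₂ (· + ·) ?_ ?_
    · refine Finset.sum_congr rfl fun i _ => Finset.sum_congr rfl fun j _ =>
        Finset.sum_congr rfl fun k _ => Finset.sum_congr rfl fun l _ =>
        Finset.sum_congr rfl fun m _ => ?_
      simp only [map_mul, aeval_C, aeval_X, Algebra.algebraMap_self, RingHom.id_apply]
      ring
    · simp only [map_mul, map_pow, aeval_C, aeval_X, Algebra.algebraMap_self, RingHom.id_apply]
      ring
  have hP0 : P 0 = 0 := by
    rw [hP]
    simp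
  obtain ⟨y, hy0, hy⟩ := exists_zero (m := 10) (k := 9) (by omega)
    (fun j => C (coeff (monK j0) p) * F (monK (j0.succAbove j)) -
      C (coeff (monK (j0.succAbove j)) p) * F (monK j0)) (by
      intro j
      simp only [map_sub, map_mul, hFP, hP0, coeff_zero, mul_zero, sub_zero])
  refine ⟨Matrix.of fun i k => y (ixx i k), y (Fin.last 9),
    coeff (monK j0) (P y) / coeff (monK j0) p, ?_, ?_⟩
  · by_contra hcon
    push Not at hcon
    obtain ⟨h1, h2⟩ := hcon
    apply hy0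
    funext j
    rcases ixx_surj j with h | ⟨i, k, h⟩
    · rw [h, h2, Pi.zero_apply]
    · rw [h, Pi.zero_apply]
      have h3 := congrFun (congrFun h1 i) k
      exact h3
  · have hkey : P y = C (coeff (monK j0) (P y) / coeff (monK j0) p) * p := by
      ext d
      rw [coeff_C_mul]
      by_cases hd : d.degree = 3
      · obtain ⟨j, hj⟩ := mon_surj d hd
        rw [← hj]
        rcases eq_or_ne j j0 with h | h
        · rw [h]
          field_simp
        · obtain ⟨j', hj'⟩ := Fin.exists_succAbove_eq h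
          have h4 := hy j'
          simp only [map_sub, map_mul, hFP, aeval_C, Algebra.algebraMap_self,
            RingHom.id_apply] at h4
          rw [hj'] at h4
          field_simp
          linear_combination h4
      · rw [(hPh y).coeff_eq_zero hd, hp.coeff_eq_zero hd, mul_zero]
    intro x
    have h5 := congrArg (eval x) hkey
    rw [map_mul, eval_C, hp2] at h5
    rw [← h5, hP]
    simp only [map_add, map_sum, map_mul, map_pow, eval_C, eval_X, hD2]
    refine congrArg₂ (· + ·) ?_ rfl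
    simp only [Matrix.mulVec, dotProduct, QQ, Matrix.of_apply, Matrix.add_apply,
      Matrix.smul_apply, smul_eq_mul, Fin.sum_univ_three]
    ring

end P287H468
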