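import Vale.Agent.P287.H468.Defs
import Vale.Agent.P287.H468.CZ

set_option autoImplicit false

/-!
Nets of conics without a base point: some member is smooth, and the Jacobian does not vanish
identically.
-/

namespace P287H468
open MvPolynomial

/-- a net of conics without base point has a smooth member -/
theorem det_ne (Q : Fin 3 → Matrix (Fin 3) (Fin 3) ℂ) (hQ : ∀ i, (Q i).IsSymm) (hb : BPF Q) :
    ∃ x, (QQ Q x).det ≠ 0 := by
  by_contra hcon
  push Not at hcon
  let M : Matrix (Fin 3) (Fin 3) (MvPolynomial (Fin 3) ℂ) :=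
    Matrix.of fun i j => ∑ k, X k * C (Q k i j)
  have hMij : ∀ i j, M i j = ∑ k, X k * C (Q k i j) := fun i j => rfl
  have hsym : ∀ i j, M i j = M j i := by
    intro i j
    rw [hMij, hMij]
    refine Finset.sum_congr rfl fun k _ => ?_
    rw [(hQ k).apply i j]
  have hdet : M.det = 0 := by
    apply MvPolynomial.funext
    intro x
    rw [map_zero, ← hcon x]
    have h1 : (eval x) M.det = ((eval x).mapMatrix M).det := RingHom.map_det _ _
    rw [h1]
    have h2 : (eval x).mapMatrix M = QQ Q x := by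
      ext i j
      rw [RingHom.mapMatrix_apply, Matrix.map_apply, hMij]
      simp only [QQ, Fin.sum_univ_three, map_add, map_mul, eval_X, eval_C, Matrix.add_apply,
        Matrix.smul_apply, smul_eq_mul]
    rw [h2]
  obtain ⟨v, hv0, hv⟩ := Matrix.exists_mulVec_eq_zero_iff.2 hdet
  have hvi : ∀ i, ∑ j, M i j * v j = 0 := fun i => by
    have := congrFun hv i
    simpa only [Matrix.mulVec, dotProduct, Pi.zero_apply] using this
  have hpd : ∀ l i j, pderiv l (M i j) = C (Q l i j) := by
    intro l i j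
    rw [hMij]
    simp only [map_sum, pderiv_mul, pderiv_C, mul_zero, add_zero]
    rw [Finset.sum_eq_single l]
    · rw [pderiv_X_self, one_mul]
    · intro b _ hbl
      rw [pderiv_X_of_ne hbl, zero_mul]
    · intro h
      exact absurd (Finset.mem_univ l) h
  have hquad : ∀ l, ∑ i, ∑ j, v i * (C (Q l i j) * v j) = 0 := by
    intro l
    have h1 : ∀ i, ∑ j, (C (Q l i j) * v j + M i j * pderiv l (v j)) = 0 := by
      intro i
      have h2 := congrArg (pderiv l) (hvi i)
      rw [map_zero, map_sum] at h2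
      rw [← h2]
      refine Finset.sum_congr rfl fun j _ => ?_
      rw [pderiv_mul, hpd]
    have h3 : ∑ i, v i * ∑ j, (C (Q l i j) * v j + M i j * pderiv l (v j)) = 0 := by
      refine Finset.sum_eq_zero fun i _ => ?_
      rw [h1 i, mul_zero]
    have h4 : ∑ i, v i * ∑ j, M i j * pderiv l (v j) = 0 := by
      have h5 : ∑ i, v i * ∑ j, M i j * pderiv l (v j)
          = ∑ j, (∑ i, M j i * v i) * pderiv l (v j) := by
        simp only [Finset.mul_sum, Finset.sum_mul]
        rw [Finset.sum_comm]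
        refine Finset.sum_congr rfl fun j _ => Finset.sum_congr rfl fun i _ => ?_
        rw [hsym i j]
        ring
      rw [h5]
      refine Finset.sum_eq_zero fun j _ => ?_
      rw [hvi j, zero_mul]
    have h6 : ∑ i, v i * ∑ j, (C (Q l i j) * v j + M i j * pderiv l (v j))
        = ∑ i, ∑ j, v i * (C (Q l i j) * v j) + ∑ i, v i * ∑ j, M i j * pderiv l (v j) := by
      simp only [Finset.sum_add_distrib, mul_add, Finset.mul_sum]
    rw [h6, h4, add_zero] at h3
    exact h3
  apply hv0
  funext i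
  apply MvPolynomial.funext
  intro x
  rw [Pi.zero_apply, map_zero]
  have h7 : (fun a => eval x (v a)) = (0 : Fin 3 → ℂ) := by
    apply hb
    intro l
    have h8 := congrArg (eval x) (hquad l)
    simp only [map_sum, map_mul, eval_C, map_zero] at h8
    rw [← h8]
    simp only [dotProduct, Matrix.mulVec, Finset.mul_sum]
  exact congrFun h7 i

/-- the quadratic map of a net without base point is onto -/
theorem theta_surj (Q : Fin 3 → Matrix (Fin 3) (Fin 3) ℂ) (hb : BPF Q) (y : Fin 3 → ℂ) :
    ∃ w : Fin 3 → ℂ, ∀ i, dotProduct w ((Q i).mulVec w) = y i := by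
  let F : Fin 3 → MvPolynomial (Fin 4) ℂ := fun j =>
    (∑ a : Fin 3, ∑ b : Fin 3, X (Fin.castSucc a) * (C (Q j a b) * X (Fin.castSucc b)))
      - C (y j) * X (Fin.last 3) ^ 2
  have hF : ∀ j, F j = (∑ a : Fin 3, ∑ b : Fin 3,
      X (Fin.castSucc a) * (C (Q j a b) * X (Fin.castSucc b)))
      - C (y j) * X (Fin.last 3) ^ 2 := fun j => rfl
  obtain ⟨x, hx0, hx⟩ := exists_zero (m := 4) (k := 3) (by norm_num) F (by
    intro j
    rw [hF]
    simp)
  have h1 : ∀ j, dotProduct (fun a : Fin 3 => x (Fin.castSucc a))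
      ((Q j).mulVec (fun a : Fin 3 => x (Fin.castSucc a))) = y j * x (Fin.last 3) ^ 2 := by
    intro j
    have h2 := hx j
    rw [hF] at h2
    simp only [map_sub, map_sum, map_mul, map_pow, aeval_X, aeval_C, Algebra.algebraMap_self,
      RingHom.id_apply] at h2
    rw [← sub_eq_zero, ← h2]
    simp only [dotProduct, Matrix.mulVec, Finset.mul_sum]
  have hs : x (Fin.last 3) ≠ 0 := by
    intro hs
    apply hx0
    have h3 := hb (fun a : Fin 3 => x (Fin.castSucc a)) (fun i => by
      rw [h1 i, hs]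
      ring)
    funext i
    refine Fin.lastCases ?_ (fun a => ?_) i
    · exact hs
    · exact congrFun h3 a
  refine ⟨(x (Fin.last 3))⁻¹ • (fun a : Fin 3 => x (Fin.castSucc a)), fun i => ?_⟩
  rw [Matrix.mulVec_smul, dotProduct_smul, smul_dotProduct, h1 i, smul_eq_mul, smul_eq_mul]
  field_simp

/-- the Jacobian of a net without base point is not identically zero -/
theorem J_ne (Q : Fin 3 → Matrix (Fin 3) (Fin 3) ℂ) (hQ : ∀ i, (Q i).IsSymm) (hb : BPF Q) :
    ∃ w : Fin 3 → ℂ, (Matrix.of fun i j => ((Q i).mulVec w) j).det ≠ 0 := by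
  by_contra hcon
  push Not at hcon
  let θ : (Fin 3 → ℂ) → (Fin 3 → ℂ) := fun w i => dotProduct w ((Q i).mulVec w)
  have hθ : ∀ w i, θ w i = dotProduct w ((Q i).mulVec w) := fun w i => rfl
  have hdiff : Differentiable ℂ θ := by
    rw [differentiable_pi]
    intro i
    have : (fun w => θ w i) = fun w : Fin 3 → ℂ => ∑ a, w a * ∑ b, Q i a b * w b := by
      funext w
      rw [hθ]
      simp only [dotProduct, Matrix.mulVec]
    rw [this]
    fun_prop
  have hline : ∀ w h : Fin 3 → ℂ, (∀ i, dotProduct ((Q i).mulVec w) h = 0) → ∀ t : ℂ,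
      θ (w + t • h) = θ w + (t ^ 2) • θ h := by
    intro w h hh t
    funext i
    have h1 : dotProduct w ((Q i).mulVec h) = 0 := by
      rw [Matrix.dotProduct_mulVec, ← Matrix.mulVec_transpose, (hQ i).eq]
      exact hh i
    have h2 : dotProduct h ((Q i).mulVec w) = 0 := by
      rw [dotProduct_comm]
      exact hh i
    simp only [Pi.add_apply, Pi.smul_apply, smul_eq_mul, hθ, Matrix.mulVec_add,
      Matrix.mulVec_smul, dotProduct_add, add_dotProduct, dotProduct_smul, smul_dotProduct,
      h1, h2]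
    ring
  have hker : ∀ w : Fin 3 → ℂ, ∃ h : Fin 3 → ℂ, h ≠ 0 ∧ fderiv ℂ θ w h = 0 := by
    intro w
    obtain ⟨h, h0, hh⟩ := Matrix.exists_mulVec_eq_zero_iff.2 (hcon w)
    refine ⟨h, h0, ?_⟩
    have hh' : ∀ i, dotProduct ((Q i).mulVec w) h = 0 := fun i => congrFun hh i
    have h1 : HasDerivAt (fun t : ℂ => w + t • h) h 0 := by
      have h2 : HasDerivAt (fun t : ℂ => t • h) ((1 : ℂ) • h) 0 :=
        (hasDerivAt_id (0 : ℂ)).smul_const h
      rw [one_smul] at h2
      exact h2.const_add w
    have h3 : HasFDerivAt θ (fderiv ℂ θ w) (w + (0 : ℂ) • h) := by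
      rw [zero_smul, add_zero]
      exact (hdiff w).hasFDerivAt
    have h4 : HasDerivAt (fun t : ℂ => θ (w + t • h)) (fderiv ℂ θ w h) 0 := by
      have h9 := HasFDerivAt.comp_hasDerivAt (0 : ℂ) h3 h1
      exact h9
    have h5 : HasDerivAt (fun t : ℂ => θ (w + t • h)) 0 0 := by
      have h6 : (fun t : ℂ => θ (w + t • h)) = fun t : ℂ => θ w + (t ^ 2) • θ h := by
        funext t
        exact hline w h hh' t
      rw [h6]
      have h7 : HasDerivAt (fun t : ℂ => t ^ 2) 0 0 := by
        have := hasDerivAt_pow 2 (0 : ℂ)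
        simpa using this
      have h8 := (h7.smul_const (θ h)).const_add (θ w)
      rw [zero_smul] at h8
      exact h8
    exact h4.unique h5
  have hdet : ∀ w ∈ (Set.univ : Set (Fin 3 → ℂ)),
      ((fderiv ℂ θ w).restrictScalars ℝ).det = 0 := by
    intro w _
    obtain ⟨h, h0, h1⟩ := hker w
    rw [ContinuousLinearMap.det, LinearMap.det_eq_zero_iff_ker_ne_bot]
    intro h2
    apply h0
    rw [LinearMap.ker_eq_bot'] at h2
    exact h2 h h1
  have himg := MeasureTheory.addHaar_image_eq_zero_of_det_fderivWithin_eq_zero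
    (MeasureTheory.Measure.addHaar : MeasureTheory.Measure (Fin 3 → ℂ)) (s := Set.univ) (f := θ)
    (f' := fun w => (fderiv ℂ θ w).restrictScalars ℝ)
    (fun w _ => (((hdiff w).hasFDerivAt).restrictScalars ℝ).hasFDerivWithinAt) hdet
  have hsurj : θ '' Set.univ = Set.univ := by
    rw [Set.image_univ, Set.range_eq_univ]
    intro y
    obtain ⟨w, hw⟩ := theta_surj Q hb y
    exact ⟨w, funext hw⟩
  rw [hsurj, MeasureTheory.Measure.measure_univ_eq_zero] at himg
  exact NeZero.ne _ himg

end P287H468
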