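import Vale.Agent.P287.H468.Defs

set_option autoImplicit false

/-!
Normal form of a smooth cubic form in six variables with an involution whose eigenspace for `-1`
has dimension three: `f(x) + wᵀ Q(x) w`.
-/

namespace P287H468
open Matrix

section Tri
variable (a : Fin 6 → Fin 6 → Fin 6 → ℂ)

theorem tri_add1 (x x' y z : Fin 6 → ℂ) : Tri a (x + x') y z = Tri a x y z + Tri a x' y z := by
  simp only [Tri, Pi.add_apply, mul_add, add_mul, Finset.sum_add_distrib]

theorem tri_add2 (x y y' z : Fin 6 → ℂ) : Tri a x (y + y') z = Tri a x y z + Tri a x y' z := by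
  simp only [Tri, Pi.add_apply, mul_add, add_mul, Finset.sum_add_distrib]

theorem tri_add3 (x y z z' : Fin 6 → ℂ) : Tri a x y (z + z') = Tri a x y z + Tri a x y z' := by
  simp only [Tri, Pi.add_apply, mul_add, add_mul, Finset.sum_add_distrib]

theorem tri_smul1 (c : ℂ) (x y z : Fin 6 → ℂ) : Tri a (c • x) y z = c * Tri a x y z := by
  simp only [Tri, Pi.smul_apply, smul_eq_mul, Finset.mul_sum]
  exact Finset.sum_congr rfl fun i _ => Finset.sum_congr rfl fun j _ =>
    Finset.sum_congr rfl fun k _ => by ring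

theorem tri_smul2 (c : ℂ) (x y z : Fin 6 → ℂ) : Tri a x (c • y) z = c * Tri a x y z := by
  simp only [Tri, Pi.smul_apply, smul_eq_mul, Finset.mul_sum]
  exact Finset.sum_congr rfl fun i _ => Finset.sum_congr rfl fun j _ =>
    Finset.sum_congr rfl fun k _ => by ring

theorem tri_smul3 (c : ℂ) (x y z : Fin 6 → ℂ) : Tri a x y (c • z) = c * Tri a x y z := by
  simp only [Tri, Pi.smul_apply, smul_eq_mul, Finset.mul_sum]
  exact Finset.sum_congr rfl fun i _ => Finset.sum_congr rfl fun j _ =>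
    Finset.sum_congr rfl fun k _ => by ring

variable {a}

theorem tri_swap12 (hs : SymT a) (x y z : Fin 6 → ℂ) : Tri a x y z = Tri a y x z := by
  unfold Tri
  rw [Finset.sum_comm]
  exact Finset.sum_congr rfl fun i _ => Finset.sum_congr rfl fun j _ =>
    Finset.sum_congr rfl fun k _ => by rw [(hs j i k).1]; ring

theorem tri_swap23 (hs : SymT a) (x y z : Fin 6 → ℂ) : Tri a x y z = Tri a x z y := by
  unfold Tri
  refine Finset.sum_congr rfl fun i _ => ?_
  rw [Finset.sum_comm]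
  exact Finset.sum_congr rfl fun j _ =>
    Finset.sum_congr rfl fun k _ => by rw [(hs i k j).2]; ring

theorem tri_swap13 (hs : SymT a) (x y z : Fin 6 → ℂ) : Tri a x y z = Tri a z y x := by
  rw [tri_swap12 hs, tri_swap23 hs, tri_swap12 hs]

/-- expansion of the cube of a sum -/
theorem tri_cube_add (hs : SymT a) (x y : Fin 6 → ℂ) :
    Tri a (x + y) (x + y) (x + y) =
      Tri a x x x + 3 * Tri a x x y + 3 * Tri a x y y + Tri a y y y := by
  simp only [tri_add1, tri_add2, tri_add3]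
  rw [tri_swap12 hs y x x, tri_swap23 hs x y x, tri_swap12 hs y x y, tri_swap13 hs y y x]
  ring

/-- expansion of the cube of a difference -/
theorem tri_cube_sub (hs : SymT a) (x y : Fin 6 → ℂ) :
    Tri a (x + (-1 : ℂ) • y) (x + (-1 : ℂ) • y) (x + (-1 : ℂ) • y) =
      Tri a x x x - 3 * Tri a x x y + 3 * Tri a x y y - Tri a y y y := by
  rw [tri_cube_add hs]
  simp only [tri_smul1, tri_smul2, tri_smul3]
  ring

/-- polarisation on a set closed under sums and negatives -/
theorem tri_polar (hs : SymT a) {S : (Fin 6 → ℂ) → Prop} (hadd : ∀ x y, S x → S y → S (x + y))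
    (hneg : ∀ x, S x → S ((-1 : ℂ) • x)) (h0 : ∀ x, S x → Tri a x x x = 0) {x y : Fin 6 → ℂ}
    (hx : S x) (hy : S y) : Tri a x x y = 0 := by
  have h1 := h0 _ (hadd x y hx hy)
  have h2 := h0 _ (hadd x _ hx (hneg y hy))
  rw [tri_cube_add hs] at h1
  rw [tri_cube_sub hs] at h2
  have h3 := h0 x hx
  have h4 := h0 y hy
  linear_combination (1 / 6) * h1 - (1 / 6) * h2 - (1 / 3) * h4

end Tri

theorem normal3 (a : Fin 6 → Fin 6 → Fin 6 → ℂ) (hs : SymT a) (hsm : Smo a)
    (A : Matrix (Fin 6) (Fin 6) ℂ) (hA : A * A = 1)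
    (hinv : ∀ x, Tri a (A *ᵥ x) (A *ᵥ x) (A *ᵥ x) = Tri a x x x)
    (h3 : Module.finrank ℂ (LinearMap.ker (Matrix.toLin' (A + 1))) = 3) :
    ∃ (g g' : Matrix (Fin 6) (Fin 6) ℂ) (f : (Fin 3 → ℂ) → ℂ)
      (Q : Fin 3 → Matrix (Fin 3) (Fin 3) ℂ), g * g' = 1 ∧ PH 3 f ∧ (∃ x, f x ≠ 0) ∧
      (∀ i, (Q i).IsSymm) ∧ BPF Q ∧
      ∀ z, Tri a (g *ᵥ z) (g *ᵥ z) (g *ᵥ z) = F3 f Q z := by
  classical
  -- the two eigenspaces
  have hAA : ∀ x, A *ᵥ (A *ᵥ x) = x := fun x => by
    rw [Matrix.mulVec_mulVec, hA, Matrix.one_mulVec]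
  have memM : ∀ x, x ∈ LinearMap.ker (Matrix.toLin' (A + 1)) ↔ A *ᵥ x = (-1 : ℂ) • x := by
    intro x
    rw [LinearMap.mem_ker, Matrix.toLin'_apply, Matrix.add_mulVec, Matrix.one_mulVec]
    constructor
    · intro h
      rw [neg_one_smul]
      exact eq_neg_of_add_eq_zero_left h
    · intro h
      rw [h, neg_one_smul, neg_add_cancel]
  have memP : ∀ x, x ∈ LinearMap.range (Matrix.toLin' (A + 1)) ↔ A *ᵥ x = x := by
    intro x
    rw [LinearMap.mem_range]
    constructor
    · rintro ⟨y, rfl⟩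
      rw [Matrix.toLin'_apply, Matrix.add_mulVec, Matrix.one_mulVec, Matrix.mulVec_add, hAA,
        add_comm]
    · intro h
      refine ⟨(1 / 2 : ℂ) • x, ?_⟩
      rw [Matrix.toLin'_apply, Matrix.add_mulVec, Matrix.one_mulVec, Matrix.mulVec_smul, h,
        ← add_smul]
      norm_num
  have hP3 : Module.finrank ℂ (LinearMap.range (Matrix.toLin' (A + 1))) = 3 := by
    have h := LinearMap.finrank_range_add_finrank_ker (Matrix.toLin' (A + 1))
    rw [h3, Module.finrank_fin_fun] at h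
    omega
  let bp := Module.finBasisOfFinrankEq ℂ _ hP3
  let bm := Module.finBasisOfFinrankEq ℂ _ h3
  let u : Fin 3 → (Fin 6 → ℂ) := fun i => (bp i : Fin 6 → ℂ)
  let v : Fin 3 → (Fin 6 → ℂ) := fun i => (bm i : Fin 6 → ℂ)
  let P : (Fin 3 → ℂ) → (Fin 6 → ℂ) := fun x => x 0 • u 0 + x 1 • u 1 + x 2 • u 2
  let M : (Fin 3 → ℂ) → (Fin 6 → ℂ) := fun x => x 0 • v 0 + x 1 • v 1 + x 2 • v 2
  have hu : ∀ i, A *ᵥ u i = u i := fun i => (memP _).1 (bp i).2
  have hv : ∀ i, A *ᵥ v i = (-1 : ℂ) • v i := fun i => (memM _).1 (bm i).2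
  have hP : ∀ x, A *ᵥ P x = P x := by
    intro x
    simp only [P, Matrix.mulVec_add, Matrix.mulVec_smul, hu]
  have hM : ∀ x, A *ᵥ M x = (-1 : ℂ) • M x := by
    intro x
    simp only [M, Matrix.mulVec_add, Matrix.mulVec_smul, hv, smul_add]
    simp only [smul_comm (-1 : ℂ)]
  -- every eigenvector is a combination
  have hPs : ∀ y, A *ᵥ y = y → ∃ x, P x = y := by
    intro y hy
    refine ⟨bp.repr ⟨y, (memP y).2 hy⟩, ?_⟩
    have h1 := bp.sum_repr ⟨y, (memP y).2 hy⟩
    have h2 := congrArg (Subtype.val) h1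
    rw [Fin.sum_univ_three] at h2
    exact h2
  have hP0 : ∀ x, P x = 0 → x = 0 := by
    intro x hx
    have h1 : x 0 • bp 0 + x 1 • bp 1 + x 2 • bp 2 = 0 := Subtype.ext hx
    have h2 := Fintype.linearIndependent_iff.1 bp.linearIndependent x
      (by rw [Fin.sum_univ_three]; exact h1)
    exact funext h2
  have hM0 : ∀ x, M x = 0 → x = 0 := by
    intro x hx
    have h1 : x 0 • bm 0 + x 1 • bm 1 + x 2 • bm 2 = 0 := Subtype.ext hx
    have h2 := Fintype.linearIndependent_iff.1 bm.linearIndependent x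
      (by rw [Fin.sum_univ_three]; exact h1)
    exact funext h2
  -- the odd parts vanish
  have hodd : ∀ p m, A *ᵥ p = p → A *ᵥ m = (-1 : ℂ) • m →
      3 * Tri a p p m + Tri a m m m = 0 := by
    intro p m hp hm
    have h1 := hinv (p + m)
    rw [Matrix.mulVec_add, hp, hm, tri_cube_sub hs, tri_cube_add hs] at h1
    linear_combination (-1 / 2) * h1
  have hmmm : ∀ m, A *ᵥ m = (-1 : ℂ) • m → Tri a m m m = 0 := by
    intro m hm
    have h1 := hodd 0 m (Matrix.mulVec_zero A) hm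
    have h2 : Tri a (0 : Fin 6 → ℂ) 0 m = 0 := by
      simp [Tri]
    rw [h2] at h1
    linear_combination h1
  have hppm : ∀ p m, A *ᵥ p = p → A *ᵥ m = (-1 : ℂ) • m → Tri a p p m = 0 := by
    intro p m hp hm
    have h1 := hodd p m hp hm
    rw [hmmm m hm] at h1
    linear_combination (1 / 3) * h1
  have hmmm' : ∀ m m', A *ᵥ m = (-1 : ℂ) • m → A *ᵥ m' = (-1 : ℂ) • m' → Tri a m m m' = 0 := by
    intro m m' hm hm'
    refine tri_polar hs (S := fun m => A *ᵥ m = (-1 : ℂ) • m) ?_ ?_ hmmm hm hm'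
    · intro x y hx hy
      beta_reduce at hx hy ⊢
      rw [Matrix.mulVec_add, hx, hy, smul_add]
    · intro x hx
      beta_reduce at hx ⊢
      rw [Matrix.mulVec_smul, hx]
  have hdec : ∀ y : Fin 6 → ℂ, ∃ p m, A *ᵥ p = p ∧ A *ᵥ m = (-1 : ℂ) • m ∧ y = p + m := by
    intro y
    refine ⟨(1 / 2 : ℂ) • (y + A *ᵥ y), (1 / 2 : ℂ) • (y + (-1 : ℂ) • (A *ᵥ y)), ?_, ?_, ?_⟩
    · rw [Matrix.mulVec_smul, Matrix.mulVec_add, hAA, add_comm]
    · rw [Matrix.mulVec_smul, Matrix.mulVec_add, Matrix.mulVec_smul, hAA, smul_comm (-1 : ℂ)]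
      congr 1
      rw [smul_add, smul_smul]
      norm_num
      rw [add_comm]
    · rw [← smul_add]
      have h1 : y + A *ᵥ y + (y + (-1 : ℂ) • A *ᵥ y) = (2 : ℂ) • y := by
        rw [neg_one_smul, two_smul]; abel
      rw [h1, smul_smul]
      norm_num
  let g : Matrix (Fin 6) (Fin 6) ℂ :=
    Matrix.of fun r => ![u 0 r, u 1 r, u 2 r, v 0 r, v 1 r, v 2 r]
  have hg : ∀ z, g *ᵥ z = P (xx z) + M (ww z) := by
    intro z
    funext r
    simp only [g, P, M, xx, ww, Matrix.mulVec, dotProduct, Matrix.of_apply, Fin.sum_univ_succ,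
      Pi.add_apply, Pi.smul_apply, smul_eq_mul]
    simp
    ring
  have hgdet : g.det ≠ 0 := by
    intro h
    obtain ⟨z, hz, hz0⟩ := Matrix.exists_mulVec_eq_zero_iff.2 h
    apply hz
    rw [hg] at hz0
    have h1 : A *ᵥ (P (xx z) + M (ww z)) = 0 := by rw [hz0, Matrix.mulVec_zero]
    rw [Matrix.mulVec_add, hP, hM] at h1
    have h2 : P (xx z) = 0 := by
      have h4 : (2 : ℂ) • P (xx z) = 0 := by
        calc (2 : ℂ) • P (xx z) = (P (xx z) + M (ww z)) + (P (xx z) + (-1 : ℂ) • M (ww z)) := by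
              rw [neg_one_smul, two_smul]; abel
          _ = 0 := by rw [hz0, h1, add_zero]
      exact (smul_eq_zero.1 h4).resolve_left two_ne_zero
    have h5 : M (ww z) = 0 := by rw [h2, zero_add] at hz0; exact hz0
    have h6 := hP0 _ h2
    have h7 := hM0 _ h5
    funext r
    fin_cases r
    · exact congrFun h6 0
    · exact congrFun h6 1
    · exact congrFun h6 2
    · exact congrFun h7 0
    · exact congrFun h7 1
    · exact congrFun h7 2
  let Q : Fin 3 → Matrix (Fin 3) (Fin 3) ℂ := fun i => Matrix.of fun j k =>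
    3 * Tri a (u i) (v j) (v k)
  have hQw : ∀ i w, dotProduct w ((Q i).mulVec w) = 3 * Tri a (u i) (M w) (M w) := by
    intro i w
    simp only [Q, M, Matrix.mulVec, dotProduct, Matrix.of_apply, Fin.sum_univ_three, tri_add2,
      tri_add3, tri_smul2, tri_smul3]
    ring
  refine ⟨g, g⁻¹, fun x => Tri a (P x) (P x) (P x), Q,
    Matrix.mul_nonsing_inv g (isUnit_iff_ne_zero.2 hgdet), ?_, ?_, ?_, ?_, ?_⟩
  · -- homogeneous
    have hc : ∀ i, PH 1 (fun x : Fin 3 → ℂ => P x i) := by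
      intro i
      refine ((((PH.coord (0 : Fin 3)).cmul (u 0 i)).add ((PH.coord (1 : Fin 3)).cmul (u 1 i))).add
        ((PH.coord (2 : Fin 3)).cmul (u 2 i))).congr fun x => ?_
      simp only [P, Pi.add_apply, Pi.smul_apply, smul_eq_mul]
      ring
    refine (PH.sum (n := 3) Finset.univ (fun i _ => PH.sum Finset.univ (fun j _ =>
      PH.sum Finset.univ (fun k _ =>
        ((((hc i).mul (hc j)).mul (hc k)).cmul (a i j k)))))).congr fun x => ?_
    simp only [Tri]
    exact Finset.sum_congr rfl fun i _ => Finset.sum_congr rfl fun j _ =>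
      Finset.sum_congr rfl fun k _ => by ring
  · -- not identically zero
    by_contra hcon
    push Not at hcon
    have h1 : ∀ p, A *ᵥ p = p → Tri a p p p = 0 := by
      intro p hp
      obtain ⟨x, rfl⟩ := hPs p hp
      exact hcon x
    have h2 : ∀ p p', A *ᵥ p = p → A *ᵥ p' = p' → Tri a p p p' = 0 := by
      intro m m' hm hm'
      refine tri_polar hs (S := fun m => A *ᵥ m = m) ?_ ?_ h1 hm hm'
      · intro x y hx hy
        beta_reduce at hx hy ⊢
        rw [Matrix.mulVec_add, hx, hy]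
      · intro x hx
        beta_reduce at hx ⊢
        rw [Matrix.mulVec_smul, hx]
    have h3' : u 0 = 0 := by
      apply hsm
      intro y
      obtain ⟨p, m, hp, hm, rfl⟩ := hdec y
      rw [tri_add3, h2 _ _ (hu 0) hp, hppm _ _ (hu 0) hm, add_zero]
    have h4 : bp 0 = 0 := Subtype.ext h3'
    exact bp.ne_zero 0 h4
  · intro i
    refine Matrix.IsSymm.ext fun j k => ?_
    simp only [Q, Matrix.of_apply]
    rw [tri_swap23 hs]
  · -- no base point
    intro w hw
    apply hM0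
    apply hsm
    intro y
    obtain ⟨p, m, hp, hm, rfl⟩ := hdec y
    obtain ⟨x, rfl⟩ := hPs p hp
    have h1 : ∀ i, Tri a (M w) (M w) (u i) = 0 := by
      intro i
      have h2 := hw i
      rw [hQw, tri_swap13 hs] at h2
      linear_combination (1 / 3) * h2
    rw [tri_add3, hmmm' _ _ (hM w) hm, add_zero]
    simp only [P, tri_add3, tri_smul3, h1]
    ring
  · intro z
    rw [hg, tri_cube_add hs, hppm _ _ (hP _) (hM _), hmmm _ (hM _)]
    have h1 : dotProduct (ww z) ((QQ Q (xx z)).mulVec (ww z)) =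
        3 * Tri a (P (xx z)) (M (ww z)) (M (ww z)) := by
      have h2 : dotProduct (ww z) ((QQ Q (xx z)).mulVec (ww z)) =
          xx z 0 * dotProduct (ww z) ((Q 0).mulVec (ww z)) +
          xx z 1 * dotProduct (ww z) ((Q 1).mulVec (ww z)) +
          xx z 2 * dotProduct (ww z) ((Q 2).mulVec (ww z)) := by
        simp only [QQ, Matrix.add_mulVec, Matrix.smul_mulVec, dotProduct_add, dotProduct_smul,
          smul_eq_mul]
      rw [h2, hQw, hQw, hQw]
      simp only [P, tri_add1, tri_smul1]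
      ring
    show _ = Tri a (P (xx z)) (P (xx z)) (P (xx z)) + dotProduct (ww z) ((QQ Q (xx z)).mulVec (ww z))
    rw [h1]
    ring

end P287H468
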