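import Mathlib
import Vale.Agent.P287.H468.Defs

set_option autoImplicit false
set_option linter.all false

/-!
Linear algebra of the `6 × 6` skew matrix `Ω(N, w) (p, q) = (w × p + N q, - Nᵀ p - c w × q)`.
-/

namespace P287H468
open Matrix

/-- cross product -/
def cr (a b : Fin 3 → ℂ) : Fin 3 → ℂ :=
  ![a 1 * b 2 - a 2 * b 1, a 2 * b 0 - a 0 * b 2, a 0 * b 1 - a 1 * b 0]

/-- adjugate of a `3 × 3` matrix, written out -/
def ad (N : Matrix (Fin 3) (Fin 3) ℂ) : Matrix (Fin 3) (Fin 3) ℂ :=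
  !![N 1 1 * N 2 2 - N 1 2 * N 2 1, N 0 2 * N 2 1 - N 0 1 * N 2 2, N 0 1 * N 1 2 - N 0 2 * N 1 1;
     N 1 2 * N 2 0 - N 1 0 * N 2 2, N 0 0 * N 2 2 - N 0 2 * N 2 0, N 0 2 * N 1 0 - N 0 0 * N 1 2;
     N 1 0 * N 2 1 - N 1 1 * N 2 0, N 0 1 * N 2 0 - N 0 0 * N 2 1, N 0 0 * N 1 1 - N 0 1 * N 1 0]

/-- first component of `Ω (p, q)` -/
def o1 (N : Matrix (Fin 3) (Fin 3) ℂ) (w p q : Fin 3 → ℂ) : Fin 3 → ℂ := cr w p + N *ᵥ q
/-- second component of `Ω (p, q)` -/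
def o2 (c : ℂ) (N : Matrix (Fin 3) (Fin 3) ℂ) (w p q : Fin 3 → ℂ) : Fin 3 → ℂ :=
  - (Nᵀ *ᵥ p) - c • cr w q

/-- `det N + c wᵀ N w` -/
def Phi (c : ℂ) (N : Matrix (Fin 3) (Fin 3) ℂ) (w : Fin 3 → ℂ) : ℂ :=
  N.det + c * (w ⬝ᵥ (N *ᵥ w))

/-- the first kernel vector, `p` part -/
def v1p (c : ℂ) (N : Matrix (Fin 3) (Fin 3) ℂ) (g w : Fin 3 → ℂ) : Fin 3 → ℂ :=
  c • cr g (N *ᵥ w)
def v1q (c : ℂ) (N : Matrix (Fin 3) (Fin 3) ℂ) (g w : Fin 3 → ℂ) : Fin 3 → ℂ :=
  (c * (g ⬝ᵥ w)) • w + ad N *ᵥ g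
def v2p (c : ℂ) (N : Matrix (Fin 3) (Fin 3) ℂ) (g w : Fin 3 → ℂ) : Fin 3 → ℂ :=
  (c * (g ⬝ᵥ w)) • w + (ad N)ᵀ *ᵥ g
def v2q (N : Matrix (Fin 3) (Fin 3) ℂ) (g w : Fin 3 → ℂ) : Fin 3 → ℂ :=
  cr g (Nᵀ *ᵥ w)
/-- `D' = c (g·w)² + gᵀ adj(N) g` -/
def DD (c : ℂ) (N : Matrix (Fin 3) (Fin 3) ℂ) (g w : Fin 3 → ℂ) : ℂ :=
  c * (g ⬝ᵥ w) ^ 2 + g ⬝ᵥ (ad N *ᵥ g)

variable (c : ℂ) (N : Matrix (Fin 3) (Fin 3) ℂ) (g w p q : Fin 3 → ℂ)

theorem o1_v1 : o1 N w (v1p c N g w) (v1q c N g w) = Phi c N w • g := by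
  funext i
  fin_cases i <;>
  · simp [o1, v1p, v1q, Phi, cr, ad, Matrix.mulVec, dotProduct, Fin.sum_univ_three, Matrix.det_fin_three,
      Matrix.vecHead, Matrix.vecTail]
    ring

theorem o2_v1 : o2 c N w (v1p c N g w) (v1q c N g w) = 0 := by
  funext i
  fin_cases i <;>
  · simp [o2, v1p, v1q, cr, ad, Matrix.mulVec, dotProduct, Fin.sum_univ_three, Matrix.vecHead, Matrix.vecTail]
    ring

theorem o1_v2 : o1 N w (v2p c N g w) (v2q N g w) = 0 := by
  funext i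
  fin_cases i <;>
  · simp [o1, v2p, v2q, cr, ad, Matrix.mulVec, dotProduct, Fin.sum_univ_three, Matrix.vecHead, Matrix.vecTail]
    ring

theorem o2_v2 : o2 c N w (v2p c N g w) (v2q N g w) = (- Phi c N w) • g := by
  funext i
  fin_cases i <;>
  · simp [o2, v2p, v2q, Phi, cr, ad, Matrix.mulVec, dotProduct, Fin.sum_univ_three, Matrix.det_fin_three,
      Matrix.vecHead, Matrix.vecTail]
    ring

theorem eta_v1 (a : ℂ) : g ⬝ᵥ v1p c N g w - a * (g ⬝ᵥ v1q c N g w) = - a * DD c N g w := by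
  simp [v1p, v1q, DD, cr, ad, Matrix.mulVec, dotProduct, Fin.sum_univ_three]
  ring

theorem g_v2p : g ⬝ᵥ v2p c N g w = DD c N g w := by
  simp [v2p, DD, cr, ad, Matrix.mulVec, dotProduct, Fin.sum_univ_three]
  ring

theorem g_v2q : g ⬝ᵥ v2q N g w = 0 := by
  simp [v2q, cr, Matrix.mulVec, dotProduct, Fin.sum_univ_three]
  ring

theorem g_v1p : g ⬝ᵥ v1p c N g w = 0 := by
  simp [v1p, cr, Matrix.mulVec, dotProduct, Fin.sum_univ_three]
  ring

/-- skew symmetry -/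
theorem skew_om : p ⬝ᵥ o1 N w p q + q ⬝ᵥ o2 c N w p q = 0 := by
  simp [o1, o2, cr, Matrix.mulVec, dotProduct, Fin.sum_univ_three]
  ring

variable {c N w p q}

/-- a kernel vector has `p ⊥ N w` -/
theorem p_perp (h2 : o2 c N w p q = 0) : p ⬝ᵥ (N *ᵥ w) = 0 := by
  have h : w ⬝ᵥ o2 c N w p q = 0 := by rw [h2]; simp
  have h3 : w ⬝ᵥ o2 c N w p q = - (p ⬝ᵥ (N *ᵥ w)) := by
    simp [o2, cr, Matrix.mulVec, dotProduct, Fin.sum_univ_three, Matrix.vecHead, Matrix.vecTail]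
    ring
  rw [h3] at h
  simpa using h

/-- general identity behind `key_y` -/
theorem key_id (c : ℂ) (N : Matrix (Fin 3) (Fin 3) ℂ) (w p q : Fin 3 → ℂ) :
    Phi c N w • (Nᵀ *ᵥ p) = (-(N.det)) • o2 c N w p q - c • cr w (ad N *ᵥ o1 N w p q)
      + (c * (p ⬝ᵥ (N *ᵥ w))) • (Nᵀ *ᵥ w) := by
  funext i
  fin_cases i <;>
  · simp [Phi, o1, o2, cr, ad, Matrix.mulVec, dotProduct, Fin.sum_univ_three,
      Matrix.det_fin_three, Matrix.vecHead, Matrix.vecTail]
    ring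

theorem cr_zero (a : Fin 3 → ℂ) : cr a 0 = 0 := by
  funext i
  fin_cases i <;> simp [cr]

/-- `Φ Nᵀ p = 0` for a kernel vector -/
theorem key_y (h1 : o1 N w p q = 0) (h2 : o2 c N w p q = 0) :
    Phi c N w • (Nᵀ *ᵥ p) = 0 := by
  rw [key_id c N w p q, h1, h2, p_perp h2, Matrix.mulVec_zero, cr_zero]
  simp

/-- a kernel vector with `p = 0` vanishes, if `det N ≠ 0` -/
theorem q_zero (hN : N.det ≠ 0) (h1 : o1 N w 0 q = 0) : q = 0 := by
  have h : N *ᵥ q = 0 := by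
    have : o1 N w 0 q = N *ᵥ q := by rw [o1, cr_zero, zero_add]
    rw [← this, h1]
  exact Matrix.eq_zero_of_mulVec_eq_zero hN h

/-- nonzero kernel vector gives `Φ = 0` -/
theorem Phi_zero (hN : N.det ≠ 0) (h1 : o1 N w p q = 0) (h2 : o2 c N w p q = 0)
    (hv : ¬ (p = 0 ∧ q = 0)) : Phi c N w = 0 := by
  by_contra h
  have h3 := key_y h1 h2
  have h4 : Nᵀ *ᵥ p = 0 := by
    rcases smul_eq_zero.1 h3 with h5 | h5
    · exact absurd h5 h
    · exact h5
  have h5 : p = 0 := Matrix.eq_zero_of_mulVec_eq_zero (by rwa [Matrix.det_transpose]) h4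
  subst h5
  exact hv ⟨rfl, q_zero hN h1⟩

theorem o1lin (N : Matrix (Fin 3) (Fin 3) ℂ) (w : Fin 3 → ℂ) (r s : ℂ) (p q p' q' : Fin 3 → ℂ) :
    o1 N w (r • p + s • p') (r • q + s • q') = r • o1 N w p q + s • o1 N w p' q' := by
  rw [o1, o1, o1, Matrix.mulVec_add, Matrix.mulVec_smul, Matrix.mulVec_smul]
  have h : cr w (r • p + s • p') = r • cr w p + s • cr w p' := by
    funext i
    fin_cases i <;>
    · simp [cr]
      ring
  rw [h]
  module

theorem o2lin (c : ℂ) (N : Matrix (Fin 3) (Fin 3) ℂ) (w : Fin 3 → ℂ) (r s : ℂ)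
    (p q p' q' : Fin 3 → ℂ) :
    o2 c N w (r • p + s • p') (r • q + s • q') = r • o2 c N w p q + s • o2 c N w p' q' := by
  rw [o2, o2, o2, Matrix.mulVec_add, Matrix.mulVec_smul, Matrix.mulVec_smul]
  have h : cr w (r • q + s • q') = r • cr w q + s • cr w q' := by
    funext i
    fin_cases i <;>
    · simp [cr]
      ring
  rw [h]
  module

/-- the kernel is two-dimensional: a kernel vector in the hyperplane is unique up to scaling -/
theorem ker_unique {a : ℂ} (ha : a ≠ 0) (hN : N.det ≠ 0) (hPhi : Phi c N w = 0) {g : Fin 3 → ℂ}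
    (hD : DD c N g w ≠ 0) (h1 : o1 N w p q = 0) (h2 : o2 c N w p q = 0)
    (hH : g ⬝ᵥ p - a * (g ⬝ᵥ q) = 0) (hv : ¬ (p = 0 ∧ q = 0)) :
    ∃ r : ℂ, r ≠ 0 ∧ v1p c N g w + a • v2p c N g w = r • p ∧
      v1q c N g w + a • v2q N g w = r • q := by
  -- name the two other vectors
  set P2 := v1p c N g w + a • v2p c N g w with hP2
  set Q2 := v1q c N g w + a • v2q N g w with hQ2
  have k1 : o1 N w (v1p c N g w) (v1q c N g w) = 0 := by rw [o1_v1, hPhi, zero_smul]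
  have k1' : o2 c N w (v1p c N g w) (v1q c N g w) = 0 := o2_v1 c N g w
  have k2 : o1 N w P2 Q2 = 0 := by
    have := o1lin N w 1 a (v1p c N g w) (v1q c N g w) (v2p c N g w) (v2q N g w)
    rw [one_smul, one_smul, k1, o1_v2] at this
    simpa using this
  have k2' : o2 c N w P2 Q2 = 0 := by
    have := o2lin c N w 1 a (v1p c N g w) (v1q c N g w) (v2p c N g w) (v2q N g w)
    rw [one_smul, one_smul, k1', o2_v2, hPhi] at this
    simpa using this
  have hne : N *ᵥ w ≠ 0 := by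
    intro h
    apply hN
    have : Phi c N w = N.det := by rw [Phi, h]; simp
    rw [← this, hPhi]
  have q1 := p_perp h2
  have q2 := p_perp k2'
  have q3 := p_perp k1'
  -- dependency of the three `p` parts
  have hdet : (!![p 0, P2 0, v1p c N g w 0; p 1, P2 1, v1p c N g w 1;
      p 2, P2 2, v1p c N g w 2] : Matrix (Fin 3) (Fin 3) ℂ)ᵀ.det = 0 := by
    rw [← Matrix.exists_mulVec_eq_zero_iff]
    refine ⟨N *ᵥ w, hne, ?_⟩
    funext i
    fin_cases i
    · simpa [Matrix.mulVec, dotProduct, Fin.sum_univ_three] using q1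
    · simpa [Matrix.mulVec, dotProduct, Fin.sum_univ_three] using q2
    · simpa [Matrix.mulVec, dotProduct, Fin.sum_univ_three] using q3
  rw [Matrix.det_transpose, ← Matrix.exists_mulVec_eq_zero_iff] at hdet
  obtain ⟨y, hy0, hy⟩ := hdet
  have hdep : y 0 • p + y 1 • P2 + y 2 • v1p c N g w = 0 := by
    funext i
    fin_cases i
    · have e0 := congrFun hy 0
      simp [Matrix.mulVec, dotProduct, Fin.sum_univ_three] at e0
      simp
      linear_combination e0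
    · have e0 := congrFun hy 1
      simp [Matrix.mulVec, dotProduct, Fin.sum_univ_three] at e0
      simp
      linear_combination e0
    · have e0 := congrFun hy 2
      simp [Matrix.mulVec, dotProduct, Fin.sum_univ_three] at e0
      simp
      linear_combination e0
  have hq : y 0 • q + y 1 • Q2 + y 2 • v1q c N g w = 0 := by
    apply q_zero (w := w) hN
    have e1 := o1lin N w (y 0) (y 1) p q P2 Q2
    have e2 := o1lin N w 1 (y 2) (y 0 • p + y 1 • P2) (y 0 • q + y 1 • Q2)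
      (v1p c N g w) (v1q c N g w)
    rw [one_smul, one_smul, e1, h1, k2, k1, hdep] at e2
    simpa using e2
  -- apply the hyperplane form
  have hH2 : g ⬝ᵥ P2 - a * (g ⬝ᵥ Q2) = 0 := by
    rw [hP2, hQ2, dotProduct_add, dotProduct_add, dotProduct_smul, dotProduct_smul, g_v2p, g_v2q]
    have := eta_v1 c N g w a
    simp only [smul_eq_mul]
    linear_combination this
  have hH3 := eta_v1 c N g w a
  have hy2 : y 2 = 0 := by
    have e1 := congrArg (fun z => g ⬝ᵥ z) hdep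
    have e2 := congrArg (fun z => g ⬝ᵥ z) hq
    simp only [dotProduct_add, dotProduct_smul, smul_eq_mul, dotProduct_zero] at e1 e2
    have e3 : y 2 * (- a * DD c N g w) = 0 := by
      rw [← hH3]
      linear_combination e1 - a * e2 - y 0 * hH - y 1 * hH2
    rcases mul_eq_zero.1 e3 with h | h
    · exact h
    · exact absurd h (mul_ne_zero (neg_ne_zero.2 ha) hD)
  rw [hy2, zero_smul, add_zero] at hdep hq
  have hP2ne : P2 ≠ 0 := by
    intro h
    have e : g ⬝ᵥ P2 = a * DD c N g w := by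
      rw [hP2, dotProduct_add, dotProduct_smul, g_v2p, g_v1p]
      simp
    rw [h, dotProduct_zero] at e
    exact mul_ne_zero ha hD e.symm
  have hy1 : y 1 ≠ 0 := by
    intro h
    rw [h, zero_smul, add_zero] at hdep hq
    have hy0' : y 0 ≠ 0 := by
      intro h'
      apply hy0
      funext i
      fin_cases i
      · exact h'
      · exact h
      · exact hy2
    exact hv ⟨(smul_eq_zero.1 hdep).resolve_left hy0', (smul_eq_zero.1 hq).resolve_left hy0'⟩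
  have eP : P2 = (-(y 1)⁻¹ * y 0) • p := by
    have h5 : y 1 • P2 = -(y 0 • p) := by
      rw [eq_neg_iff_add_eq_zero, add_comm]; exact hdep
    have h6 : (y 1)⁻¹ • (y 1 • P2) = P2 := by rw [smul_smul, inv_mul_cancel₀ hy1, one_smul]
    rw [← h6, h5]
    module
  have eQ : Q2 = (-(y 1)⁻¹ * y 0) • q := by
    have h5 : y 1 • Q2 = -(y 0 • q) := by
      rw [eq_neg_iff_add_eq_zero, add_comm]; exact hq
    have h6 : (y 1)⁻¹ • (y 1 • Q2) = Q2 := by rw [smul_smul, inv_mul_cancel₀ hy1, one_smul]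
    rw [← h6, h5]
    module
  refine ⟨-(y 1)⁻¹ * y 0, ?_, eP, eQ⟩
  intro h
  rw [h, zero_smul] at eP
  exact hP2ne eP

end P287H468
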