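import Mathlib
import Vale.Agent.P287.H468.Defs

set_option autoImplicit false
set_option linter.all false

/-!
Adjugates of `6 × 6` matrices with one-dimensional kernel, and hyperplane coordinates.
-/

namespace P287H468
open Matrix

/-- `det` of a matrix whose entries are homogeneous, with a degree for each row -/
theorem PH.det {ι : Type} {n : ℕ} (d : Fin n → ℕ) (M : (ι → ℂ) → Matrix (Fin n) (Fin n) ℂ)
    (hM : ∀ i j, PH (d i) (fun x => M x i j)) : PH (∑ i, d i) (fun x => (M x).det) := by
  have h : PH (∑ i, d i) (fun x => ∑ σ : Equiv.Perm (Fin n),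
      ((Equiv.Perm.sign σ : ℤ) : ℂ) * ∏ i, M x (σ i) i) := by
    refine PH.sum Finset.univ fun σ _ => PH.cmul _ ?_
    refine (PH.prod Finset.univ (n := fun i => d (σ i)) (fun i _ => hM (σ i) i)).of_eq ?_
    exact Equiv.sum_comp σ d
  refine h.congr fun x => ?_
  rw [Matrix.det_apply]
  refine Finset.sum_congr rfl fun σ _ => ?_
  rw [Units.smul_def, zsmul_eq_mul]

/-- entries of the adjugate of a matrix of linear forms are quintic -/
theorem PH.adj {ι : Type} (M : (ι → ℂ) → Matrix (Fin 6) (Fin 6) ℂ)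
    (hM : ∀ i j, PH 1 (fun x => M x i j)) (i j : Fin 6) :
    PH 5 (fun x => (M x).adjugate i j) := by
  have h := PH.det (ι := ι) (fun r : Fin 6 => if r = j then 0 else 1)
    (fun x => (M x).updateRow j (Pi.single i 1)) (by
      intro r s
      by_cases hr : r = j
      · subst hr
        rw [if_pos rfl]
        refine (PH.const ((Pi.single i (1 : ℂ) : Fin 6 → ℂ) s)).congr fun x => ?_
        rw [Matrix.updateRow_self]
      · rw [if_neg hr]
        refine (hM r s).congr fun x => ?_
        rw [Matrix.updateRow_ne hr])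
  refine (h.congr fun x => ?_).of_eq ?_
  · rw [Matrix.adjugate_apply]
  · fin_cases j <;> rfl

/-- a kernel vector is a multiple of a nonzero column of the adjugate -/
theorem ker_col {T : Matrix (Fin 6) (Fin 6) ℂ} (hT : T.det = 0) {i j : Fin 6}
    (hij : T.adjugate i j ≠ 0) {z : Fin 6 → ℂ} (hz : T *ᵥ z = 0) :
    z = (z i / T.adjugate i j) • (fun r => T.adjugate r j) := by
  have hcol : T *ᵥ (fun r => T.adjugate r j) = 0 := by
    have h1 := Matrix.mul_adjugate T
    rw [hT, zero_smul] at h1
    funext r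
    have h2 := congrFun (congrFun h1 r) j
    rw [Matrix.mul_apply] at h2
    simpa [Matrix.mulVec, dotProduct] using h2
  set y := z - (z i / T.adjugate i j) • (fun r => T.adjugate r j) with hy
  have hy0 : T *ᵥ y = 0 := by
    rw [hy, Matrix.mulVec_sub, Matrix.mulVec_smul, hz, hcol]
    simp
  have hyi : y i = 0 := by
    rw [hy]
    simp only [Pi.sub_apply, Pi.smul_apply, smul_eq_mul]
    rw [div_mul_cancel₀ _ hij, sub_self]
  have hB : (T.updateRow j (Pi.single i 1)).det ≠ 0 := by
    rw [← Matrix.adjugate_apply]; exact hij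
  have hBy : (T.updateRow j (Pi.single i 1)) *ᵥ y = 0 := by
    funext r
    by_cases hr : r = j
    · subst hr
      rw [Matrix.mulVec, Matrix.updateRow_self, single_one_dotProduct, hyi]
      rfl
    · have := congrFun hy0 r
      rw [Matrix.mulVec] at this ⊢
      rw [Matrix.updateRow_ne hr]
      exact this
  have h3 := Matrix.eq_zero_of_mulVec_eq_zero hB hBy
  rw [hy, sub_eq_zero] at h3
  exact h3

/-- one-dimensional kernel: some entry of the adjugate is nonzero -/
theorem adj_ne {T : Matrix (Fin 6) (Fin 6) ℂ} {x0 y : Fin 6 → ℂ} (hx0 : x0 ≠ 0)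
    (hker : ∀ z, T *ᵥ z = 0 → ∃ r : ℂ, z = r • x0) (hy : y ≠ 0) (hyT : y ᵥ* T = 0) :
    ∃ i j, T.adjugate i j ≠ 0 := by
  obtain ⟨i, hi⟩ := Function.ne_iff.1 hx0
  obtain ⟨j, hj⟩ := Function.ne_iff.1 hy
  refine ⟨i, j, ?_⟩
  rw [Matrix.adjugate_apply]
  intro hdet
  rw [← Matrix.exists_mulVec_eq_zero_iff] at hdet
  obtain ⟨z, hz0, hz⟩ := hdet
  have hzi : z i = 0 := by
    have := congrFun hz j
    rw [Matrix.mulVec, Matrix.updateRow_self, single_one_dotProduct] at this
    exact this
  have hTr : ∀ r, r ≠ j → (T *ᵥ z) r = 0 := by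
    intro r hr
    have := congrFun hz r
    rw [Matrix.mulVec, Matrix.updateRow_ne hr] at this
    exact this
  have hTj : (T *ᵥ z) j = 0 := by
    have h1 : y ⬝ᵥ (T *ᵥ z) = 0 := by
      rw [Matrix.dotProduct_mulVec, hyT, zero_dotProduct]
    rw [dotProduct, Finset.sum_eq_single j] at h1
    · exact (mul_eq_zero.1 h1).resolve_left hj
    · intro r _ hr
      rw [hTr r hr, mul_zero]
    · simp
  have hTz : T *ᵥ z = 0 := by
    funext r
    by_cases hr : r = j
    · rw [hr]; exact hTj
    · exact hTr r hr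
  obtain ⟨r, hr⟩ := hker z hTz
  have : r * x0 i = 0 := by rw [← hzi, hr]; rfl
  rcases mul_eq_zero.1 this with h | h
  · apply hz0
    rw [hr, h, zero_smul]
  · exact hi h

end P287H468
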