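import Mathlib
import Vale.Agent.P287.H468.Defs
import Vale.Agent.P287.H468.Pf1
import Vale.Agent.P287.H468.Pf2

set_option autoImplicit false
set_option linter.all false

/-!
The pfaffian representation: the birational map, given a good point.
-/

namespace P287H468
open Matrix

section Hyp
variable (η : Fin 6 → ℂ) (i0 : Fin 6)

/-- coordinates on the hyperplane `∑ η i v i = 0` -/
noncomputable def eH (t : Fin 5 → ℂ) : Fin 6 → ℂ :=
  Fin.insertNth i0 (-(∑ k, η (i0.succAbove k) * t k) / η i0) t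
/-- forget the coordinate `i0` -/
def dH (v : Fin 6 → ℂ) : Fin 5 → ℂ := fun k => v (i0.succAbove k)

theorem dH_eH (t : Fin 5 → ℂ) : dH i0 (eH η i0 t) = t := by
  funext k
  rw [dH, eH, Fin.insertNth_apply_succAbove]

variable {η i0}

theorem eta_eH (h : η i0 ≠ 0) (t : Fin 5 → ℂ) : ∑ i, η i * eH η i0 t i = 0 := by
  rw [Fin.sum_univ_succAbove _ i0, eH, Fin.insertNth_apply_same]
  have e : ∀ k : Fin 5, η (i0.succAbove k) * (Fin.insertNth (α := fun _ => ℂ) i0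
      (-(∑ k, η (i0.succAbove k) * t k) / η i0) t) (i0.succAbove k) =
      η (i0.succAbove k) * t k := by
    intro k
    rw [Fin.insertNth_apply_succAbove]
  rw [Finset.sum_congr rfl fun k _ => e k]
  field_simp
  ring

theorem eH_dH (h : η i0 ≠ 0) {v : Fin 6 → ℂ} (hv : ∑ i, η i * v i = 0) :
    eH η i0 (dH i0 v) = v := by
  rw [Fin.sum_univ_succAbove _ i0] at hv
  funext i
  rcases Fin.eq_self_or_eq_succAbove i0 i with rfl | ⟨k, rfl⟩
  · rw [eH, Fin.insertNth_apply_same]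
    simp only [dH]
    field_simp
    linear_combination -hv
  · rw [eH, Fin.insertNth_apply_succAbove]
    rfl

theorem eH_ph (η : Fin 6 → ℂ) (i0 i : Fin 6) : PH 1 (fun t => eH η i0 t i) := by
  rcases Fin.eq_self_or_eq_succAbove i0 i with rfl | ⟨k, rfl⟩
  · refine ((PH.sum Finset.univ (fun k _ =>
      (PH.coord k).cmul (η (i.succAbove k)))).cmul (-(η i)⁻¹)).congr fun t => ?_
    rw [eH, Fin.insertNth_apply_same]
    ring
  · refine (PH.coord k).congr fun t => ?_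
    rw [eH, Fin.insertNth_apply_succAbove]

end Hyp

/-- matrix of the cross product -/
def sk (k : Fin 3 → ℂ) : Matrix (Fin 3) (Fin 3) ℂ :=
  !![0, -k 2, k 1; k 2, 0, -k 0; -k 1, k 0, 0]

/-- the matrix `N(x) = Q(x) + [K x]` -/
def NN (Q : Fin 3 → Matrix (Fin 3) (Fin 3) ℂ) (K : Matrix (Fin 3) (Fin 3) ℂ) (x : Fin 3 → ℂ) :
    Matrix (Fin 3) (Fin 3) ℂ := QQ Q x + sk (K *ᵥ x)

/-- the skew matrix `Ω(ξ)` applied to `v` -/
def om (Q : Fin 3 → Matrix (Fin 3) (Fin 3) ℂ) (K : Matrix (Fin 3) (Fin 3) ℂ) (c : ℂ)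
    (ξ v : Fin 6 → ℂ) : Fin 6 → ℂ :=
  pt (o1 (NN Q K (xx ξ)) (ww ξ) (xx v) (ww v)) (o2 c (NN Q K (xx ξ)) (ww ξ) (xx v) (ww v))

theorem NN_add (Q : Fin 3 → Matrix (Fin 3) (Fin 3) ℂ) (K : Matrix (Fin 3) (Fin 3) ℂ)
    (x y : Fin 3 → ℂ) : NN Q K (x + y) = NN Q K x + NN Q K y := by
  ext i j
  fin_cases i <;> fin_cases j <;>
  · simp [NN, QQ, sk, Matrix.mulVec, dotProduct, Fin.sum_univ_three]
    ring

theorem NN_smul (Q : Fin 3 → Matrix (Fin 3) (Fin 3) ℂ) (K : Matrix (Fin 3) (Fin 3) ℂ)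
    (r : ℂ) (x : Fin 3 → ℂ) : NN Q K (r • x) = r • NN Q K x := by
  ext i j
  fin_cases i <;> fin_cases j <;>
  · simp [NN, QQ, sk, Matrix.mulVec, dotProduct, Fin.sum_univ_three]
    ring

theorem cr_add_left (a b d : Fin 3 → ℂ) : cr (a + b) d = cr a d + cr b d := by
  funext i
  fin_cases i <;> simp [cr] <;> ring
theorem cr_smul_left (r : ℂ) (a d : Fin 3 → ℂ) : cr (r • a) d = r • cr a d := by
  funext i
  fin_cases i <;> simp [cr] <;> ring

theorem xx_add (a b : Fin 6 → ℂ) : xx (a + b) = xx a + xx b := by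
  funext i
  fin_cases i <;> simp [xx]
theorem ww_add (a b : Fin 6 → ℂ) : ww (a + b) = ww a + ww b := by
  funext i
  fin_cases i <;> simp [ww]
theorem xx_smul (r : ℂ) (a : Fin 6 → ℂ) : xx (r • a) = r • xx a := by
  funext i
  fin_cases i <;> simp [xx]
theorem ww_smul (r : ℂ) (a : Fin 6 → ℂ) : ww (r • a) = r • ww a := by
  funext i
  fin_cases i <;> simp [ww]
theorem pt_add (a b d e : Fin 3 → ℂ) : pt (a + b) (d + e) = pt a d + pt b e := by
  funext i
  fin_cases i <;> simp [pt]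
theorem pt_smul' (r : ℂ) (a b : Fin 3 → ℂ) : pt (r • a) (r • b) = r • pt a b := by
  funext i
  fin_cases i <;> simp [pt]
theorem pt_xw (z : Fin 6 → ℂ) : pt (xx z) (ww z) = z := by
  funext i
  fin_cases i <;> simp [pt, xx, ww]
theorem xx_pt (a b : Fin 3 → ℂ) : xx (pt a b) = a := by
  funext i
  fin_cases i <;> simp [pt, xx]
theorem ww_pt (a b : Fin 3 → ℂ) : ww (pt a b) = b := by
  funext i
  fin_cases i <;> simp [pt, ww]
theorem pt_zero_iff {a b : Fin 3 → ℂ} (h : pt a b = 0) : a = 0 ∧ b = 0 := by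
  constructor
  · rw [← xx_pt a b, h]; funext i; fin_cases i <;> simp [xx]
  · rw [← ww_pt a b, h]; funext i; fin_cases i <;> simp [ww]
theorem pt_dot (a b : Fin 3 → ℂ) (v : Fin 6 → ℂ) :
    v ⬝ᵥ pt a b = xx v ⬝ᵥ a + ww v ⬝ᵥ b := by
  simp [pt, xx, ww, dotProduct, Fin.sum_univ_succ]
  ring

variable (Q : Fin 3 → Matrix (Fin 3) (Fin 3) ℂ) (K : Matrix (Fin 3) (Fin 3) ℂ) (c : ℂ)

/-- `ξ ↦ Ω(ξ) v` as a linear map -/
noncomputable def omL (v : Fin 6 → ℂ) : (Fin 6 → ℂ) →ₗ[ℂ] (Fin 6 → ℂ) where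
  toFun ξ := om Q K c ξ v
  map_add' ξ ζ := by
    rw [om, om, om, ← pt_add, xx_add, ww_add, NN_add, o1, o1, o1, o2, o2, o2, cr_add_left,
      cr_add_left, Matrix.add_mulVec, Matrix.transpose_add, Matrix.add_mulVec]
    congr 1
    · abel
    · rw [smul_add]; abel
  map_smul' r ξ := by
    rw [om, om, RingHom.id_apply, ← pt_smul', xx_smul, ww_smul, NN_smul, o1, o1, o2, o2,
      cr_smul_left, cr_smul_left, Matrix.smul_mulVec, Matrix.transpose_smul,
      Matrix.smul_mulVec]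
    congr 1
    · rw [smul_add]
    · rw [smul_sub, smul_neg, smul_comm]

/-- its matrix -/
noncomputable def TM (v : Fin 6 → ℂ) : Matrix (Fin 6) (Fin 6) ℂ := LinearMap.toMatrix' (omL Q K c v)

theorem TM_mulVec (v ξ : Fin 6 → ℂ) : TM Q K c v *ᵥ ξ = om Q K c ξ v := by
  rw [TM, LinearMap.toMatrix'_mulVec]
  rfl

theorem TM_entry (v : Fin 6 → ℂ) (i j : Fin 6) :
    TM Q K c v i j = om Q K c (Pi.single j 1) v i := by
  rw [← TM_mulVec, Matrix.mulVec_single_one, Matrix.col_apply]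

theorem TM_skew (v : Fin 6 → ℂ) : v ᵥ* TM Q K c v = 0 := by
  rw [← dotProduct_eq_zero_iff]
  intro ξ
  rw [← Matrix.dotProduct_mulVec, TM_mulVec, om, pt_dot]
  exact skew_om c _ _ _ _

theorem TM_det {v : Fin 6 → ℂ} (hv : v ≠ 0) : (TM Q K c v).det = 0 := by
  rw [← Matrix.exists_vecMul_eq_zero_iff]
  exact ⟨v, hv, TM_skew Q K c v⟩

end P287H468
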