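import Mathlib
import Vale.Agent.P287.H468.Defs
import Vale.Agent.P287.H468.Pf3

set_option autoImplicit false
set_option linter.all false

/-!
The pfaffian representation: homogeneity of the maps, and rationality from a good point.
-/

namespace P287H468
open Matrix

variable (Q : Fin 3 → Matrix (Fin 3) (Fin 3) ℂ) (K : Matrix (Fin 3) (Fin 3) ℂ) (c : ℂ)

theorem PHx (i : Fin 3) : PH 1 (fun z : Fin 6 → ℂ => xx z i) := by
  fin_cases i
  · exact (PH.coord (0 : Fin 6)).congr fun z => by simp [xx]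
  · exact (PH.coord (1 : Fin 6)).congr fun z => by simp [xx]
  · exact (PH.coord (2 : Fin 6)).congr fun z => by simp [xx]

theorem PHw (i : Fin 3) : PH 1 (fun z : Fin 6 → ℂ => ww z i) := by
  fin_cases i
  · exact (PH.coord (3 : Fin 6)).congr fun z => by simp [ww]
  · exact (PH.coord (4 : Fin 6)).congr fun z => by simp [ww]
  · exact (PH.coord (5 : Fin 6)).congr fun z => by simp [ww]

theorem PHlin {ι : Type} {n m : ℕ} {κ : Type} [Fintype κ] {f g : κ → (ι → ℂ) → ℂ}
    (hf : ∀ k, PH n (f k)) (hg : ∀ k, PH m (g k)) :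
    PH (n + m) (fun z => (fun k => f k z) ⬝ᵥ (fun k => g k z)) :=
  (PH.sum Finset.univ (fun k _ => (hf k).mul (hg k))).congr fun z => rfl

theorem PHN (i j : Fin 3) : PH 1 (fun z : Fin 6 → ℂ => NN Q K (xx z) i j) := by
  have hK : ∀ l, PH 1 (fun z : Fin 6 → ℂ => (K *ᵥ xx z) l) := by
    intro l
    exact (PH.sum Finset.univ (fun k _ => (PHx k).cmul (K l k))).congr fun z => rfl
  have hQ : PH 1 (fun z : Fin 6 → ℂ => QQ Q (xx z) i j) := by
    refine ((((PHx 0).cmul (Q 0 i j)).add ((PHx 1).cmul (Q 1 i j))).add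
      ((PHx 2).cmul (Q 2 i j))).congr fun z => ?_
    simp [QQ]
    ring
  have hs : PH 1 (fun z : Fin 6 → ℂ => sk (K *ᵥ xx z) i j) := by
    fin_cases i <;> fin_cases j
    · exact (PH.zero 1).congr fun z => by simp [sk]
    · exact (hK 2).neg.congr fun z => by simp [sk]
    · exact (hK 1).congr fun z => by simp [sk]
    · exact (hK 2).congr fun z => by simp [sk]
    · exact (PH.zero 1).congr fun z => by simp [sk]
    · exact (hK 0).neg.congr fun z => by simp [sk]
    · exact (hK 1).neg.congr fun z => by simp [sk]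
    · exact (hK 0).congr fun z => by simp [sk]
    · exact (PH.zero 1).congr fun z => by simp [sk]
  exact (hQ.add hs).congr fun z => by rw [NN, Matrix.add_apply]

/-- products of entries, cross products -/
theorem PHcr {n m : ℕ} {a b : (Fin 6 → ℂ) → Fin 3 → ℂ} (ha : ∀ i, PH n (fun z => a z i))
    (hb : ∀ i, PH m (fun z => b z i)) (i : Fin 3) : PH (n + m) (fun z => cr (a z) (b z) i) := by
  fin_cases i
  · exact (((ha 1).mul (hb 2)).sub ((ha 2).mul (hb 1))).congr fun z => by simp [cr]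
  · exact (((ha 2).mul (hb 0)).sub ((ha 0).mul (hb 2))).congr fun z => by simp [cr]
  · exact (((ha 0).mul (hb 1)).sub ((ha 1).mul (hb 0))).congr fun z => by simp [cr]

theorem PHad (i j : Fin 3) : PH 2 (fun z : Fin 6 → ℂ => ad (NN Q K (xx z)) i j) := by
  have h : ∀ a b d e : Fin 3, PH 2 (fun z : Fin 6 → ℂ => NN Q K (xx z) a b * NN Q K (xx z) d e) :=
    fun a b d e => (PHN Q K a b).mul (PHN Q K d e)
  fin_cases i <;> fin_cases j
  · exact ((h 1 1 2 2).sub (h 1 2 2 1)).congr fun z => by simp [ad]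
  · exact ((h 0 2 2 1).sub (h 0 1 2 2)).congr fun z => by simp [ad]
  · exact ((h 0 1 1 2).sub (h 0 2 1 1)).congr fun z => by simp [ad]
  · exact ((h 1 2 2 0).sub (h 1 0 2 2)).congr fun z => by simp [ad]
  · exact ((h 0 0 2 2).sub (h 0 2 2 0)).congr fun z => by simp [ad]
  · exact ((h 0 2 1 0).sub (h 0 0 1 2)).congr fun z => by simp [ad]
  · exact ((h 1 0 2 1).sub (h 1 1 2 0)).congr fun z => by simp [ad]
  · exact ((h 0 1 2 0).sub (h 0 0 2 1)).congr fun z => by simp [ad]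
  · exact ((h 0 0 1 1).sub (h 0 1 1 0)).congr fun z => by simp [ad]

variable (a : ℂ) (g : Fin 3 → ℂ)

/-- the vector `Ψ(ξ)` in the kernel of `Ω(ξ)` and in the hyperplane -/
noncomputable def Psi (ξ : Fin 6 → ℂ) : Fin 6 → ℂ :=
  pt (v1p c (NN Q K (xx ξ)) g (ww ξ) + a • v2p c (NN Q K (xx ξ)) g (ww ξ))
    (v1q c (NN Q K (xx ξ)) g (ww ξ) + a • v2q (NN Q K (xx ξ)) g (ww ξ))

/-- `d'(ξ) = det N D'` -/
noncomputable def dd (ξ : Fin 6 → ℂ) : ℂ :=
  (NN Q K (xx ξ)).det * DD c (NN Q K (xx ξ)) g (ww ξ)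

theorem PHgw : PH 1 (fun z : Fin 6 → ℂ => g ⬝ᵥ ww z) :=
  (PH.sum Finset.univ (fun k _ => (PHw k).cmul (g k))).congr fun z => rfl

theorem PHPsi (i : Fin 6) : PH 2 (fun ξ => Psi Q K c a g ξ i) := by
  have hNw : ∀ i, PH 2 (fun z : Fin 6 → ℂ => (NN Q K (xx z) *ᵥ ww z) i) := by
    intro i
    exact (PH.sum Finset.univ (fun k _ => (PHN Q K i k).mul (PHw k))).congr fun z => rfl
  have hNtw : ∀ i, PH 2 (fun z : Fin 6 → ℂ => ((NN Q K (xx z))ᵀ *ᵥ ww z) i) := by
    intro i
    exact (PH.sum Finset.univ (fun k _ => (PHN Q K k i).mul (PHw k))).congr fun z => rfl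
  have hadg : ∀ i, PH 2 (fun z : Fin 6 → ℂ => (ad (NN Q K (xx z)) *ᵥ g) i) := by
    intro i
    refine (PH.sum Finset.univ (fun k _ => (PHad Q K i k).cmul (g k))).congr fun z => ?_
    rw [Matrix.mulVec, dotProduct]
    exact Finset.sum_congr rfl fun k _ => mul_comm _ _
  have hadtg : ∀ i, PH 2 (fun z : Fin 6 → ℂ => ((ad (NN Q K (xx z)))ᵀ *ᵥ g) i) := by
    intro i
    refine (PH.sum Finset.univ (fun k _ => (PHad Q K k i).cmul (g k))).congr fun z => ?_
    rw [Matrix.mulVec, dotProduct]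
    exact Finset.sum_congr rfl fun k _ => mul_comm _ _
  have hg : ∀ i, PH 0 (fun _ : Fin 6 → ℂ => g i) := fun i => PH.const _
  have hp : ∀ i, PH 2 (fun ξ : Fin 6 → ℂ => (v1p c (NN Q K (xx ξ)) g (ww ξ)
      + a • v2p c (NN Q K (xx ξ)) g (ww ξ)) i) := by
    intro i
    have h1 := ((PHcr hg hNw i).of_eq (by rfl : 0 + 2 = 2)).cmul c
    have h2 := (((((PHgw g).cmul c).mul (PHw i)).of_eq (by rfl : 1 + 1 = 2)).add (hadtg i)).cmul a
    refine (h1.add h2).congr fun ξ => ?_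
    simp only [v1p, v2p, Pi.add_apply, Pi.smul_apply, smul_eq_mul]
  have hq : ∀ i, PH 2 (fun ξ : Fin 6 → ℂ => (v1q c (NN Q K (xx ξ)) g (ww ξ)
      + a • v2q (NN Q K (xx ξ)) g (ww ξ)) i) := by
    intro i
    have h1 := ((PHcr hg hNtw i).of_eq (by rfl : 0 + 2 = 2)).cmul a
    have h2 := ((((PHgw g).cmul c).mul (PHw i)).of_eq (by rfl : 1 + 1 = 2)).add (hadg i)
    refine (h2.add h1).congr fun ξ => ?_
    simp only [v1q, v2q, Pi.add_apply, Pi.smul_apply, smul_eq_mul]
  fin_cases i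
  · exact (hp 0).congr fun ξ => by simp [Psi, pt]
  · exact (hp 1).congr fun ξ => by simp [Psi, pt]
  · exact (hp 2).congr fun ξ => by simp [Psi, pt]
  · exact (hq 0).congr fun ξ => by simp [Psi, pt]
  · exact (hq 1).congr fun ξ => by simp [Psi, pt]
  · exact (hq 2).congr fun ξ => by simp [Psi, pt]

theorem PHdd : PH 5 (fun ξ => dd Q K c g ξ) := by
  have h1 : PH 3 (fun ξ : Fin 6 → ℂ => (NN Q K (xx ξ)).det) :=
    (PH.det (fun _ : Fin 3 => 1) (fun ξ : Fin 6 → ℂ => NN Q K (xx ξ)) (PHN Q K)).of_eq (by simp)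
  have h2 : PH 2 (fun ξ : Fin 6 → ℂ => DD c (NN Q K (xx ξ)) g (ww ξ)) := by
    have h3 := (((PHgw g).pow 2).of_eq (by rfl : 1 * 2 = 2)).cmul c
    have h4 : PH 2 (fun ξ : Fin 6 → ℂ => g ⬝ᵥ (ad (NN Q K (xx ξ)) *ᵥ g)) := by
      refine (PH.sum Finset.univ (fun i _ => (PH.sum Finset.univ
        (fun k _ => (PHad Q K i k).cmul (g i * g k))))).congr fun ξ => ?_
      rw [dotProduct]
      refine Finset.sum_congr rfl fun i _ => ?_
      rw [Matrix.mulVec, dotProduct, Finset.mul_sum]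
      exact Finset.sum_congr rfl fun k _ => by ring
    exact (h3.add h4).congr fun ξ => by rw [DD]
  exact (h1.mul h2).congr fun ξ => by rw [dd]

theorem PHTM (i j : Fin 6) : PH 1 (fun v => TM Q K c v i j) := by
  -- linear in `v`
  set N := NN Q K (xx (Pi.single j 1)) with hN
  set w := ww (Pi.single j (1 : ℂ)) with hw
  have hwc : ∀ i, PH 0 (fun _ : Fin 6 → ℂ => w i) := fun i => PH.const _
  have h1 : ∀ l, PH 1 (fun v : Fin 6 → ℂ => o1 N w (xx v) (ww v) l) := by
    intro l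
    refine (((PHcr hwc PHx l).of_eq (by rfl : 0 + 1 = 1)).add
      (PH.sum Finset.univ (fun k _ => (PHw k).cmul (N l k)))).congr fun v => ?_
    rw [o1, Pi.add_apply]
    rfl
  have h2 : ∀ l, PH 1 (fun v : Fin 6 → ℂ => o2 c N w (xx v) (ww v) l) := by
    intro l
    refine ((PH.sum Finset.univ (fun k _ => (PHx k).cmul (N k l))).neg.sub
      (((PHcr hwc PHw l).of_eq (by rfl : 0 + 1 = 1)).cmul c)).congr fun v => ?_
    rw [o2, Pi.sub_apply]
    rfl
  have h3 : PH 1 (fun v => om Q K c (Pi.single j 1) v i) := by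
    fin_cases i
    · exact (h1 0).congr fun v => by simp [om, pt, hN, hw]
    · exact (h1 1).congr fun v => by simp [om, pt, hN, hw]
    · exact (h1 2).congr fun v => by simp [om, pt, hN, hw]
    · exact (h2 0).congr fun v => by simp [om, pt, hN, hw]
    · exact (h2 1).congr fun v => by simp [om, pt, hN, hw]
    · exact (h2 2).congr fun v => by simp [om, pt, hN, hw]
  exact h3.congr fun v => by rw [TM_entry]

end P287H468
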