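import Mathlib
import Vale.Agent.P287.H468.Defs
import Vale.Agent.P287.H468.Pf4

set_option autoImplicit false
set_option linter.all false

/-!
The pfaffian representation: rationality from a good point.
-/

namespace P287H468
open Matrix

variable {Q : Fin 3 → Matrix (Fin 3) (Fin 3) ℂ} {K : Matrix (Fin 3) (Fin 3) ℂ} {c a : ℂ}
  {f : (Fin 3 → ℂ) → ℂ} {g : Fin 3 → ℂ}

theorem det_NN (hQ : ∀ i, (Q i).IsSymm) (K : Matrix (Fin 3) (Fin 3) ℂ) (x : Fin 3 → ℂ) :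
    (NN Q K x).det = (K *ᵥ x) ⬝ᵥ (QQ Q x *ᵥ (K *ᵥ x)) + (QQ Q x).det := by
  have h10 : QQ Q x 1 0 = QQ Q x 0 1 := by
    simp only [QQ, Matrix.add_apply, Matrix.smul_apply, (hQ 0).apply 0 1, (hQ 1).apply 0 1,
      (hQ 2).apply 0 1]
  have h20 : QQ Q x 2 0 = QQ Q x 0 2 := by
    simp only [QQ, Matrix.add_apply, Matrix.smul_apply, (hQ 0).apply 0 2, (hQ 1).apply 0 2,
      (hQ 2).apply 0 2]
  have h21 : QQ Q x 2 1 = QQ Q x 1 2 := by
    simp only [QQ, Matrix.add_apply, Matrix.smul_apply, (hQ 0).apply 1 2, (hQ 1).apply 1 2,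
      (hQ 2).apply 1 2]
  generalize hk : K *ᵥ x = k
  rw [Matrix.det_fin_three, Matrix.det_fin_three, NN, hk]
  generalize QQ Q x = S at h10 h20 h21
  simp [sk, Matrix.mulVec, dotProduct, Fin.sum_univ_three, h10, h20, h21]
  ring

theorem wNw (Q : Fin 3 → Matrix (Fin 3) (Fin 3) ℂ) (K : Matrix (Fin 3) (Fin 3) ℂ)
    (x w : Fin 3 → ℂ) : w ⬝ᵥ (NN Q K x *ᵥ w) = w ⬝ᵥ (QQ Q x *ᵥ w) := by
  rw [NN, Matrix.add_mulVec, dotProduct_add]
  have : w ⬝ᵥ (sk (K *ᵥ x) *ᵥ w) = 0 := by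
    simp [sk, Matrix.mulVec, dotProduct, Fin.sum_univ_three]
    ring
  rw [this, add_zero]

theorem Phi_F3 (hQ : ∀ i, (Q i).IsSymm)
    (hK : ∀ x, (K *ᵥ x) ⬝ᵥ (QQ Q x *ᵥ (K *ᵥ x)) + (QQ Q x).det = c * f x) (ξ : Fin 6 → ℂ) :
    Phi c (NN Q K (xx ξ)) (ww ξ) = c * F3 f Q ξ := by
  rw [Phi, det_NN hQ, hK, wNw, F3]
  ring

/-- the hyperplane coefficients -/
def etaV (a : ℂ) (g : Fin 3 → ℂ) : Fin 6 → ℂ := pt g (-(a • g))

theorem eta_sum (v : Fin 6 → ℂ) :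
    ∑ i, etaV a g i * v i = g ⬝ᵥ xx v - a * (g ⬝ᵥ ww v) := by
  simp [etaV, pt, xx, ww, dotProduct, Fin.sum_univ_succ]
  ring

/-- `Ψ(ξ)` lies in the hyperplane -/
theorem Psi_H (ξ : Fin 6 → ℂ) : ∑ i, etaV a g i * Psi Q K c a g ξ i = 0 := by
  rw [eta_sum, Psi, xx_pt, ww_pt, dotProduct_add, dotProduct_add, dotProduct_smul,
    dotProduct_smul, g_v2p, g_v2q]
  have := eta_v1 c (NN Q K (xx ξ)) g (ww ξ) a
  simp only [smul_eq_mul]
  linear_combination this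

/-- `Ψ(ξ)` lies in the kernel, on the cubic -/
theorem Psi_ker {ξ : Fin 6 → ℂ} (h : Phi c (NN Q K (xx ξ)) (ww ξ) = 0) :
    om Q K c ξ (Psi Q K c a g ξ) = 0 := by
  have h1 : o1 (NN Q K (xx ξ)) (ww ξ) (v1p c (NN Q K (xx ξ)) g (ww ξ)
      + a • v2p c (NN Q K (xx ξ)) g (ww ξ)) (v1q c (NN Q K (xx ξ)) g (ww ξ)
      + a • v2q (NN Q K (xx ξ)) g (ww ξ)) = 0 := by
    have := o1lin (NN Q K (xx ξ)) (ww ξ) 1 a (v1p c (NN Q K (xx ξ)) g (ww ξ))
      (v1q c (NN Q K (xx ξ)) g (ww ξ)) (v2p c (NN Q K (xx ξ)) g (ww ξ))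
      (v2q (NN Q K (xx ξ)) g (ww ξ))
    rw [one_smul, one_smul, o1_v1, o1_v2, h] at this
    simpa using this
  have h2 : o2 c (NN Q K (xx ξ)) (ww ξ) (v1p c (NN Q K (xx ξ)) g (ww ξ)
      + a • v2p c (NN Q K (xx ξ)) g (ww ξ)) (v1q c (NN Q K (xx ξ)) g (ww ξ)
      + a • v2q (NN Q K (xx ξ)) g (ww ξ)) = 0 := by
    have := o2lin c (NN Q K (xx ξ)) (ww ξ) 1 a (v1p c (NN Q K (xx ξ)) g (ww ξ))
      (v1q c (NN Q K (xx ξ)) g (ww ξ)) (v2p c (NN Q K (xx ξ)) g (ww ξ))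
      (v2q (NN Q K (xx ξ)) g (ww ξ))
    rw [one_smul, one_smul, o2_v1, o2_v2, h] at this
    simpa using this
  rw [om, Psi, xx_pt, ww_pt, h1, h2]
  funext i
  fin_cases i <;> simp [pt]

theorem Psi_ne {ξ : Fin 6 → ℂ} (ha : a ≠ 0) (h : DD c (NN Q K (xx ξ)) g (ww ξ) ≠ 0) :
    Psi Q K c a g ξ ≠ 0 := by
  intro h0
  have h1 := (pt_zero_iff h0).1
  have h2 : g ⬝ᵥ (v1p c (NN Q K (xx ξ)) g (ww ξ) + a • v2p c (NN Q K (xx ξ)) g (ww ξ))
      = a * DD c (NN Q K (xx ξ)) g (ww ξ) := by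
    rw [dotProduct_add, dotProduct_smul, g_v2p, g_v1p]
    simp
  rw [h1, dotProduct_zero] at h2
  exact mul_ne_zero ha h h2.symm

theorem om_eq {ξ v : Fin 6 → ℂ} (h : om Q K c ξ v = 0) :
    o1 (NN Q K (xx ξ)) (ww ξ) (xx v) (ww v) = 0 ∧ o2 c (NN Q K (xx ξ)) (ww ξ) (xx v) (ww v) = 0 :=
  pt_zero_iff h

/-- rationality from a good point -/
theorem pf_rat (hQ : ∀ i, (Q i).IsSymm) (hc : c ≠ 0) (ha : a ≠ 0)
    (hK : ∀ x, (K *ᵥ x) ⬝ᵥ (QQ Q x *ᵥ (K *ᵥ x)) + (QQ Q x).det = c * f x)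
    (hg : g ≠ 0) (i1 j0 : Fin 6)
    (hgood : ∃ ξ, F3 f Q ξ = 0 ∧ dd Q K c g ξ ≠ 0 ∧
      (TM Q K c (Psi Q K c a g ξ)).adjugate i1 j0 ≠ 0) : IsRat (F3 f Q) := by
  obtain ⟨i0, hi0⟩ : ∃ i0, etaV a g i0 ≠ 0 := by
    by_contra hcon
    push Not at hcon
    apply hg
    have : etaV a g = 0 := funext hcon
    exact (pt_zero_iff this).1
  -- the hyperplane coordinates of Psi
  have hPsi : ∀ ξ, eH (etaV a g) i0 (dH i0 (Psi Q K c a g ξ)) = Psi Q K c a g ξ :=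
    fun ξ => eH_dH hi0 (Psi_H ξ)
  have hφ : ∀ r, PH 5 (fun t : Fin 5 → ℂ =>
      (TM Q K c (eH (etaV a g) i0 t)).adjugate r j0) := by
    intro r
    exact ((PH.adj (fun v => TM Q K c v) (PHTM Q K c) r j0).comp
      (fun i => eH_ph (etaV a g) i0 i)).of_eq (by rfl : 1 * 5 = 5)
  have hψ : ∀ k, PH 2 (fun ξ => dH i0 (Psi Q K c a g ξ) k) := fun k => PHPsi Q K c a g _
  -- second property
  have h2 : ∀ ξ, F3 f Q ξ = 0 → dd Q K c g ξ ≠ 0 →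
      (TM Q K c (eH (etaV a g) i0 (dH i0 (Psi Q K c a g ξ)))).adjugate i1 j0 ≠ 0 →
      ∃ s : ℂ, s ≠ 0 ∧ (fun r => (TM Q K c (eH (etaV a g) i0 (dH i0
        (Psi Q K c a g ξ)))).adjugate r j0) = s • ξ := by
    intro ξ hF hd hadj
    rw [hPsi] at hadj ⊢
    have hPhi : Phi c (NN Q K (xx ξ)) (ww ξ) = 0 := by rw [Phi_F3 hQ hK, hF, mul_zero]
    have hD : DD c (NN Q K (xx ξ)) g (ww ξ) ≠ 0 := right_ne_zero_of_mul hd
    have hne := Psi_ne (Q := Q) (K := K) (c := c) (g := g) ha hD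
    have hker : TM Q K c (Psi Q K c a g ξ) *ᵥ ξ = 0 := by
      rw [TM_mulVec, Psi_ker hPhi]
    have h3 := ker_col (TM_det Q K c hne) hadj hker
    have hξi : ξ i1 ≠ 0 := by
      intro h0
      rw [h0, zero_div, zero_smul] at h3
      apply hd
      have hdd := (PHdd Q K c g).smul_eval 0 0
      rw [h3]
      simpa using hdd
    refine ⟨(TM Q K c (Psi Q K c a g ξ)).adjugate i1 j0 / ξ i1, div_ne_zero hadj hξi, ?_⟩
    have h4 : ((TM Q K c (Psi Q K c a g ξ)).adjugate i1 j0 / ξ i1) • ξ =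
        ((TM Q K c (Psi Q K c a g ξ)).adjugate i1 j0 / ξ i1) •
          ((ξ i1 / (TM Q K c (Psi Q K c a g ξ)).adjugate i1 j0) •
          (fun r => (TM Q K c (Psi Q K c a g ξ)).adjugate r j0)) := congrArg _ h3
    rw [h4, smul_smul, div_mul_div_comm, mul_comm (ξ i1), div_self (mul_ne_zero hadj hξi),
      one_smul]
  refine IsRat.of_pair (n := 5) (m := 2) (k := 5) (l := 5)
    (φ := fun t r => (TM Q K c (eH (etaV a g) i0 t)).adjugate r j0)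
    (ψ := fun ξ => dH i0 (Psi Q K c a g ξ))
    (c := fun t => (TM Q K c (eH (etaV a g) i0 t)).adjugate i1 j0)
    (d := fun ξ => dd Q K c g ξ) hφ hψ (hφ i1) (PHdd Q K c g) ?_ ?_ h2
  · -- a good point
    obtain ⟨ξ, hF, hd, hadj⟩ := hgood
    refine ⟨dH i0 (Psi Q K c a g ξ), ?_, ?_⟩
    · beta_reduce
      rw [hPsi]
      exact hadj
    · obtain ⟨s, hs, h3⟩ := h2 ξ hF hd (by rw [hPsi]; exact hadj)
      beta_reduce
      rw [h3, (PHdd Q K c g).smul_eval]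
      exact mul_ne_zero (pow_ne_zero _ hs) hd
  · intro t hct hdt
    set v := eH (etaV a g) i0 t with hv
    set ξ : Fin 6 → ℂ := fun r => (TM Q K c v).adjugate r j0 with hξ
    have hv0 : v ≠ 0 := by
      intro h0
      apply hct
      have ht : t = 0 := by
        rw [← dH_eH (etaV a g) i0 t, ← hv, h0]
        rfl
      have h5 := (hφ i1).smul_eval 0 0
      have h6 : (TM Q K c (eH (etaV a g) i0 0)).adjugate i1 j0 = 0 := by simpa using h5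
      rw [hv, ht]
      exact h6
    have hcol : om Q K c ξ v = 0 := by
      rw [← TM_mulVec]
      have h1 := Matrix.mul_adjugate (TM Q K c v)
      rw [TM_det Q K c hv0, zero_smul] at h1
      funext r
      have h2 := congrFun (congrFun h1 r) j0
      rw [Matrix.mul_apply] at h2
      simpa [Matrix.mulVec, dotProduct] using h2
    obtain ⟨k1, k2⟩ := om_eq hcol
    have hN : (NN Q K (xx ξ)).det ≠ 0 := left_ne_zero_of_mul hdt
    have hD : DD c (NN Q K (xx ξ)) g (ww ξ) ≠ 0 := right_ne_zero_of_mul hdt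
    have hpq : ¬ (xx v = 0 ∧ ww v = 0) := by
      rintro ⟨e1, e2⟩
      apply hv0
      rw [← pt_xw v, e1, e2]
      funext i
      fin_cases i <;> simp [pt]
    have hPhi := Phi_zero hN k1 k2 hpq
    have hF : F3 f Q ξ = 0 := by
      rw [Phi_F3 hQ hK] at hPhi
      exact (mul_eq_zero.1 hPhi).resolve_left hc
    refine ⟨hF, ?_⟩
    have hHv : g ⬝ᵥ xx v - a * (g ⬝ᵥ ww v) = 0 := by
      rw [← eta_sum, hv]
      exact eta_eH hi0 t
    obtain ⟨r, hr, e1, e2⟩ := ker_unique ha hN hPhi hD k1 k2 hHv hpq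
    refine ⟨r, hr, ?_⟩
    have e3 : Psi Q K c a g ξ = r • v := by
      rw [Psi, e1, e2, pt_smul', pt_xw]
    show dH i0 (Psi Q K c a g ξ) = r • t
    rw [e3]
    funext k
    have h6 := congrFun (dH_eH (etaV a g) i0 t) k
    rw [← hv] at h6
    simp only [dH, Pi.smul_apply, smul_eq_mul] at h6 ⊢
    rw [h6]

end P287H468
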