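import Mathlib
import Vale.Agent.P287.H468.Defs
import Vale.Agent.P287.H468.Pf5
import Vale.Agent.P287.H468.Net

set_option autoImplicit false
set_option linter.all false

/-!
Existence of a good point for the pfaffian representation.
-/

namespace P287H468
open Matrix

variable {Q : Fin 3 → Matrix (Fin 3) (Fin 3) ℂ} {K : Matrix (Fin 3) (Fin 3) ℂ} {c a : ℂ}
  {f : (Fin 3 → ℂ) → ℂ} {g : Fin 3 → ℂ}

/-- bilinear form -/
def bq (S : Matrix (Fin 3) (Fin 3) ℂ) (u v : Fin 3 → ℂ) : ℂ := u ⬝ᵥ (S *ᵥ v)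

theorem bq_symm {S : Matrix (Fin 3) (Fin 3) ℂ} (hS : S.IsSymm) (u v : Fin 3 → ℂ) :
    bq S u v = bq S v u := by
  rw [bq, bq, dotProduct_comm, Matrix.dotProduct_mulVec, ← Matrix.mulVec_transpose, hS]

theorem bq_add {S : Matrix (Fin 3) (Fin 3) ℂ} (hS : S.IsSymm) (u v : Fin 3 → ℂ) (r : ℂ) :
    bq S (u + r • v) (u + r • v) = bq S u u + 2 * r * bq S u v + r ^ 2 * bq S v v := by
  have h := bq_symm hS u v
  have e : bq S (u + r • v) (u + r • v) = bq S u u + r * bq S u v + r * bq S v u
      + r ^ 2 * bq S v v := by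
    simp only [bq, Matrix.mulVec_add, Matrix.mulVec_smul, dotProduct_add, add_dotProduct,
      dotProduct_smul, smul_dotProduct, smul_eq_mul]
    ring
  rw [e, ← h]
  ring

theorem QQ_symm' (hQ : ∀ i, (Q i).IsSymm) (x : Fin 3 → ℂ) : (QQ Q x).IsSymm := by
  rw [QQ]
  exact (((hQ 0).smul _).add ((hQ 1).smul _)).add ((hQ 2).smul _)

theorem QQ_smul' (Q : Fin 3 → Matrix (Fin 3) (Fin 3) ℂ) (r : ℂ) (x : Fin 3 → ℂ) :
    QQ Q (r • x) = r • QQ Q x := by
  rw [QQ, QQ]
  simp only [Pi.smul_apply, smul_eq_mul, smul_add, smul_smul]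

/-- a quadratic form in three variables has an isotropic vector -/
theorem exists_iso {S : Matrix (Fin 3) (Fin 3) ℂ} (hS : S.IsSymm) :
    ∃ w : Fin 3 → ℂ, w ≠ 0 ∧ bq S w w = 0 := by
  set e0 : Fin 3 → ℂ := ![1, 0, 0] with he0
  set e1 : Fin 3 → ℂ := ![0, 1, 0] with he1
  by_cases h : bq S e0 e0 = 0
  · exact ⟨e0, fun h0 => by simpa [he0] using congrFun h0 0, h⟩
  · obtain ⟨d, hd⟩ := IsAlgClosed.exists_pow_nat_eq
      (bq S e1 e0 ^ 2 - bq S e0 e0 * bq S e1 e1) (n := 2) (by norm_num)
    refine ⟨e1 + ((-bq S e1 e0 + d) / bq S e0 e0) • e0, ?_, ?_⟩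
    · intro h0
      have := congrFun h0 1
      simp [he0, he1] at this
    · rw [bq_add hS]
      field_simp
      linear_combination hd

/-- every vector orthogonal to `θ ≠ 0` is a cross product `θ × y` -/
theorem exists_cr {θ x : Fin 3 → ℂ} (hθ : θ ≠ 0) (h : θ ⬝ᵥ x = 0) : ∃ y, cr θ y = x := by
  simp only [dotProduct, Fin.sum_univ_three] at h
  by_cases h0 : θ 0 = 0
  · by_cases h1 : θ 1 = 0
    · have h2 : θ 2 ≠ 0 := by
        intro h2
        apply hθ
        funext i
        fin_cases i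
        · exact h0
        · exact h1
        · exact h2
      rw [h0, h1] at h
      have hx : x 2 = 0 := by
        have : θ 2 * x 2 = 0 := by linear_combination h
        exact (mul_eq_zero.1 this).resolve_left h2
      refine ⟨![x 1 / θ 2, - x 0 / θ 2, 0], ?_⟩
      funext i
      fin_cases i
      · simp [cr, h0, h1]
        field_simp
      · simp [cr, h0, h1]
        field_simp
      · simp [cr, h0, h1, hx]
    · refine ⟨![- x 2 / θ 1, 0, x 0 / θ 1], ?_⟩
      funext i
      fin_cases i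
      · simp [cr]
        field_simp
      · simp [cr, h0]
        rw [h0] at h
        field_simp
        linear_combination -h
      · simp [cr]
        field_simp
  · refine ⟨![0, x 2 / θ 0, - x 1 / θ 0], ?_⟩
    funext i
    fin_cases i
    · simp [cr]
      field_simp
      linear_combination -h
    · simp [cr]
      field_simp
    · simp [cr]
      field_simp

end P287H468
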