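import Mathlib
import Vale.Agent.P287.H468.Defs
import Vale.Agent.P287.H468.Pf6

set_option autoImplicit false
set_option linter.all false

/-!
Existence of a good point for the pfaffian representation, continued.
-/

namespace P287H468
open Matrix

variable {Q : Fin 3 → Matrix (Fin 3) (Fin 3) ℂ} {K : Matrix (Fin 3) (Fin 3) ℂ} {c a : ℂ}
  {f : (Fin 3 → ℂ) → ℂ} {g : Fin 3 → ℂ}

/-- the three values of the net at `w` -/
def th (Q : Fin 3 → Matrix (Fin 3) (Fin 3) ℂ) (w : Fin 3 → ℂ) : Fin 3 → ℂ := fun i => bq (Q i) w w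

theorem th_dot (Q : Fin 3 → Matrix (Fin 3) (Fin 3) ℂ) (x w : Fin 3 → ℂ) :
    th Q w ⬝ᵥ x = bq (QQ Q x) w w := by
  have e : th Q w ⬝ᵥ x = th Q w 0 * x 0 + th Q w 1 * x 1 + th Q w 2 * x 2 := by
    rw [dotProduct, Fin.sum_univ_three]
  rw [e]
  simp only [th, bq, QQ, Matrix.add_mulVec, Matrix.smul_mulVec, dotProduct_add,
    dotProduct_smul, smul_eq_mul]
  ring

theorem PHth (i : Fin 3) : PH 2 (fun z : Fin 6 → ℂ => th Q (xx z) i) := by
  refine (PH.sum Finset.univ (fun k _ => (PHx k).mul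
    (PH.sum Finset.univ (fun l _ => (PHx l).cmul (Q i k l))))).congr fun z => ?_
  rfl

theorem PHJ : PH 3 (fun z : Fin 6 → ℂ => (Matrix.of fun i j => ((Q i).mulVec (xx z)) j).det) := by
  refine (PH.det (fun _ : Fin 3 => 1)
    (fun z : Fin 6 → ℂ => Matrix.of fun i j => ((Q i).mulVec (xx z)) j) (fun i j => ?_)).of_eq
      (by simp)
  exact (PH.sum Finset.univ (fun k _ => (PHx k).cmul (Q i j k))).congr fun z => rfl

/-- the base point data -/
theorem exists_base (hf : PH 3 f) (hf0 : ∃ x, f x ≠ 0) (hQ : ∀ i, (Q i).IsSymm) (hb : BPF Q) :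
    ∃ w x1 : Fin 3 → ℂ, f x1 ≠ 0 ∧ bq (QQ Q x1) w w = 0 ∧
      (Matrix.of fun i j => ((Q i).mulVec w) j).det ≠ 0 := by
  have h1 : PH 9 (fun z : Fin 6 → ℂ => f (cr (th Q (xx z)) (ww z))) :=
    (hf.comp (fun i => (PHcr PHth PHw i))).of_eq (by rfl)
  have h2 : ∃ z : Fin 6 → ℂ, f (cr (th Q (xx z)) (ww z)) ≠ 0 := by
    obtain ⟨x, hx⟩ := hf0
    obtain ⟨w, hw0, hw⟩ := exists_iso (QQ_symm' hQ x)
    have hth : th Q w ≠ 0 := by
      intro h
      apply hw0
      apply hb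
      intro i
      exact congrFun h i
    obtain ⟨y, hy⟩ := exists_cr hth (by rw [th_dot, hw])
    refine ⟨pt w y, ?_⟩
    rw [xx_pt, ww_pt, hy]
    exact hx
  have h3 : ∃ z : Fin 6 → ℂ, (Matrix.of fun i j => ((Q i).mulVec (xx z)) j).det ≠ 0 := by
    obtain ⟨w, hw⟩ := J_ne Q hQ hb
    exact ⟨pt w 0, by rw [xx_pt]; exact hw⟩
  obtain ⟨z, hz1, hz2⟩ := h1.mul_ne PHJ h2 h3
  refine ⟨xx z, cr (th Q (xx z)) (ww z), hz1, ?_, hz2⟩
  rw [← th_dot]
  simp [cr, dotProduct, Fin.sum_univ_three]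
  ring

/-- independence: `Q(x) w = 0` only for `x = 0` -/
theorem Qw_zero {w x : Fin 3 → ℂ} (hJ : (Matrix.of fun i j => ((Q i).mulVec w) j).det ≠ 0)
    (h : QQ Q x *ᵥ w = 0) : x = 0 := by
  have h1 : (Matrix.of fun i j => ((Q i).mulVec w) j)ᵀ *ᵥ x = 0 := by
    rw [← h]
    funext j
    simp only [QQ, Matrix.add_mulVec, Matrix.smul_mulVec, Pi.add_apply, Pi.smul_apply, smul_eq_mul]
    rw [Matrix.mulVec, dotProduct, Fin.sum_univ_three]
    simp only [Matrix.transpose_apply, Matrix.of_apply]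
    ring
  exact Matrix.eq_zero_of_mulVec_eq_zero (by rwa [Matrix.det_transpose]) h1

/-- the curve on the cubic through `(0, w)` -/
theorem curve_F3 (hf : PH 3 f) (hQ : ∀ i, (Q i).IsSymm) {x1 w w' : Fin 3 → ℂ}
    (h0 : bq (QQ Q x1) w w = 0) (h1 : bq (QQ Q x1) w' w' = 0) (h2 : bq (QQ Q x1) w w' ≠ 0)
    (ε : ℂ) : F3 f Q (pt (ε • x1) (w + (ε ^ 2 * (-(f x1) / (2 * bq (QQ Q x1) w w'))) • w')) = 0 := by
  rw [F3, xx_pt, ww_pt, hf.smul_eval, QQ_smul', Matrix.smul_mulVec, dotProduct_smul]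
  have h3 := bq_add (QQ_symm' hQ x1) w w' (ε ^ 2 * (-(f x1) / (2 * bq (QQ Q x1) w w')))
  rw [bq] at h3
  rw [h3, h0, h1, smul_eq_mul]
  field_simp
  ring

/-- a homogeneous function along a polynomial curve -/
theorem PH.along {n : ℕ} {h : (Fin 6 → ℂ) → ℂ} (hh : PH n h) (γ : Fin 6 → Polynomial ℂ)
    (h0 : h (fun i => (γ i).eval 0) ≠ 0) :
    ∃ ε : ℂ, ε ≠ 0 ∧ h (fun i => (γ i).eval ε) ≠ 0 := by
  obtain ⟨p, hp, hp2⟩ := hh
  set P : Polynomial ℂ := MvPolynomial.aeval γ p with hP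
  have hev : ∀ ε : ℂ, P.eval ε = h (fun i => (γ i).eval ε) := by
    intro ε
    rw [← hp2, hP]
    have h1 : (Polynomial.evalRingHom ε) (MvPolynomial.aeval γ p) =
        MvPolynomial.eval (fun i => (γ i).eval ε) p := by
      rw [MvPolynomial.aeval_def, MvPolynomial.hom_eval₂, MvPolynomial.eval,
        MvPolynomial.coe_eval₂Hom]
      have h2 : (Polynomial.evalRingHom ε).comp (algebraMap ℂ (Polynomial ℂ)) = RingHom.id ℂ := by
        ext r
        simp
      rw [h2]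
      rfl
    exact h1
  by_contra hcon
  push Not at hcon
  have hz : P * Polynomial.X = 0 := by
    apply Polynomial.funext
    intro ε
    rw [Polynomial.eval_mul, Polynomial.eval_X, Polynomial.eval_zero, hev]
    by_cases h : ε = 0
    · rw [h, mul_zero]
    · rw [hcon ε h, zero_mul]
  rcases mul_eq_zero.1 hz with h | h
  · apply h0
    rw [← hev, h, Polynomial.eval_zero]
  · exact Polynomial.X_ne_zero h

/-- cross product zero: proportional -/
theorem cr_eq_zero {a b : Fin 3 → ℂ} (hb : b ≠ 0) (h : cr a b = 0) : ∃ r : ℂ, a = r • b := by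
  have h0 := congrFun h 0
  have h1 := congrFun h 1
  have h2 := congrFun h 2
  simp [cr] at h0 h1 h2
  obtain ⟨i, hi⟩ := Function.ne_iff.1 hb
  refine ⟨a i / b i, ?_⟩
  funext j
  rw [Pi.smul_apply, smul_eq_mul]
  rw [Pi.zero_apply] at hi
  fin_cases i <;> fin_cases j <;> simp at hi ⊢ <;> field_simp <;>
    first
      | linear_combination h0
      | linear_combination h1
      | linear_combination h2
      | linear_combination -h0
      | linear_combination -h1
      | linear_combination -h2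

end P287H468
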