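import Mathlib
import Vale.Agent.P287.H468.Defs
import Vale.Agent.P287.H468.Pf7

set_option autoImplicit false
set_option linter.all false

/-!
The pfaffian case: rationality.
-/

namespace P287H468
open Matrix

variable {Q : Fin 3 → Matrix (Fin 3) (Fin 3) ℂ} {K : Matrix (Fin 3) (Fin 3) ℂ} {c a : ℂ}
  {f : (Fin 3 → ℂ) → ℂ} {g : Fin 3 → ℂ}

theorem NN_zero : NN Q K 0 = 0 := by
  have := NN_smul Q K 0 0
  simpa using this

theorem ad_zero : ad 0 = 0 := by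
  ext i j
  fin_cases i <;> fin_cases j <;> simp [ad]

theorem cr_zero_left (b : Fin 3 → ℂ) : cr 0 b = 0 := by
  funext i
  fin_cases i <;> simp [cr]

theorem cr_self (b : Fin 3 → ℂ) : cr b b = 0 := by
  funext i
  fin_cases i <;> simp [cr] <;> ring

theorem cr_smul_right (r : ℂ) (a b : Fin 3 → ℂ) : cr a (r • b) = r • cr a b := by
  funext i
  fin_cases i <;> simp [cr] <;> ring

/-- `Ψ` at the base point -/
theorem Psi_base (w : Fin 3 → ℂ) :
    Psi Q K c a g (pt 0 w) = (c * (g ⬝ᵥ w)) • pt (a • w) w := by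
  rw [Psi, xx_pt, ww_pt, NN_zero, v1p, v2p, v1q, v2q, ad_zero, Matrix.zero_mulVec,
    Matrix.transpose_zero, Matrix.zero_mulVec, Matrix.zero_mulVec, cr_zero, ← pt_smul']
  congr 1
  · rw [smul_zero, zero_add, add_zero, smul_smul, smul_smul, mul_comm a]
  · rw [smul_zero, add_zero, add_zero]

theorem DD_base (w : Fin 3 → ℂ) : DD c (NN Q K 0) g w = c * (g ⬝ᵥ w) ^ 2 := by
  rw [NN_zero, DD, ad_zero, Matrix.zero_mulVec, dotProduct_zero, add_zero]

/-- kernel at the base point -/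
theorem ker_base (hQ : ∀ i, (Q i).IsSymm) (ha : a ≠ 0) (hac : a ^ 2 = -c) {w : Fin 3 → ℂ}
    (hw : w ≠ 0) (hJ : (Matrix.of fun i j => ((Q i).mulVec w) j).det ≠ 0) {κ : ℂ} (hκ : κ ≠ 0)
    (ξ : Fin 6 → ℂ) (h : TM Q K c (κ • pt (a • w) w) *ᵥ ξ = 0) : ∃ r : ℂ, ξ = r • pt 0 w := by
  rw [TM_mulVec] at h
  obtain ⟨h1, h2⟩ := om_eq h
  rw [xx_smul, ww_smul, xx_pt, ww_pt] at h1 h2
  set N := NN Q K (xx ξ) with hN
  set w' := ww ξ with hw'
  rw [o1, cr_smul_right, cr_smul_right, Matrix.mulVec_smul, ← smul_add] at h1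
  rw [o2, cr_smul_right, Matrix.mulVec_smul, Matrix.mulVec_smul] at h2
  have e1 : a • cr w' w + N *ᵥ w = 0 := (smul_eq_zero.1 h1).resolve_left hκ
  have e2 : a • (Nᵀ *ᵥ w) - a ^ 2 • cr w' w = 0 := by
    have h3 : κ • (a • (Nᵀ *ᵥ w) - a ^ 2 • cr w' w) = 0 := by
      rw [hac]
      have h4 : κ • (a • (Nᵀ *ᵥ w) - (-c) • cr w' w) = -(-(κ • a • (Nᵀ *ᵥ w)) - c • κ • cr w' w) := by
        module
      rw [h4, h2, neg_zero]
    exact (smul_eq_zero.1 h3).resolve_left hκ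
  have e3 : Nᵀ *ᵥ w - a • cr w' w = 0 := by
    have h3 : a • (Nᵀ *ᵥ w - a • cr w' w) = 0 := by
      rw [smul_sub, smul_smul, ← pow_two]
      exact e2
    exact (smul_eq_zero.1 h3).resolve_left ha
  have e4 : N *ᵥ w + Nᵀ *ᵥ w = 0 := by
    have : N *ᵥ w + Nᵀ *ᵥ w = (a • cr w' w + N *ᵥ w) + (Nᵀ *ᵥ w - a • cr w' w) := by abel
    rw [this, e1, e3, add_zero]
  have e5 : QQ Q (xx ξ) *ᵥ w = 0 := by
    have hsym : N + Nᵀ = (2 : ℂ) • QQ Q (xx ξ) := by
      rw [hN, NN, Matrix.transpose_add, (QQ_symm' hQ (xx ξ)).eq]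
      have hs : (sk (K *ᵥ xx ξ))ᵀ = - sk (K *ᵥ xx ξ) := by
        ext i j
        fin_cases i <;> fin_cases j <;> simp [sk]
      rw [hs, two_smul]
      abel
    rw [← Matrix.add_mulVec, hsym, Matrix.smul_mulVec] at e4
    exact (smul_eq_zero.1 e4).resolve_left two_ne_zero
  have e6 := Qw_zero hJ e5
  have e7 : cr w' w = 0 := by
    rw [hN, e6, NN_zero, Matrix.zero_mulVec, add_zero] at e1
    exact (smul_eq_zero.1 e1).resolve_left ha
  obtain ⟨r, hr⟩ := cr_eq_zero hw e7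
  refine ⟨r, ?_⟩
  rw [← pt_xw ξ, e6, ← hw', hr, ← pt_smul', smul_zero]

/-- the pfaffian case -/
theorem pfaff (hf : PH 3 f) (hf0 : ∃ x, f x ≠ 0) (hQ : ∀ i, (Q i).IsSymm) (hb : BPF Q)
    (hc : c ≠ 0)
    (hK : ∀ x, (K *ᵥ x) ⬝ᵥ (QQ Q x *ᵥ (K *ᵥ x)) + (QQ Q x).det = c * f x) :
    IsRat (F3 f Q) := by
  obtain ⟨a, hac⟩ := IsAlgClosed.exists_pow_nat_eq (-c) (n := 2) (by norm_num)
  have ha : a ≠ 0 := by
    rintro rfl
    apply hc
    have : c = 0 := by linear_combination hac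
    exact this
  obtain ⟨w, x1, hfx, hiso, hJ⟩ := exists_base hf hf0 hQ hb
  have hx1 : x1 ≠ 0 := by
    rintro rfl
    apply hfx
    have := hf.smul_eval 0 0
    simpa using this
  have hw : w ≠ 0 := by
    rintro rfl
    apply hJ
    have : (Matrix.of fun i j => ((Q i).mulVec (0 : Fin 3 → ℂ)) j) = 0 := by
      ext i j
      simp
    rw [this]
    simp
  have hQw : QQ Q x1 *ᵥ w ≠ 0 := fun h => hx1 (Qw_zero hJ h)
  -- the hyperplane
  obtain ⟨i, hi⟩ := Function.ne_iff.1 hw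
  set g : Fin 3 → ℂ := Pi.single i 1 with hg
  have hgw : g ⬝ᵥ w ≠ 0 := by
    rw [hg, single_one_dotProduct]
    exact hi
  have hg0 : g ≠ 0 := by
    intro h
    apply hgw
    rw [h, zero_dotProduct]
  -- the vector `w'`
  obtain ⟨l, hl⟩ := Function.ne_iff.1 hQw
  set u : Fin 3 → ℂ := Pi.single l 1 with hu
  have hB : bq (QQ Q x1) w u ≠ 0 := by
    rw [bq_symm (QQ_symm' hQ x1), bq, hu, single_one_dotProduct]
    exact hl
  set w' := u + (-(bq (QQ Q x1) u u) / (2 * bq (QQ Q x1) w u)) • w with hw'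
  have hBs := bq_symm (QQ_symm' hQ x1) u w
  have hw'1 : bq (QQ Q x1) w' w' = 0 := by
    rw [hw', bq_add (QQ_symm' hQ x1), hiso, hBs]
    field_simp
    ring
  have hw'2 : bq (QQ Q x1) w w' ≠ 0 := by
    have : bq (QQ Q x1) w w' = bq (QQ Q x1) w u := by
      rw [hw', bq, bq, Matrix.mulVec_add, Matrix.mulVec_smul, dotProduct_add, dotProduct_smul]
      rw [bq] at hiso
      rw [hiso, smul_zero, add_zero]
      rfl
    rw [this]
    exact hB
  -- the entry of the adjugate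
  have hκ : c * (g ⬝ᵥ w) ≠ 0 := mul_ne_zero hc hgw
  have hx0 : pt 0 w ≠ 0 := fun h => hw (pt_zero_iff h).2
  have hy0 : Psi Q K c a g (pt 0 w) ≠ 0 := by
    rw [Psi_base]
    intro h
    rcases smul_eq_zero.1 h with h | h
    · exact hκ h
    · exact hw (pt_zero_iff h).2
  obtain ⟨i1, j0, hij⟩ := adj_ne (T := TM Q K c (Psi Q K c a g (pt 0 w))) hx0 (by
    rw [Psi_base]
    exact ker_base hQ ha hac hw hJ hκ) hy0 (TM_skew Q K c _)
  refine pf_rat hQ hc ha hK hg0 i1 j0 ?_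
  -- the function to keep nonzero along the curve
  set h : (Fin 6 → ℂ) → ℂ := fun ξ => DD c (NN Q K (xx ξ)) g (ww ξ) *
    (TM Q K c (Psi Q K c a g ξ)).adjugate i1 j0 with hh
  have hph : PH 12 h := by
    have h2 : PH 2 (fun ξ : Fin 6 → ℂ => DD c (NN Q K (xx ξ)) g (ww ξ)) := by
      have h3 := (((PHgw g).pow 2).of_eq (by rfl : 1 * 2 = 2)).cmul c
      have h4 : PH 2 (fun ξ : Fin 6 → ℂ => g ⬝ᵥ (ad (NN Q K (xx ξ)) *ᵥ g)) := by
        refine (PH.sum Finset.univ (fun i _ => (PH.sum Finset.univ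
          (fun k _ => (PHad Q K i k).cmul (g i * g k))))).congr fun ξ => ?_
        rw [dotProduct]
        refine Finset.sum_congr rfl fun i _ => ?_
        rw [Matrix.mulVec, dotProduct, Finset.mul_sum]
        exact Finset.sum_congr rfl fun k _ => by ring
      exact (h3.add h4).congr fun ξ => by rw [DD]
    have h5 : PH 10 (fun ξ => (TM Q K c (Psi Q K c a g ξ)).adjugate i1 j0) :=
      ((PH.adj (fun v => TM Q K c v) (PHTM Q K c) i1 j0).comp (PHPsi Q K c a g)).of_eq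
        (by rfl : 2 * 5 = 10)
    exact (h2.mul h5).of_eq (by rfl)
  set ρ : ℂ := -(f x1) / (2 * bq (QQ Q x1) w w') with hρ
  let γ : Fin 6 → Polynomial ℂ := ![Polynomial.C (x1 0) * Polynomial.X,
    Polynomial.C (x1 1) * Polynomial.X, Polynomial.C (x1 2) * Polynomial.X,
    Polynomial.C (w 0) + Polynomial.C (ρ * w' 0) * Polynomial.X ^ 2,
    Polynomial.C (w 1) + Polynomial.C (ρ * w' 1) * Polynomial.X ^ 2,
    Polynomial.C (w 2) + Polynomial.C (ρ * w' 2) * Polynomial.X ^ 2]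
  have hγ : ∀ ε : ℂ, (fun i => (γ i).eval ε) = pt (ε • x1) (w + (ε ^ 2 * ρ) • w') := by
    intro ε
    funext i
    fin_cases i <;> simp [γ, pt] <;> ring
  obtain ⟨ε, hε, hε2⟩ := hph.along γ (by
    rw [hγ, zero_smul]
    have : w + ((0 : ℂ) ^ 2 * ρ) • w' = w := by simp
    rw [this, hh]
    beta_reduce
    rw [xx_pt, ww_pt, DD_base]
    exact mul_ne_zero (mul_ne_zero hc (pow_ne_zero _ hgw)) hij)
  rw [hγ] at hε2
  refine ⟨pt (ε • x1) (w + (ε ^ 2 * ρ) • w'), curve_F3 hf hQ hiso hw'1 hw'2 ε, ?_, ?_⟩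
  · rw [dd, xx_pt, det_NN hQ, hK, hf.smul_eval]
    refine mul_ne_zero (mul_ne_zero hc (mul_ne_zero (pow_ne_zero _ hε) hfx)) ?_
    have := left_ne_zero_of_mul hε2
    rw [xx_pt] at this
    exact this
  · exact right_ne_zero_of_mul hε2

end P287H468
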