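import Mathlib
import Vale.Agent.P287.H468.Defs

set_option autoImplicit false

/-!
If the generic member of the quadric surface fibration `lambda² f(x) + wᵀ Q(x) w` has an isotropic
vector `w0(x)`, then the cubic fourfold `f(x) + wᵀ Q(x) w = 0` is rational (projection of the
quadric surface from the point `(0, w0(x))`).
-/

namespace P287H468
open MvPolynomial Matrix

namespace Sec

/-- the bilinear form of the net of conics at `x` -/
def Bf (Q : Fin 3 → Matrix (Fin 3) (Fin 3) ℂ) (x u v : Fin 3 → ℂ) : ℂ :=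
  u ⬝ᵥ (QQ Q x *ᵥ v)

variable {Q : Fin 3 → Matrix (Fin 3) (Fin 3) ℂ}

theorem QQ_symm (hQ : ∀ i, (Q i).IsSymm) (x : Fin 3 → ℂ) : (QQ Q x).IsSymm := by
  unfold QQ Matrix.IsSymm
  rw [Matrix.transpose_add, Matrix.transpose_add, Matrix.transpose_smul, Matrix.transpose_smul,
    Matrix.transpose_smul, (hQ 0).eq, (hQ 1).eq, (hQ 2).eq]

theorem QQ_smul (s : ℂ) (x : Fin 3 → ℂ) : QQ Q (s • x) = s • QQ Q x := by
  unfold QQ
  simp only [Pi.smul_apply, smul_eq_mul, smul_add, smul_smul]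

theorem QQ_add (x y : Fin 3 → ℂ) : QQ Q (x + y) = QQ Q x + QQ Q y := by
  unfold QQ
  simp only [Pi.add_apply, add_smul]
  abel

theorem Bf_symm (hQ : ∀ i, (Q i).IsSymm) (x u v : Fin 3 → ℂ) : Bf Q x u v = Bf Q x v u := by
  unfold Bf
  rw [Matrix.dotProduct_mulVec, ← Matrix.mulVec_transpose, (QQ_symm hQ x).eq, dotProduct_comm]

theorem Bf_smul (s : ℂ) (x u v : Fin 3 → ℂ) : Bf Q (s • x) u v = s * Bf Q x u v := by
  unfold Bf
  rw [QQ_smul, Matrix.smul_mulVec, dotProduct_smul, smul_eq_mul]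

theorem Bf_add (x y u v : Fin 3 → ℂ) : Bf Q (x + y) u v = Bf Q x u v + Bf Q y u v := by
  unfold Bf
  rw [QQ_add, Matrix.add_mulVec, dotProduct_add]

theorem Bf_smul_right (s : ℂ) (x u v : Fin 3 → ℂ) : Bf Q x u (s • v) = s * Bf Q x u v := by
  unfold Bf
  rw [Matrix.mulVec_smul, dotProduct_smul, smul_eq_mul]

theorem Bf_smul_left (s : ℂ) (x u v : Fin 3 → ℂ) : Bf Q x (s • u) v = s * Bf Q x u v := by
  unfold Bf
  rw [smul_dotProduct, smul_eq_mul]

theorem Bf_sub_right (x u v w : Fin 3 → ℂ) : Bf Q x u (v - w) = Bf Q x u v - Bf Q x u w := by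
  unfold Bf
  rw [Matrix.mulVec_sub, dotProduct_sub]

theorem Bf_sub_left (x u v w : Fin 3 → ℂ) : Bf Q x (u - v) w = Bf Q x u w - Bf Q x v w := by
  unfold Bf
  rw [sub_dotProduct]

theorem xx_pt (x w : Fin 3 → ℂ) : xx (pt x w) = x := by
  funext i; fin_cases i <;> rfl

theorem ww_pt (x w : Fin 3 → ℂ) : ww (pt x w) = w := by
  funext i; fin_cases i <;> rfl

theorem pt_smul (a : ℂ) (x w : Fin 3 → ℂ) : pt (a • x) (a • w) = a • pt x w := by
  funext i; fin_cases i <;> rfl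

theorem pt_xx_ww (z : Fin 6 → ℂ) : pt (xx z) (ww z) = z := by
  funext i; fin_cases i <;> rfl

theorem F3_eq (f : (Fin 3 → ℂ) → ℂ) (z : Fin 6 → ℂ) :
    F3 f Q z = f (xx z) + Bf Q (xx z) (ww z) (ww z) := rfl

/-- the first three coordinates of a point of `ℂ⁵` -/
def x5 (t : Fin 5 → ℂ) : Fin 3 → ℂ := ![t 0, t 1, t 2]

theorem ph_cont {ι : Type} {n : ℕ} {g : (ι → ℂ) → ℂ} (hg : PH n g) : Continuous g := by
  obtain ⟨p, -, hp⟩ := hg
  have h : g = fun x => eval x p := by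
    funext x; exact (hp x).symm
  rw [h]
  exact MvPolynomial.continuous_eval p

/-- a family of null vectors of the net forces base points -/
theorem null_zero (hQ : ∀ i, (Q i).IsSymm) (hb : BPF Q) {e : ℕ}
    (w0 : (Fin 3 → ℂ) → (Fin 3 → ℂ)) (hw : ∀ i, PH e (fun x => w0 x i))
    (hn : ∀ x, QQ Q x *ᵥ w0 x = 0) (x : Fin 3 → ℂ) : w0 x = 0 := by
  have hcw : Continuous w0 := continuous_pi fun i => ph_cont (hw i)
  have key : ∀ y : Fin 3 → ℂ, Bf Q y (w0 x) (w0 x) = 0 := by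
    intro y
    have h1 : ∀ s : ℂ, s ≠ 0 → Bf Q y (w0 x) (w0 (x + s • y)) = 0 := by
      intro s hs
      have h2 : Bf Q (x + s • y) (w0 x) (w0 (x + s • y)) = 0 := by
        unfold Bf
        rw [hn, dotProduct_zero]
      have h3 : Bf Q x (w0 x) (w0 (x + s • y)) = 0 := by
        rw [Bf_symm hQ]
        unfold Bf
        rw [hn, dotProduct_zero]
      rw [Bf_add, h3, zero_add, Bf_smul] at h2
      exact (mul_eq_zero.1 h2).resolve_left hs
    have h4 : Continuous fun s : ℂ => Bf Q y (w0 x) (w0 (x + s • y)) := by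
      unfold Bf
      have h5 : Continuous fun s : ℂ => w0 (x + s • y) :=
        hcw.comp (by fun_prop)
      exact Continuous.dotProduct continuous_const (Continuous.matrix_mulVec continuous_const h5)
    have h6 : (fun s : ℂ => Bf Q y (w0 x) (w0 (x + s • y))) = fun _ => 0 := by
      have hd : Dense ({0}ᶜ : Set ℂ) := dense_compl_singleton 0
      refine Continuous.ext_on hd h4 continuous_const ?_
      intro s hs
      exact h1 s hs
    have h7 := congrFun h6 0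
    simpa using h7
  apply hb
  intro i
  have h8 := key (Pi.single i 1)
  unfold Bf at h8
  have h9 : QQ Q (Pi.single i 1) = Q i := by
    unfold QQ
    fin_cases i <;> simp
  rwa [h9] at h8

theorem x5_ph (k : Fin 3) : PH 1 (fun t : Fin 5 → ℂ => x5 t k) := by
  fin_cases k
  · exact PH.coord 0
  · exact PH.coord 1
  · exact PH.coord 2

theorem QQ_entry_ph {ι : Type} {n : ℕ} {x : (ι → ℂ) → (Fin 3 → ℂ)}
    (hx : ∀ k, PH n (fun t => x t k)) (p k : Fin 3) : PH n (fun t => QQ Q (x t) p k) := by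
  refine ((((hx 0).cmul (Q 0 p k)).add ((hx 1).cmul (Q 1 p k))).add
    ((hx 2).cmul (Q 2 p k))).congr fun t => ?_
  simp only [QQ, Matrix.add_apply, Matrix.smul_apply, smul_eq_mul]
  ring

theorem Bf_ph {ι : Type} {n a b : ℕ} {x u v : (ι → ℂ) → (Fin 3 → ℂ)}
    (hx : ∀ k, PH n (fun t => x t k)) (hu : ∀ k, PH a (fun t => u t k))
    (hv : ∀ k, PH b (fun t => v t k)) : PH (a + (n + b)) (fun t => Bf Q (x t) (u t) (v t)) := by
  refine (PH.sum Finset.univ fun p _ => (hu p).mul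
    (PH.sum Finset.univ fun k _ => (QQ_entry_ph (Q := Q) hx p k).mul (hv k))).congr fun t => ?_
  rfl

section maps
variable (f : (Fin 3 → ℂ) → ℂ) (Q) (w0 : (Fin 3 → ℂ) → (Fin 3 → ℂ)) (i j l : Fin 3)

/-- the direction of the line through the point `(0, w0)` -/
def wd (t : Fin 5 → ℂ) : Fin 3 → ℂ := fun k => if k = j then t 0 * t 4 else if k = l then t 0 ^ 2
  else 0
/-- value of the quadric at the direction -/
def qq (t : Fin 5 → ℂ) : ℂ := (t 3) ^ 2 * f (x5 t) + Bf Q (x5 t) (wd j l t) (wd j l t)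
/-- the polar of the direction -/
def bb (t : Fin 5 → ℂ) : ℂ := Bf Q (x5 t) (w0 (x5 t)) (wd j l t)
/-- the parametrization -/
def ph (t : Fin 5 → ℂ) : Fin 6 → ℂ :=
  pt ((-2 * bb Q w0 j l t * t 3) • x5 t)
    (qq Q f j l t • w0 (x5 t) - (2 * bb Q w0 j l t) • wd j l t)
/-- minors -/
def mi (k : Fin 3) (X W : Fin 3 → ℂ) : ℂ := w0 X i * W k - W i * w0 X k
/-- the inverse -/
def ps (z : Fin 6 → ℂ) : Fin 5 → ℂ :=
  ![xx z 0 * mi w0 i l (xx z) (ww z), xx z 1 * mi w0 i l (xx z) (ww z),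
    xx z 2 * mi w0 i l (xx z) (ww z), xx z 0 ^ 2 * w0 (xx z) i,
    xx z 0 * mi w0 i j (xx z) (ww z)]
/-- the open condition -/
def cc (t : Fin 5 → ℂ) : ℂ := bb Q w0 j l t * t 3 * w0 (x5 t) i * t 0
end maps

variable {f : (Fin 3 → ℂ) → ℂ} {w0 : (Fin 3 → ℂ) → (Fin 3 → ℂ)} {i j l : Fin 3}

theorem wd_ph (j l k : Fin 3) : PH 2 (fun t : Fin 5 → ℂ => wd j l t k) := by
  unfold wd
  by_cases h1 : k = j
  · simp only [h1, if_true]
    exact ((PH.coord 0).mul (PH.coord 4)).of_eq rfl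
  · by_cases h2 : k = l
    · simp only [h2, if_true]
      by_cases h3 : l = j
      · exact absurd (h2.trans h3) h1
      · simp only [h3, if_false]
        exact ((PH.coord 0).pow 2).of_eq rfl
    · simp only [h1, h2, if_false]
      exact PH.zero 2

theorem w0_ph {e : ℕ} (hw : ∀ i, PH e (fun x => w0 x i)) (k : Fin 3) :
    PH e (fun t : Fin 5 → ℂ => w0 (x5 t) k) :=
  ((hw k).comp x5_ph).of_eq (by omega)

theorem qq_ph (hf : PH 3 f) : PH 5 (qq Q f j l) := by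
  unfold qq
  exact ((((PH.coord 3).pow 2).mul (hf.comp x5_ph)).of_eq rfl).add
    ((Bf_ph x5_ph (wd_ph j l) (wd_ph j l)).of_eq rfl)

theorem bb_ph {e : ℕ} (hw : ∀ i, PH e (fun x => w0 x i)) : PH (e + 3) (bb Q w0 j l) := by
  unfold bb
  exact (Bf_ph x5_ph (w0_ph hw) (wd_ph j l)).of_eq rfl

theorem cc_ph {e : ℕ} (hw : ∀ i, PH e (fun x => w0 x i)) :
    PH (e + 3 + 1 + e + 1) (cc Q w0 i j l) := by
  unfold cc
  exact (((bb_ph hw).mul (PH.coord 3)).mul (w0_ph hw i)).mul (PH.coord 0)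

theorem pt_ph {ι : Type} {n : ℕ} {x w : (ι → ℂ) → (Fin 3 → ℂ)}
    (hx : ∀ k, PH n (fun t => x t k)) (hw : ∀ k, PH n (fun t => w t k)) (k : Fin 6) :
    PH n (fun t => pt (x t) (w t) k) := by
  fin_cases k
  · exact hx 0
  · exact hx 1
  · exact hx 2
  · exact hw 0
  · exact hw 1
  · exact hw 2

theorem ph_ph {e : ℕ} (hf : PH 3 f) (hw : ∀ i, PH e (fun x => w0 x i)) (k : Fin 6) :
    PH (e + 5) (fun t => ph Q f w0 j l t k) := by
  unfold ph
  refine pt_ph (fun k => ?_) (fun k => ?_) k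
  · refine ((((bb_ph (Q := Q) (j := j) (l := l) hw).cmul (-2)).mul (PH.coord 3)).mul
      (x5_ph k)).of_eq (by omega)
  · refine (((qq_ph (Q := Q) (j := j) (l := l) hf).mul (w0_ph hw k)).of_eq (by omega)).sub
      ((((bb_ph (Q := Q) (j := j) (l := l) hw).cmul 2).mul (wd_ph j l k)).of_eq (by omega))

theorem xx_ph (k : Fin 3) : PH 1 (fun z : Fin 6 → ℂ => xx z k) := by
  fin_cases k
  · exact PH.coord 0
  · exact PH.coord 1
  · exact PH.coord 2

theorem ww_ph (k : Fin 3) : PH 1 (fun z : Fin 6 → ℂ => ww z k) := by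
  fin_cases k
  · exact PH.coord 3
  · exact PH.coord 4
  · exact PH.coord 5

theorem w0z_ph {e : ℕ} (hw : ∀ i, PH e (fun x => w0 x i)) (k : Fin 3) :
    PH e (fun z : Fin 6 → ℂ => w0 (xx z) k) :=
  ((hw k).comp xx_ph).of_eq (by omega)

theorem mi_ph {e : ℕ} (hw : ∀ i, PH e (fun x => w0 x i)) (k : Fin 3) :
    PH (e + 1) (fun z : Fin 6 → ℂ => mi w0 i k (xx z) (ww z)) := by
  unfold mi
  exact ((w0z_ph hw i).mul (ww_ph k)).sub (((ww_ph i).mul (w0z_ph hw k)).of_eq (by omega))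

theorem ps_ph {e : ℕ} (hw : ∀ i, PH e (fun x => w0 x i)) (k : Fin 5) :
    PH (e + 2) (fun z => ps w0 i j l z k) := by
  fin_cases k
  · exact ((xx_ph 0).mul (mi_ph hw l)).of_eq (by omega)
  · exact ((xx_ph 1).mul (mi_ph hw l)).of_eq (by omega)
  · exact ((xx_ph 2).mul (mi_ph hw l)).of_eq (by omega)
  · exact (((xx_ph 0).pow 2).mul (w0z_ph hw i)).of_eq (by omega)
  · exact ((xx_ph 0).mul (mi_ph hw j)).of_eq (by omega)

theorem w0_smul {e : ℕ} (hw : ∀ i, PH e (fun x => w0 x i)) (s : ℂ) (x : Fin 3 → ℂ) :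
    w0 (s • x) = s ^ e • w0 x := by
  funext k
  simpa using (hw k).smul_eval s x

theorem F_zero (hf : PH 3 f) (hQ : ∀ i, (Q i).IsSymm)
    (iso : ∀ x, Bf Q x (w0 x) (w0 x) = 0) (t : Fin 5 → ℂ) :
    F3 f Q (ph Q f w0 j l t) = 0 := by
  rw [F3_eq]
  unfold ph
  rw [xx_pt, ww_pt, hf.smul_eval, Bf_smul]
  simp only [Bf_sub_right, Bf_sub_left, Bf_smul_right, Bf_smul_left]
  rw [Bf_symm hQ (x5 t) (wd j l t) (w0 (x5 t)), iso]
  have h1 : Bf Q (x5 t) (wd j l t) (wd j l t) = qq Q f j l t - (t 3) ^ 2 * f (x5 t) := by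
    unfold qq; ring
  have h2 : Bf Q (x5 t) (w0 (x5 t)) (wd j l t) = bb Q w0 j l t := rfl
  rw [h1, h2]
  ring

theorem mi_ph_val {e : ℕ} (hw : ∀ i, PH e (fun x => w0 x i)) (hij : i ≠ j) (hil : i ≠ l)
    (k : Fin 3) (t : Fin 5 → ℂ) :
    mi w0 i k (xx (ph Q f w0 j l t)) (ww (ph Q f w0 j l t)) =
      (-2 * bb Q w0 j l t * t 3) ^ e * (-2 * bb Q w0 j l t) * w0 (x5 t) i * wd j l t k := by
  unfold ph mi
  rw [xx_pt, ww_pt, w0_smul hw]
  have h1 : wd j l t i = 0 := by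
    unfold wd
    simp only [hij, hil, if_false]
  simp only [Pi.sub_apply, Pi.smul_apply, smul_eq_mul, h1]
  ring

theorem ps_ph_val {e : ℕ} (hw : ∀ i, PH e (fun x => w0 x i)) (hij : i ≠ j) (hil : i ≠ l)
    (hjl : j ≠ l) (t : Fin 5 → ℂ) :
    ps w0 i j l (ph Q f w0 j l t) =
      ((-2 * bb Q w0 j l t) * (-2 * bb Q w0 j l t * t 3) ^ (e + 1) * w0 (x5 t) i * t 0 ^ 2) • t := by
  have hx : xx (ph Q f w0 j l t) = (-2 * bb Q w0 j l t * t 3) • x5 t := by
    unfold ph; rw [xx_pt]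
  have hwl : wd j l t l = t 0 ^ 2 := by
    unfold wd
    simp only [hjl.symm, if_true, if_false]
  have hwj : wd j l t j = t 0 * t 4 := by
    unfold wd
    simp only [if_true]
  have e0 : x5 t 0 = t 0 := rfl
  have e1 : x5 t 1 = t 1 := rfl
  have e2 : x5 t 2 = t 2 := rfl
  unfold ps
  rw [mi_ph_val hw hij hil, mi_ph_val hw hij hil, hx, w0_smul hw, hwl, hwj]
  funext k
  fin_cases k
  · simp [e0]; ring
  · simp [e1]; ring
  · simp [e2]; ring
  · simp [e0]; ring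
  · simp [e0]; ring

theorem x5_ps (z : Fin 6 → ℂ) :
    x5 (ps w0 i j l z) = mi w0 i l (xx z) (ww z) • xx z := by
  funext k
  fin_cases k
  · simp [x5, ps]; ring
  · simp [x5, ps]; ring
  · simp [x5, ps]; ring

theorem wd_ps (hcov : ∀ k : Fin 3, k = i ∨ k = j ∨ k = l) (hij : i ≠ j) (hil : i ≠ l)
    (hjl : j ≠ l) (z : Fin 6 → ℂ) :
    wd j l (ps w0 i j l z) = (mi w0 i l (xx z) (ww z) * xx z 0 ^ 2) •
      (w0 (xx z) i • ww z - ww z i • w0 (xx z)) := by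
  have h0 : ps w0 i j l z 0 = xx z 0 * mi w0 i l (xx z) (ww z) := rfl
  have h4 : ps w0 i j l z 4 = xx z 0 * mi w0 i j (xx z) (ww z) := rfl
  funext k
  rcases hcov k with h | h | h
  · have h1 : wd j l (ps w0 i j l z) k = 0 := by
      unfold wd
      simp only [h, hij, hil, if_false]
    rw [h1]
    simp only [Pi.sub_apply, Pi.smul_apply, smul_eq_mul, h]
    ring
  · have h1 : wd j l (ps w0 i j l z) k = ps w0 i j l z 0 * ps w0 i j l z 4 := by
      unfold wd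
      simp only [h, if_true]
    rw [h1, h0, h4]
    simp only [Pi.sub_apply, Pi.smul_apply, smul_eq_mul, h, mi]
    ring
  · have h1 : wd j l (ps w0 i j l z) k = ps w0 i j l z 0 ^ 2 := by
      unfold wd
      simp only [h, hjl.symm, if_true, if_false]
    rw [h1, h0]
    simp only [Pi.sub_apply, Pi.smul_apply, smul_eq_mul, h, mi]
    ring

theorem bb_ps {e : ℕ} (hw : ∀ i, PH e (fun x => w0 x i))
    (iso : ∀ x, Bf Q x (w0 x) (w0 x) = 0)
    (hcov : ∀ k : Fin 3, k = i ∨ k = j ∨ k = l) (hij : i ≠ j) (hil : i ≠ l)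
    (hjl : j ≠ l) (z : Fin 6 → ℂ) :
    bb Q w0 j l (ps w0 i j l z) = mi w0 i l (xx z) (ww z) ^ (e + 2) * xx z 0 ^ 2 *
      w0 (xx z) i * Bf Q (xx z) (w0 (xx z)) (ww z) := by
  unfold bb
  rw [x5_ps, wd_ps hcov hij hil hjl, w0_smul hw]
  simp only [Bf_smul, Bf_sub_right, Bf_smul_right, Bf_smul_left]
  rw [iso]
  ring

/-- the composition `φ ∘ ψ` on the hypersurface -/
theorem ph_ps_val {e : ℕ} (hf : PH 3 f) (hQ : ∀ i, (Q i).IsSymm)
    (hw : ∀ i, PH e (fun x => w0 x i)) (iso : ∀ x, Bf Q x (w0 x) (w0 x) = 0)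
    (hcov : ∀ k : Fin 3, k = i ∨ k = j ∨ k = l) (hij : i ≠ j) (hil : i ≠ l)
    (hjl : j ≠ l) (z : Fin 6 → ℂ) (hz : F3 f Q z = 0) :
    ph Q f w0 j l (ps w0 i j l z) =
      (-2 * mi w0 i l (xx z) (ww z) ^ (e + 3) * xx z 0 ^ 4 * w0 (xx z) i ^ 2 *
        Bf Q (xx z) (w0 (xx z)) (ww z)) • z := by
  have h3 : ps w0 i j l z 3 = xx z 0 ^ 2 * w0 (xx z) i := rfl
  have hbb := bb_ps hw iso hcov hij hil hjl z
  have hx := x5_ps (w0 := w0) (i := i) (j := j) (l := l) z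
  have hwd := wd_ps (w0 := w0) hcov hij hil hjl z
  rw [F3_eq] at hz
  set r := mi w0 i l (xx z) (ww z) with hr
  set X := xx z with hX
  set W := ww z with hW
  set u := w0 X with hu
  have hw0 : w0 (r • X) = r ^ e • u := w0_smul hw r X
  have hqq : qq Q f j l (ps w0 i j l z) = -2 * r ^ 3 * X 0 ^ 4 * u i * W i * Bf Q X u W := by
    unfold qq
    rw [hx, hwd, h3, hf.smul_eval]
    simp only [Bf_smul, Bf_sub_right, Bf_sub_left, Bf_smul_right, Bf_smul_left]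
    have hfX : f X = - Bf Q X W W := by linear_combination hz
    rw [hfX, Bf_symm hQ X W u, hu, iso]
    ring
  unfold ph
  rw [hbb, hqq, hx, hwd, h3, hw0]
  rw [← pt_xx_ww z, ← hX, ← hW, ← pt_smul]
  congr 1
  · rw [smul_smul]
    congr 1
    ring
  · funext k
    simp only [Pi.sub_apply, Pi.smul_apply, smul_eq_mul]
    ring

/-- the polar form of the direction does not vanish identically -/
theorem bb_ne {e : ℕ} (hQ : ∀ i, (Q i).IsSymm) (hb : BPF Q)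
    (hw : ∀ i, PH e (fun x => w0 x i)) (hi : ∃ x, w0 x i ≠ 0)
    (iso : ∀ x, Bf Q x (w0 x) (w0 x) = 0)
    (hcov : ∀ k : Fin 3, k = i ∨ k = j ∨ k = l) (hij : i ≠ j) (hil : i ≠ l)
    (hjl : j ≠ l) : ∃ t, bb Q w0 j l t ≠ 0 := by
  by_contra hcon
  push Not at hcon
  -- the vector `Q(x) w0(x)`
  have hβ : ∀ k, PH (1 + e) (fun x => (QQ Q x *ᵥ w0 x) k) := by
    intro k
    refine (PH.sum Finset.univ fun p _ => (QQ_entry_ph (Q := Q) (x := fun x => x)
      (fun q => PH.coord q) k p).mul (hw p)).congr fun x => ?_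
    rfl
  have hform : ∀ (x : Fin 3 → ℂ) (v : Fin 3 → ℂ),
      Bf Q x (w0 x) v = ∑ k, v k * (QQ Q x *ᵥ w0 x) k := by
    intro x v
    rw [Bf_symm hQ]
    rfl
  have hdec : ∀ g : Fin 3 → ℂ, ∑ k, g k = g i + g j + g l := by
    intro g
    have h1 : (Finset.univ : Finset (Fin 3)) = {i, j, l} := by
      ext k
      simp only [Finset.mem_univ, Finset.mem_insert, Finset.mem_singleton, true_iff]
      exact hcov k
    rw [h1, Finset.sum_insert (by simp [hij, hil]), Finset.sum_insert (by simp [hjl]),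
      Finset.sum_singleton]
    ring
  have hbb : ∀ t, bb Q w0 j l t = t 0 * (t 4 * (QQ Q (x5 t) *ᵥ w0 (x5 t)) j +
      t 0 * (QQ Q (x5 t) *ᵥ w0 (x5 t)) l) := by
    intro t
    unfold bb
    rw [hform, hdec]
    unfold wd
    simp only [hij, hil, hjl.symm, if_true, if_false]
    ring
  have hl : ∀ x : Fin 3 → ℂ, (QQ Q x *ᵥ w0 x) l = 0 := by
    intro x
    by_contra hx
    obtain ⟨y, hy1, hy2⟩ := (hβ l).mul_ne (PH.coord 0) ⟨x, hx⟩ ⟨fun _ => 1, one_ne_zero⟩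
    have h1 := hcon ![y 0, y 1, y 2, 0, 0]
    rw [hbb] at h1
    have h2 : x5 ![y 0, y 1, y 2, 0, 0] = y := by
      funext k; fin_cases k <;> rfl
    rw [h2] at h1
    have h3 : (![y 0, y 1, y 2, 0, 0] : Fin 5 → ℂ) 0 = y 0 := rfl
    have h4 : (![y 0, y 1, y 2, 0, 0] : Fin 5 → ℂ) 4 = 0 := rfl
    rw [h3, h4, zero_mul, zero_add] at h1
    exact (mul_ne_zero hy2 (mul_ne_zero hy2 hy1)) h1
  have hj : ∀ x : Fin 3 → ℂ, (QQ Q x *ᵥ w0 x) j = 0 := by
    intro x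
    by_contra hx
    obtain ⟨y, hy1, hy2⟩ := (hβ j).mul_ne (PH.coord 0) ⟨x, hx⟩ ⟨fun _ => 1, one_ne_zero⟩
    have h1 := hcon ![y 0, y 1, y 2, 0, 1]
    rw [hbb] at h1
    have h2 : x5 ![y 0, y 1, y 2, 0, 1] = y := by
      funext k; fin_cases k <;> rfl
    rw [h2, hl] at h1
    have h3 : (![y 0, y 1, y 2, 0, 1] : Fin 5 → ℂ) 0 = y 0 := rfl
    have h4 : (![y 0, y 1, y 2, 0, 1] : Fin 5 → ℂ) 4 = 1 := rfl
    rw [h3, h4, one_mul, mul_zero, add_zero] at h1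
    exact (mul_ne_zero hy2 hy1) h1
  have hi0 : ∀ x : Fin 3 → ℂ, (QQ Q x *ᵥ w0 x) i = 0 := by
    intro x
    by_contra hx
    obtain ⟨y, hy1, hy2⟩ := (hβ i).mul_ne (hw i) ⟨x, hx⟩ hi
    have h1 := iso y
    rw [hform, hdec, hj, hl, mul_zero, mul_zero, add_zero, add_zero] at h1
    exact (mul_ne_zero hy2 hy1) h1
  obtain ⟨x, hx⟩ := hi
  apply hx
  have h1 := null_zero hQ hb w0 hw (fun y => by
    funext k
    rcases hcov k with h | h | h
    · rw [h]; exact hi0 y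
    · rw [h]; exact hj y
    · rw [h]; exact hl y) x
  rw [h1]
  rfl

/-- rationality, with a chosen coordinate of the isotropic vector -/
theorem main {e : ℕ} (hf : PH 3 f) (hQ : ∀ i, (Q i).IsSymm) (hb : BPF Q)
    (hw : ∀ i, PH e (fun x => w0 x i)) (hi : ∃ x, w0 x i ≠ 0)
    (iso : ∀ x, Bf Q x (w0 x) (w0 x) = 0)
    (hcov : ∀ k : Fin 3, k = i ∨ k = j ∨ k = l) (hij : i ≠ j) (hil : i ≠ l)
    (hjl : j ≠ l) : IsRat (F3 f Q) := by
  refine IsRat.of_pair (n := e + 5) (m := e + 2) (k := e + 3 + 1 + e + 1) (l := 0)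
    (φ := ph Q f w0 j l) (ψ := ps w0 i j l) (c := cc Q w0 i j l) (d := fun _ => 1)
    (ph_ph hf hw) (ps_ph hw) (cc_ph hw) (PH.const 1) ?_ ?_ ?_
  · have hbn := bb_ne hQ hb hw hi iso hcov hij hil hjl
    have h3 := (bb_ph (Q := Q) (j := j) (l := l) hw).mul_ne (PH.coord 3) hbn
      ⟨fun _ => 1, one_ne_zero⟩
    have h3' : ∃ t : Fin 5 → ℂ, bb Q w0 j l t * t 3 ≠ 0 := by
      obtain ⟨t, h1, h2⟩ := h3
      exact ⟨t, mul_ne_zero h1 h2⟩
    have hi' : ∃ t : Fin 5 → ℂ, w0 (x5 t) i ≠ 0 := by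
      obtain ⟨x, hx⟩ := hi
      refine ⟨![x 0, x 1, x 2, 0, 0], ?_⟩
      have h2 : x5 ![x 0, x 1, x 2, 0, 0] = x := by
        funext k; fin_cases k <;> rfl
      rwa [h2]
    have h4 := ((bb_ph (Q := Q) (j := j) (l := l) hw).mul (PH.coord 3)).mul_ne (w0_ph hw i) h3' hi'
    have h4' : ∃ t : Fin 5 → ℂ, bb Q w0 j l t * t 3 * w0 (x5 t) i ≠ 0 := by
      obtain ⟨t, h1, h2⟩ := h4
      exact ⟨t, mul_ne_zero h1 h2⟩
    obtain ⟨t, h5, h6⟩ := (((bb_ph (Q := Q) (j := j) (l := l) hw).mul (PH.coord 3)).mul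
      (w0_ph hw i)).mul_ne (PH.coord 0) h4' ⟨fun _ => 1, one_ne_zero⟩
    exact ⟨t, mul_ne_zero h5 h6, one_ne_zero⟩
  · intro t ht _
    refine ⟨F_zero hf hQ iso t, _, ?_, ps_ph_val hw hij hil hjl t⟩
    unfold cc at ht
    have h0 : t 0 ≠ 0 := right_ne_zero_of_mul ht
    have ht1 := left_ne_zero_of_mul ht
    have hwi : w0 (x5 t) i ≠ 0 := right_ne_zero_of_mul ht1
    have ht2 := left_ne_zero_of_mul ht1
    have h3 : t 3 ≠ 0 := right_ne_zero_of_mul ht2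
    have hbt := left_ne_zero_of_mul ht2
    have h2b : -2 * bb Q w0 j l t ≠ 0 := mul_ne_zero (by norm_num) hbt
    exact mul_ne_zero (mul_ne_zero (mul_ne_zero h2b (pow_ne_zero _ (mul_ne_zero h2b h3))) hwi)
      (pow_ne_zero _ h0)
  · intro z hz _ hcz
    refine ⟨_, ?_, ph_ps_val hf hQ hw iso hcov hij hil hjl z hz⟩
    unfold cc at hcz
    have hbt := left_ne_zero_of_mul (left_ne_zero_of_mul (left_ne_zero_of_mul hcz))
    rw [bb_ps hw iso hcov hij hil hjl] at hbt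
    have h1 : Bf Q (xx z) (w0 (xx z)) (ww z) ≠ 0 := right_ne_zero_of_mul hbt
    have hb1 := left_ne_zero_of_mul hbt
    have h2 : w0 (xx z) i ≠ 0 := right_ne_zero_of_mul hb1
    have hb2 := left_ne_zero_of_mul hb1
    have h3 : xx z 0 ≠ 0 := fun h => right_ne_zero_of_mul hb2 (by rw [h]; simp)
    have h4 : mi w0 i l (xx z) (ww z) ≠ 0 := fun h => left_ne_zero_of_mul hb2 (by
      rw [h]; exact zero_pow (by omega))
    exact mul_ne_zero (mul_ne_zero (mul_ne_zero (mul_ne_zero (by norm_num)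
      (pow_ne_zero _ h4)) (pow_ne_zero _ h3)) (pow_ne_zero _ h2)) h1

end Sec

/-- an isotropic vector of the generic member of the net makes the cubic fourfold rational -/
theorem sec {f : (Fin 3 → ℂ) → ℂ} (hf : PH 3 f) (_hf0 : ∃ x, f x ≠ 0)
    (Q : Fin 3 → Matrix (Fin 3) (Fin 3) ℂ) (hQ : ∀ i, (Q i).IsSymm) (hb : BPF Q) {e : ℕ}
    (w0 : (Fin 3 → ℂ) → (Fin 3 → ℂ)) (hw : ∀ i, PH e (fun x => w0 x i))
    (hw0 : ∃ x, w0 x ≠ 0) (iso : ∀ x, w0 x ⬝ᵥ (QQ Q x *ᵥ w0 x) = 0) : IsRat (F3 f Q) := by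
  obtain ⟨x, hx⟩ := hw0
  obtain ⟨i, hi⟩ : ∃ i, w0 x i ≠ 0 := by
    by_contra hcon
    push Not at hcon
    exact hx (funext hcon)
  fin_cases i
  · exact Sec.main (i := 0) (j := 1) (l := 2) hf hQ hb hw ⟨x, hi⟩ iso (by decide) (by decide)
      (by decide) (by decide)
  · exact Sec.main (i := 1) (j := 2) (l := 0) hf hQ hb hw ⟨x, hi⟩ iso (by decide) (by decide)
      (by decide) (by decide)
  · exact Sec.main (i := 2) (j := 0) (l := 1) hf hQ hb hw ⟨x, hi⟩ iso (by decide) (by decide)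
      (by decide) (by decide)

end P287H468
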