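import Mathlib
import Vale.Agent.P287.H468.Defs
import Vale.Agent.P287.H468.Pf8
import Vale.Agent.P287.H468.ExK
import Vale.Agent.P287.H468.Net
import Vale.Agent.P287.H468.Sec
import Vale.Agent.P287.H468.Norm3
import Vale.Agent.P287.H468.TwoEck

set_option autoImplicit false
set_option linter.all false

/-!
A smooth cubic fourfold with an involution whose `-1` eigenspace has dimension three is rational.
-/

namespace P287H468
open Matrix

/-- the case of a section: `c = 0`, `s = 0` -/
theorem case00 {f : (Fin 3 → ℂ) → ℂ} (hf : PH 3 f) (hf0 : ∃ x, f x ≠ 0)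
    (Q : Fin 3 → Matrix (Fin 3) (Fin 3) ℂ) (hQ : ∀ i, (Q i).IsSymm) (hb : BPF Q)
    {K : Matrix (Fin 3) (Fin 3) ℂ} (hK0 : K ≠ 0)
    (hK : ∀ x, (K *ᵥ x) ⬝ᵥ (QQ Q x *ᵥ (K *ᵥ x)) = 0) : IsRat (F3 f Q) := by
  refine sec hf hf0 Q hQ hb (e := 1) (fun x => K *ᵥ x) (fun i => ?_) ?_ hK
  · exact (PH.sum Finset.univ (fun k _ => (PH.coord k).cmul (K i k))).congr fun x => rfl
  · by_contra hcon
    push Not at hcon
    apply hK0
    ext i j
    have := congrFun (hcon (Pi.single j 1)) i
    rw [Matrix.mulVec_single_one, Matrix.col_apply] at this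
    exact this

/-- the case `c = 0`, `s = 1` -/
theorem case01 {f : (Fin 3 → ℂ) → ℂ} (hf : PH 3 f) (hf0 : ∃ x, f x ≠ 0)
    (Q : Fin 3 → Matrix (Fin 3) (Fin 3) ℂ) (hQ : ∀ i, (Q i).IsSymm) (hb : BPF Q)
    {K : Matrix (Fin 3) (Fin 3) ℂ}
    (hK : ∀ x, (K *ᵥ x) ⬝ᵥ (QQ Q x *ᵥ (K *ᵥ x)) + (QQ Q x).det = 0) : IsRat (F3 f Q) := by
  have hN : ∀ x, (NN Q K x).det = 0 := fun x => by rw [det_NN hQ, hK]
  -- some entry of the adjugate is nonzero
  obtain ⟨i, j, x0, hx0⟩ : ∃ i j x, ad (NN Q K x) i j ≠ 0 := by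
    by_contra hcon
    push Not at hcon
    obtain ⟨x, hx⟩ := det_ne Q hQ hb
    apply hx
    have h0 := fun i j => hcon i j x
    have hd := hN x
    have e : ∀ i j, QQ Q x i j = (NN Q K x i j + NN Q K x j i) / 2 := by
      intro i j
      have h1 : QQ Q x j i = QQ Q x i j := (QQ_symm' hQ x).apply i j
      have h2 : sk (K *ᵥ x) j i = - sk (K *ᵥ x) i j := by
        fin_cases i <;> fin_cases j <;> simp [sk]
      rw [NN, Matrix.add_apply, Matrix.add_apply, h1, h2]
      ring
    have a00 := h0 0 0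
    have a01 := h0 0 1
    have a02 := h0 0 2
    have a10 := h0 1 0
    have a11 := h0 1 1
    have a12 := h0 1 2
    have a20 := h0 2 0
    have a21 := h0 2 1
    have a22 := h0 2 2
    simp [ad] at a00 a01 a02 a10 a11 a12 a20 a21 a22
    rw [Matrix.det_fin_three] at hd ⊢
    simp only [e]
    generalize NN Q K x 0 0 = n00 at *
    generalize NN Q K x 0 1 = n01 at *
    generalize NN Q K x 0 2 = n02 at *
    generalize NN Q K x 1 0 = n10 at *
    generalize NN Q K x 1 1 = n11 at *
    generalize NN Q K x 1 2 = n12 at *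
    generalize NN Q K x 2 0 = n20 at *
    generalize NN Q K x 2 1 = n21 at *
    generalize NN Q K x 2 2 = n22 at *
    linear_combination (1 / 4) * hd + (1 / 4) * (n00 * a00 + n01 * a01 + n02 * a02 + n10 * a10
      + n11 * a11 + n12 * a12 + n20 * a20 + n21 * a21 + n22 * a22)
  refine sec hf hf0 Q hQ hb (e := 2) (fun x r => ad (NN Q K x) r j) (fun r => ?_) ?_ ?_
  · -- degree two
    have hN1 : ∀ p q, PH 1 (fun x : Fin 3 → ℂ => NN Q K x p q) := by
      intro p q
      refine ((PHN Q K p q).comp (g := fun x => pt x 0) (m := 1) (fun i => ?_)).congr fun x => ?_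
      · fin_cases i
        · exact (PH.coord (0 : Fin 3)).congr fun x => by simp [pt]
        · exact (PH.coord (1 : Fin 3)).congr fun x => by simp [pt]
        · exact (PH.coord (2 : Fin 3)).congr fun x => by simp [pt]
        · exact (PH.zero 1).congr fun x => by simp [pt]
        · exact (PH.zero 1).congr fun x => by simp [pt]
        · exact (PH.zero 1).congr fun x => by simp [pt]
      · rw [xx_pt]
    have h : ∀ a b d e : Fin 3, PH 2 (fun x : Fin 3 → ℂ => NN Q K x a b * NN Q K x d e) :=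
      fun a b d e => (hN1 a b).mul (hN1 d e)
    fin_cases r <;> fin_cases j
    · exact ((h 1 1 2 2).sub (h 1 2 2 1)).congr fun z => by simp [ad]
    · exact ((h 0 2 2 1).sub (h 0 1 2 2)).congr fun z => by simp [ad]
    · exact ((h 0 1 1 2).sub (h 0 2 1 1)).congr fun z => by simp [ad]
    · exact ((h 1 2 2 0).sub (h 1 0 2 2)).congr fun z => by simp [ad]
    · exact ((h 0 0 2 2).sub (h 0 2 2 0)).congr fun z => by simp [ad]
    · exact ((h 0 2 1 0).sub (h 0 0 1 2)).congr fun z => by simp [ad]
    · exact ((h 1 0 2 1).sub (h 1 1 2 0)).congr fun z => by simp [ad]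
    · exact ((h 0 1 2 0).sub (h 0 0 2 1)).congr fun z => by simp [ad]
    · exact ((h 0 0 1 1).sub (h 0 1 1 0)).congr fun z => by simp [ad]
  · exact ⟨x0, fun h => hx0 (congrFun h i)⟩
  · intro x
    rw [← wNw Q K]
    have h1 : NN Q K x *ᵥ (fun r => ad (NN Q K x) r j) = 0 := by
      have hd := hN x
      rw [Matrix.det_fin_three] at hd
      funext r
      fin_cases r <;> fin_cases j <;> simp [ad, Matrix.mulVec, dotProduct, Fin.sum_univ_three] <;>
        first
          | ring1
          | linear_combination hd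
          | linear_combination -hd
    rw [h1, dotProduct_zero]

/-- an involution of type `(1,1,1,-1,-1,-1)` -/
theorem phi3 (a : Fin 6 → Fin 6 → Fin 6 → ℂ) (hs : SymT a) (hsm : Smo a)
    (A : Matrix (Fin 6) (Fin 6) ℂ) (hA : A * A = 1)
    (hinv : ∀ x, Tri a (A *ᵥ x) (A *ᵥ x) (A *ᵥ x) = Tri a x x x)
    (h3 : Module.finrank ℂ (LinearMap.ker (Matrix.toLin' (A + 1))) = 3) :
    IsRat (fun z => Tri a z z z) := by
  obtain ⟨g, g', f, Q, hgg, hf, hf0, hQ, hb, hF⟩ := normal3 a hs hsm A hA hinv h3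
  obtain ⟨K, s, c, hne, hK⟩ := exists_K hf hf0 Q
  have red : IsRat (F3 f Q) → IsRat (fun z => Tri a z z z) := by
    intro h
    apply IsRat.of_comp g g' hgg
    have e : (fun y => (fun z => Tri a z z z) (g.mulVec y)) = F3 f Q := funext fun y => hF y
    rw [e]
    exact h
  by_cases hc : c = 0
  · by_cases hs0 : s = 0
    · have hK0 : K ≠ 0 := by
        rcases hne with h | h
        · exact h
        · exact absurd hs0 h
      refine red (case00 hf hf0 Q hQ hb hK0 fun x => ?_)
      have := hK x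
      rw [hs0, hc] at this
      simpa using this
    · refine red (case01 hf hf0 Q hQ hb (K := s⁻¹ • K) fun x => ?_)
      have := hK x
      rw [hc, zero_mul] at this
      rw [Matrix.smul_mulVec, Matrix.mulVec_smul, dotProduct_smul, smul_dotProduct]
      simp only [smul_eq_mul]
      field_simp
      linear_combination this
  · by_cases hs0 : s = 0
    · -- a plane disjoint from `x = 0`
      obtain ⟨κ, hκ⟩ := IsAlgClosed.exists_pow_nat_eq (-c⁻¹) (n := 2) (by norm_num)
      have hz : ∀ x : Fin 3 → ℂ, F3 f Q (pt x (κ • (K *ᵥ x))) = 0 := by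
        intro x
        have := hK x
        rw [hs0] at this
        rw [F3, xx_pt, ww_pt, Matrix.mulVec_smul, dotProduct_smul, smul_dotProduct]
        simp only [smul_eq_mul]
        have h2 : κ * (κ * (K *ᵥ x ⬝ᵥ QQ Q x *ᵥ K *ᵥ x)) = κ ^ 2 * (c * f x) := by
          rw [← this]; ring
        rw [h2, hκ]
        field_simp
        ring
      set e : Fin 3 → (Fin 3 → ℂ) := fun i => Pi.single i 1 with he
      have hsum : ∀ x : Fin 3 → ℂ, x 0 • e 0 + x 1 • e 1 + x 2 • e 2 = x := by
        intro x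
        funext i
        fin_cases i <;> simp [he]
      have hF0 : f 0 = 0 := by
        have := hf.smul_eval 0 0
        simpa using this
      set P : Fin 6 → (Fin 6 → ℂ) := ![g *ᵥ pt (e 0) (κ • (K *ᵥ e 0)),
        g *ᵥ pt (e 1) (κ • (K *ᵥ e 1)), g *ᵥ pt (e 2) (κ • (K *ᵥ e 2)),
        g *ᵥ pt 0 (e 0), g *ᵥ pt 0 (e 1), g *ᵥ pt 0 (e 2)] with hP
      have s1 : ∀ x : Fin 3 → ℂ, x 0 • P 0 + x 1 • P 1 + x 2 • P 2 =
          g *ᵥ pt x (κ • (K *ᵥ x)) := by
        intro x
        have h1 : pt x (κ • (K *ᵥ x)) = x 0 • pt (e 0) (κ • (K *ᵥ e 0))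
            + x 1 • pt (e 1) (κ • (K *ᵥ e 1)) + x 2 • pt (e 2) (κ • (K *ᵥ e 2)) := by
          rw [← pt_smul', ← pt_smul', ← pt_smul', ← pt_add, ← pt_add, hsum]
          congr 1
          conv_lhs => rw [← hsum x]
          rw [Matrix.mulVec_add, Matrix.mulVec_add, Matrix.mulVec_smul, Matrix.mulVec_smul,
            Matrix.mulVec_smul]
          module
        rw [h1, Matrix.mulVec_add, Matrix.mulVec_add, Matrix.mulVec_smul, Matrix.mulVec_smul,
            Matrix.mulVec_smul]
        simp [hP]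
      have s2 : ∀ x : Fin 3 → ℂ, x 0 • P 3 + x 1 • P 4 + x 2 • P 5 = g *ᵥ pt 0 x := by
        intro x
        have h1 : pt 0 x = x 0 • pt 0 (e 0) + x 1 • pt 0 (e 1) + x 2 • pt 0 (e 2) := by
          rw [← pt_smul', ← pt_smul', ← pt_smul', ← pt_add, ← pt_add, hsum]
          simp
        rw [h1, Matrix.mulVec_add, Matrix.mulVec_add, Matrix.mulVec_smul, Matrix.mulVec_smul,
            Matrix.mulVec_smul]
        simp [hP]
      have hg' : g' * g = 1 := mul_eq_one_comm.1 hgg
      refine TE.rat_of_planes a hs hsm P ?_ ?_ ?_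
      · intro r hr
        rw [Fin.sum_univ_six] at hr
        have h1 := s1 ![r 0, r 1, r 2]
        have h2 := s2 ![r 3, r 4, r 5]
        simp only [Matrix.cons_val] at h1 h2
        have h3 : g *ᵥ (pt ![r 0, r 1, r 2] (κ • (K *ᵥ ![r 0, r 1, r 2]))
            + pt 0 ![r 3, r 4, r 5]) = 0 := by
          rw [Matrix.mulVec_add, ← h1, ← h2, ← hr]
          abel
        have h4 : pt ![r 0, r 1, r 2] (κ • (K *ᵥ ![r 0, r 1, r 2])) + pt 0 ![r 3, r 4, r 5] = 0 := by
          have h5 := congrArg (fun z => g' *ᵥ z) h3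
          simp only [Matrix.mulVec_mulVec, hg', Matrix.one_mulVec, Matrix.mulVec_zero] at h5
          exact h5
        rw [← pt_add, add_zero] at h4
        obtain ⟨h5, h6⟩ := pt_zero_iff h4
        rw [h5, Matrix.mulVec_zero, smul_zero, zero_add] at h6
        funext i
        fin_cases i
        · exact congrFun h5 0
        · exact congrFun h5 1
        · exact congrFun h5 2
        · exact congrFun h6 0
        · exact congrFun h6 1
        · exact congrFun h6 2
      · intro x
        rw [s1, hF]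
        exact hz x
      · intro x
        rw [s2, hF, F3, xx_pt, ww_pt, hF0]
        simp [QQ]
    · refine red (pfaff (K := s⁻¹ • K) (c := c / s ^ 2) hf hf0 hQ hb
        (div_ne_zero hc (pow_ne_zero _ hs0)) fun x => ?_)
      have := hK x
      rw [Matrix.smul_mulVec, Matrix.mulVec_smul, dotProduct_smul, smul_dotProduct]
      simp only [smul_eq_mul]
      field_simp
      linear_combination this

end P287H468
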