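import Mathlib
import Vale.Agent.P287.H468.Fin1
import Vale.Agent.P287.H468.NoP3
import Vale.Agent.P287.H468.EP2
import Vale.Agent.P287.H468.Phi3
import Vale.Agent.P287.H932.Line

set_option autoImplicit false
set_option linter.all false

/-!
The four cases of the theorem, at the level of polynomials.
-/

namespace P287H468
open MvPolynomial

section
variable {F : MvPolynomial (Fin 6) ℂ} (hF : F.IsHomogeneous 3)
include hF

/-- an Eckardt point and a plane not through it -/
theorem rational_eckardt_plane (hskew : SkewStmt) (hsm : SmoothForm F) {p : Fin 6 → ℂ}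
    (hp : EckardtPoint F p) (W : Submodule ℂ (Fin 6 → ℂ)) (hW : Module.finrank ℂ W = 3)
    (hpW : p ∉ W) (h0 : ∀ x ∈ W, eval x F = 0) : RationalForm F :=
  ep hF hskew (fun U hU h => no_P3 (ten F) (ten_sym F) (smo_of hF hsm) U hU h) hsm hp W hW hpW h0

/-- two Eckardt points -/
theorem rational_two_eckardt (hskew : SkewStmt) (hsm : SmoothForm F) {p q : Fin 6 → ℂ}
    (hp : EckardtPoint F p) (hq : EckardtPoint F q) (hpq : LinearIndependent ℂ ![p, q]) :
    RationalForm F := by
  obtain ⟨W, hW, hpW, h0⟩ := second_eck hskew lineStmt (symL_of hF) (smL_of hF hsm) (by simp)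
    (eck_of hF hp) (eck_of hF hq) hpq
  exact rational_eckardt_plane hF hskew hsm hp W hW hpW
    (fun x hx => by rw [eval_T6 hF]; exact h0 x hx)

/-- an involution with three-dimensional `-1` eigenspace -/
theorem rational_phi3 (hsm : SmoothForm F) (A : Matrix (Fin 6) (Fin 6) ℂ) (hA : A * A = 1)
    (hinv : ∀ x, eval (A.mulVec x) F = eval x F)
    (h3 : Module.finrank ℂ (LinearMap.ker (Matrix.toLin' (A + 1))) = 3) : RationalForm F := by
  apply RationalForm.of_isRat
  have e : (fun x => eval x F) = fun z => Tri (ten F) z z z := funext fun x => val_ten hF x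
  rw [e]
  refine phi3 (ten F) (ten_sym F) (smo_of hF hsm) A hA (fun x => ?_) h3
  rw [← val_ten hF, ← val_ten hF, hinv]

end

end P287H468
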