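import Mathlib
import Vale.Agent.P287.H468.Fin2
import Vale.Agent.P287.H932.Split

set_option autoImplicit false
set_option linter.all false

/-!
The cases with involutions, at the level of polynomials.
-/

namespace P287H468
open MvPolynomial Matrix

theorem rank_eq_minus {A : Matrix (Fin 6) (Fin 6) ℂ} (hA : A * A = 1) :
    (A - 1).rank = Module.finrank ℂ (LinearMap.ker (Matrix.toLin' (A + 1))) := by
  have h : LinearMap.range ((A - 1).mulVecLin) = LinearMap.ker (Matrix.toLin' (A + 1)) := by
    ext x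
    rw [LinearMap.mem_range, LinearMap.mem_ker, Matrix.toLin'_apply]
    constructor
    · rintro ⟨y, rfl⟩
      rw [Matrix.mulVecLin_apply, Matrix.mulVec_mulVec]
      have : (A + 1) * (A - 1) = 0 := by
        rw [mul_sub, add_mul, hA]
        simp
        abel
      rw [this, Matrix.zero_mulVec]
    · intro hx
      refine ⟨-((1 / 2 : ℂ) • x), ?_⟩
      rw [Matrix.add_mulVec, Matrix.one_mulVec] at hx
      have hAx : A *ᵥ x = -x := eq_neg_of_add_eq_zero_left hx
      rw [Matrix.mulVecLin_apply, Matrix.sub_mulVec, Matrix.one_mulVec, Matrix.mulVec_neg,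
        Matrix.mulVec_smul, hAx]
      module
  rw [Matrix.rank, h]

section
variable {F : MvPolynomial (Fin 6) ℂ} (hF : F.IsHomogeneous 3)
include hF

theorem rational_antisymplectic (hsm : SmoothForm F) (A : Matrix (Fin 6) (Fin 6) ℂ)
    (hA : A * A = 1) (hd : A.det = -1) (hr : (A - 1).rank ≠ 1)
    (hinv : ∀ x, eval (A *ᵥ x) F = eval x F) : RationalForm F := by
  have hi : ∀ x, Tri (ten F) (A *ᵥ x) (A *ᵥ x) (A *ᵥ x) = Tri (ten F) x x x := by
    intro x
    rw [← val_ten hF, ← val_ten hF, hinv]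
  have h1 := dim_minus_le (ten_sym F) (smo_of hF hsm) hA hi
  have h2 := dim_minus_odd hA hd
  rw [rank_eq_minus hA] at hr
  refine rational_phi3 hF hsm A hA hinv ?_
  obtain ⟨m, hm⟩ := h2
  omega

theorem rational_commuting (hsm : SmoothForm F) (A B : Matrix (Fin 6) (Fin 6) ℂ)
    (hA : A * A = 1) (hB : B * B = 1) (hAB : A * B = B * A) (hne : A ≠ B) (hB1 : B ≠ 1)
    (hd : A.det = -1) (hiA : ∀ x, eval (A *ᵥ x) F = eval x F)
    (hiB : ∀ x, eval (B *ᵥ x) F = eval x F) : RationalForm F := by
  apply RationalForm.of_isRat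
  have e : (fun x => eval x F) = fun z => Tri (ten F) z z z := funext fun x => val_ten hF x
  rw [e]
  refine comm_inv (ten F) (ten_sym F) (smo_of hF hsm) A B hA hB hAB hne hB1 (fun x => ?_)
    (fun x => ?_) hd
  · rw [← val_ten hF, ← val_ten hF, hiA]
  · rw [← val_ten hF, ← val_ten hF, hiB]

end

end P287H468
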