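import Mathlib
import Vale.Agent.P287.H468.Defs
import Vale.Agent.P287.H468.CZ
import Vale.Agent.P287.H468.Pf6

set_option autoImplicit false
set_option linter.all false

/-!
A line on a smooth cubic surface is met by another line.
-/

namespace P287H468
open Module Matrix

/-- a binary quadratic form has a nontrivial zero -/
theorem bin_quad (A B C : ℂ) : ∃ x y : ℂ, ¬ (x = 0 ∧ y = 0) ∧
    A * x ^ 2 + 2 * B * x * y + C * y ^ 2 = 0 := by
  by_cases h : A = 0
  · exact ⟨1, 0, fun h' => one_ne_zero h'.1, by rw [h]; ring⟩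
  · obtain ⟨d, hd⟩ := IsAlgClosed.exists_pow_nat_eq (B ^ 2 - A * C) (n := 2) (by norm_num)
    refine ⟨(-B + d) / A, 1, fun h' => one_ne_zero h'.2, ?_⟩
    field_simp
    linear_combination hd

/-- a singular symmetric matrix has an isotropic pair -/
theorem iso2 {S : Matrix (Fin 3) (Fin 3) ℂ} (hS : S.IsSymm) (hd : S.det = 0) :
    ∃ k y : Fin 3 → ℂ, (∀ s t : ℂ, s • k + t • y = 0 → s = 0 ∧ t = 0) ∧
      ∀ s t : ℂ, bq S (s • k + t • y) (s • k + t • y) = 0 := by
  rw [← Matrix.exists_mulVec_eq_zero_iff] at hd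
  obtain ⟨k, hk0, hk⟩ := hd
  have main : ∀ y : Fin 3 → ℂ, bq S y y = 0 → ∀ s t : ℂ,
      bq S (s • k + t • y) (s • k + t • y) = 0 := by
    intro y hy s t
    have h1 : bq S (s • k) (s • k) = 0 := by
      rw [bq, Matrix.mulVec_smul, hk]; simp
    have h2 : bq S (s • k) y = 0 := by
      rw [bq_symm hS, bq, Matrix.mulVec_smul, hk]; simp
    rw [bq_add hS, h1, h2, hy]
    ring
  -- a coordinate where `k` is nonzero, and the other two
  obtain ⟨i, hi⟩ := Function.ne_iff.1 hk0
  obtain ⟨j, l, hij, hil, hjl⟩ : ∃ j l : Fin 3, j ≠ i ∧ l ≠ i ∧ j ≠ l := by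
    fin_cases i
    · exact ⟨1, 2, by decide, by decide, by decide⟩
    · exact ⟨0, 2, by decide, by decide, by decide⟩
    · exact ⟨0, 1, by decide, by decide, by decide⟩
  set ej : Fin 3 → ℂ := Pi.single j 1 with hej
  set el : Fin 3 → ℂ := Pi.single l 1 with hel
  obtain ⟨x, y, hxy, hz⟩ := bin_quad (bq S ej ej) (bq S ej el) (bq S el el)
  refine ⟨k, x • ej + y • el, ?_, main _ ?_⟩
  · intro s t h
    have h1 := congrFun h i
    have h2 := congrFun h j
    have h3 := congrFun h l
    have e1 : ej i = 0 := by rw [hej, Pi.single_apply, if_neg (Ne.symm hij)]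
    have e2 : el i = 0 := by rw [hel, Pi.single_apply, if_neg (Ne.symm hil)]
    have e3 : ej j = 1 := by rw [hej, Pi.single_eq_same]
    have e4 : el j = 0 := by rw [hel, Pi.single_apply, if_neg hjl]
    have e5 : ej l = 0 := by rw [hej, Pi.single_apply, if_neg (Ne.symm hjl)]
    have e6 : el l = 1 := by rw [hel, Pi.single_eq_same]
    simp only [Pi.add_apply, Pi.smul_apply, smul_eq_mul, e1, e2, e3, e4, e5, e6, Pi.zero_apply]
      at h1 h2 h3
    have hs : s = 0 := by
      have : s * k i = 0 := by linear_combination h1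
      exact (mul_eq_zero.1 this).resolve_right hi
    refine ⟨hs, ?_⟩
    by_contra ht
    apply hxy
    rw [hs] at h2 h3
    constructor
    · have : t * x = 0 := by linear_combination h2
      exact (mul_eq_zero.1 this).resolve_left ht
    · have : t * y = 0 := by linear_combination h3
      exact (mul_eq_zero.1 this).resolve_left ht
  · rw [bq_add hS]
    have h1 : bq S (x • ej) (x • ej) = x ^ 2 * bq S ej ej := by
      simp only [bq, Matrix.mulVec_smul, dotProduct_smul, smul_dotProduct, smul_eq_mul]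
      ring
    have h2 : bq S (x • ej) el = x * bq S ej el := by
      simp only [bq, smul_dotProduct, smul_eq_mul]
    rw [h1, h2]
    linear_combination hz

section Abs
variable {E : Type} [AddCommGroup E] [Module ℂ E]
variable {T : E →ₗ[ℂ] E →ₗ[ℂ] E →ₗ[ℂ] ℂ}

/-- vanishing on a line: the four values -/
theorem line_vals (h12 : ∀ x y z, T x y z = T y x z) (h23 : ∀ x y z, T x y z = T x z y)
    {u v : E} (h0 : ∀ s t : ℂ, T (s • u + t • v) (s • u + t • v) (s • u + t • v) = 0) :
    T u u u = 0 ∧ T u u v = 0 ∧ T u v v = 0 ∧ T v v v = 0 := by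
  have key : ∀ s t : ℂ, s ^ 3 * T u u u + 3 * s ^ 2 * t * T u u v + 3 * s * t ^ 2 * T u v v
      + t ^ 3 * T v v v = 0 := by
    intro s t
    have h := h0 s t
    simp only [map_add, map_smul, LinearMap.add_apply, LinearMap.smul_apply, smul_eq_mul] at h
    rw [h23 u v u, h12 v u u, h12 v u v, h23 v v u, h12 v u v, h23 u v u] at h
    linear_combination h
  have a := key 1 0
  have b := key 0 1
  have c := key 1 1
  have d := key 1 (-1)
  have ha : T u u u = 0 := by linear_combination a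
  have hb : T v v v = 0 := by linear_combination b
  refine ⟨ha, ?_, ?_, hb⟩
  · linear_combination (1 / 6) * c - (1 / 6) * d - (1 / 3) * b
  · linear_combination (1 / 6) * c + (1 / 6) * d - (1 / 3) * a

/-- the conic matrix in the plane spanned by the line `u, v` and `e` -/
noncomputable def cm (T : E →ₗ[ℂ] E →ₗ[ℂ] E →ₗ[ℂ] ℂ) (u v e : E) : Matrix (Fin 3) (Fin 3) ℂ :=
  !![T e u u, T e u v, T e e u / 2; T e u v, T e v v, T e e v / 2;
     T e e u / 2, T e e v / 2, T e e e / 3]

theorem cm_symm (u v e : E) : (cm T u v e).IsSymm := by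
  ext i j
  fin_cases i <;> fin_cases j <;> simp [cm]

/-- the point of the plane with coordinates `k` -/
def yv (u v e : E) (k : Fin 3 → ℂ) : E := k 2 • e + k 0 • u + k 1 • v

theorem yv_lin (u v e : E) (s t : ℂ) (k y : Fin 3 → ℂ) :
    s • yv u v e k + t • yv u v e y = yv u v e (s • k + t • y) := by
  simp only [yv, Pi.add_apply, Pi.smul_apply, smul_eq_mul]
  module

theorem yv_val (h12 : ∀ x y z, T x y z = T y x z) (h23 : ∀ x y z, T x y z = T x z y)
    {u v : E} (h0 : ∀ s t : ℂ, T (s • u + t • v) (s • u + t • v) (s • u + t • v) = 0)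
    (e : E) (k : Fin 3 → ℂ) :
    T (yv u v e k) (yv u v e k) (yv u v e k) = 3 * k 2 * bq (cm T u v e) k k := by
  obtain ⟨h1, h2, h3, h4⟩ := line_vals h12 h23 h0
  have e1 : T u e u = T e u u := by rw [h12]
  have e2 : T u u e = T e u u := by rw [h23, h12]
  have e3 : T u e e = T e e u := by rw [h12, h23]
  have e4 : T e u e = T e e u := by rw [h23]
  have e5 : T v e v = T e v v := by rw [h12]
  have e6 : T v v e = T e v v := by rw [h23, h12]
  have e7 : T v e e = T e e v := by rw [h12, h23]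
  have e8 : T e v e = T e e v := by rw [h23]
  have e9 : T e v u = T e u v := by rw [h23]
  have e10 : T u e v = T e u v := by rw [h12]
  have e11 : T v e u = T e u v := by rw [h12, h23]
  have e12 : T u v e = T e u v := by rw [h23, h12]
  have e13 : T v u e = T e u v := by rw [h12, h23, h12]
  have e14 : T u v u = 0 := by rw [h23, h2]
  have e15 : T v u u = 0 := by rw [h12, h23, h2]
  have e16 : T v u v = 0 := by rw [h12, h3]
  have e17 : T v v u = 0 := by rw [h23, h12, h3]
  simp only [yv, map_add, map_smul, LinearMap.add_apply, LinearMap.smul_apply, smul_eq_mul,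
    e1, e2, e3, e4, e5, e6, e7, e8, e9, e10, e11, e12, e13, e14, e15, e16, e17, h1, h2, h3, h4]
  simp [bq, cm, Matrix.mulVec, dotProduct, Fin.sum_univ_three]
  ring

/-- the determinant of the conic matrix vanishes for some `e = x • e0 + y • e1` -/
theorem exists_sing (u v e0 e1 : E) : ∃ x y : ℂ, ¬ (x = 0 ∧ y = 0) ∧
    (cm T u v (x • e0 + y • e1)).det = 0 := by
  open MvPolynomial in
  -- the matrix of polynomials
  let x0 : MvPolynomial (Fin 2) ℂ := X 0
  let x1 : MvPolynomial (Fin 2) ℂ := X 1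
  let l : ℂ → ℂ → MvPolynomial (Fin 2) ℂ := fun a b => C a * x0 + C b * x1
  let q : ℂ → ℂ → ℂ → MvPolynomial (Fin 2) ℂ := fun a b c =>
    C a * x0 ^ 2 + C b * (x0 * x1) + C c * x1 ^ 2
  let c3 : ℂ → ℂ → ℂ → ℂ → MvPolynomial (Fin 2) ℂ := fun a b c d =>
    C a * x0 ^ 3 + C b * (x0 ^ 2 * x1) + C c * (x0 * x1 ^ 2) + C d * x1 ^ 3
  let M : Matrix (Fin 3) (Fin 3) (MvPolynomial (Fin 2) ℂ) :=
    !![l (T e0 u u) (T e1 u u), l (T e0 u v) (T e1 u v),
        q (T e0 e0 u / 2) ((T e0 e1 u + T e1 e0 u) / 2) (T e1 e1 u / 2);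
      l (T e0 u v) (T e1 u v), l (T e0 v v) (T e1 v v),
        q (T e0 e0 v / 2) ((T e0 e1 v + T e1 e0 v) / 2) (T e1 e1 v / 2);
      q (T e0 e0 u / 2) ((T e0 e1 u + T e1 e0 u) / 2) (T e1 e1 u / 2),
        q (T e0 e0 v / 2) ((T e0 e1 v + T e1 e0 v) / 2) (T e1 e1 v / 2),
        c3 (T e0 e0 e0 / 3) ((T e0 e0 e1 + T e0 e1 e0 + T e1 e0 e0) / 3)
          ((T e0 e1 e1 + T e1 e0 e1 + T e1 e1 e0) / 3) (T e1 e1 e1 / 3)]
  have hM : ∀ r : Fin 2 → ℂ, aeval r M.det = (cm T u v (r 0 • e0 + r 1 • e1)).det := by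
    intro r
    rw [Matrix.det_fin_three, Matrix.det_fin_three]
    simp [M, cm, l, q, c3, x0, x1]
    ring
  obtain ⟨r, hr, h⟩ := exists_zero (m := 2) (k := 1) (by norm_num) (fun _ => M.det) (by
    intro _
    rw [hM]
    simp [cm, Matrix.det_fin_three])
  refine ⟨r 0, r 1, ?_, ?_⟩
  · rintro ⟨h1, h2⟩
    apply hr
    funext i
    fin_cases i
    · exact h1
    · exact h2
  · rw [← hM]
    exact h 0

end Abs

end P287H468
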