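import Mathlib
import Vale.Agent.P287.H468.Defs
import Vale.Agent.P287.H468.N2a

set_option autoImplicit false
set_option linter.all false

/-!
A line on a smooth cubic surface is met by another line, continued.
-/

namespace P287H468
open Module Matrix

variable {E : Type} [AddCommGroup E] [Module ℂ E]

/-- completing an independent pair to a basis -/
theorem complete_pair [FiniteDimensional ℂ E] (hdim : finrank ℂ E = 4) {u v : E}
    (huv : LinearIndependent ℂ ![u, v]) :
    ∃ e0 e1 : E, ∀ a b s t : ℂ, a • e0 + b • e1 + s • u + t • v = 0 →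
      a = 0 ∧ b = 0 ∧ s = 0 ∧ t = 0 := by
  set B : Submodule ℂ E := Submodule.span ℂ (Set.range ![u, v]) with hB
  have hBd : finrank ℂ B = 2 := by
    rw [hB, finrank_span_eq_card huv]
    simp
  obtain ⟨C, hC⟩ := Submodule.exists_isCompl B
  have hCd : finrank ℂ C = 2 := by
    have h1 := Submodule.finrank_add_eq_of_isCompl hC
    rw [hBd, hdim] at h1
    omega
  let c : Basis (Fin 2) ℂ C := finBasisOfFinrankEq ℂ C hCd
  refine ⟨(c 0 : E), (c 1 : E), ?_⟩
  intro a b s t h
  have h1 : a • (c 0 : E) + b • (c 1 : E) = -(s • u + t • v) := by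
    rw [eq_neg_iff_add_eq_zero, ← h]
    abel
  have h2 : a • (c 0 : E) + b • (c 1 : E) ∈ B ⊓ C := by
    constructor
    · rw [h1]
      refine B.neg_mem (B.add_mem (B.smul_mem _ ?_) (B.smul_mem _ ?_))
      · exact Submodule.subset_span ⟨0, by simp⟩
      · exact Submodule.subset_span ⟨1, by simp⟩
    · exact C.add_mem (C.smul_mem _ (c 0).2) (C.smul_mem _ (c 1).2)
  rw [hC.inf_eq_bot, Submodule.mem_bot] at h2
  have h3 : a • c 0 + b • c 1 = 0 := Subtype.ext (by simpa using h2)
  have h4 := c.linearIndependent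
  rw [Fintype.linearIndependent_iff] at h4
  have h5 := h4 ![a, b] (by rw [Fin.sum_univ_two]; simpa using h3)
  rw [h2] at h1
  have h6 : s • u + t • v = 0 := by
    rw [← neg_eq_zero, ← h1]
  rw [LinearIndependent.pair_iff] at huv
  obtain ⟨h7, h8⟩ := huv s t h6
  exact ⟨by simpa using h5 0, by simpa using h5 1, h7, h8⟩

/-- a functional vanishing on four independent vectors of a four-dimensional space is zero -/
theorem func_zero [FiniteDimensional ℂ E] (hdim : finrank ℂ E = 4) {e e' u v : E}
    (hind : ∀ a b s t : ℂ, a • e + b • e' + s • u + t • v = 0 → a = 0 ∧ b = 0 ∧ s = 0 ∧ t = 0)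
    (φ : E →ₗ[ℂ] ℂ) (h1 : φ e = 0) (h2 : φ e' = 0) (h3 : φ u = 0) (h4 : φ v = 0) (x : E) :
    φ x = 0 := by
  have hli : LinearIndependent ℂ ![e, e', u, v] := by
    rw [Fintype.linearIndependent_iff]
    intro g hg
    rw [Fin.sum_univ_four] at hg
    obtain ⟨a, b, s, t⟩ := hind (g 0) (g 1) (g 2) (g 3) (by simpa using hg)
    intro i
    fin_cases i
    · exact a
    · exact b
    · exact s
    · exact t
  let b := basisOfLinearIndependentOfCardEqFinrank hli (by simp [hdim])
  have hb : φ = 0 := by
    apply b.ext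
    intro i
    rw [coe_basisOfLinearIndependentOfCardEqFinrank]
    fin_cases i
    · simpa using h1
    · simpa using h2
    · simpa using h3
    · simpa using h4
  rw [hb]
  rfl

theorem n2a [FiniteDimensional ℂ E] (hdim : finrank ℂ E = 4) (T : E →ₗ[ℂ] E →ₗ[ℂ] E →ₗ[ℂ] ℂ)
    (h12 : ∀ x y z, T x y z = T y x z) (h23 : ∀ x y z, T x y z = T x z y)
    (hsm : ∀ x, (∀ y, T x x y = 0) → x = 0) (u v : E) (huv : LinearIndependent ℂ ![u, v])
    (h0 : ∀ s t : ℂ, T (s • u + t • v) (s • u + t • v) (s • u + t • v) = 0) :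
    ∃ f0 f1 f2 f3 : E, LinearIndependent ℂ ![f0, f1, f2, f3] ∧
      Submodule.span ℂ {f0, f3} = Submodule.span ℂ {u, v} ∧
      (∀ s t : ℂ, T (s • f0 + t • f3) (s • f0 + t • f3) (s • f0 + t • f3) = 0) ∧
      (∀ s t : ℂ, T (s • f2 + t • f3) (s • f2 + t • f3) (s • f2 + t • f3) = 0) := by
  obtain ⟨e0, e1, hind0⟩ := complete_pair hdim huv
  obtain ⟨x, y, hxy, hdet⟩ := exists_sing (T := T) u v e0 e1
  -- the vector `e` and a complement
  obtain ⟨e, e', he, hind⟩ : ∃ e e' : E, (cm T u v e).det = 0 ∧
      ∀ a b s t : ℂ, a • e + b • e' + s • u + t • v = 0 → a = 0 ∧ b = 0 ∧ s = 0 ∧ t = 0 := by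
    by_cases hy : y = 0
    · have hx : x ≠ 0 := fun hx => hxy ⟨hx, hy⟩
      refine ⟨x • e0 + y • e1, e1, hdet, ?_⟩
      intro a b s t h
      have h1 := hind0 (a * x) b s t (by
        rw [← h, hy]
        module)
      exact ⟨(mul_eq_zero.1 h1.1).resolve_right hx, h1.2⟩
    · refine ⟨x • e0 + y • e1, e0, hdet, ?_⟩
      intro a b s t h
      obtain ⟨h1, h2, h3⟩ := hind0 (a * x + b) (a * y) s t (by
        rw [← h]
        module)
      have ha : a = 0 := (mul_eq_zero.1 h2).resolve_right hy
      rw [ha] at h1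
      exact ⟨ha, by simpa using h1, h3⟩
  obtain ⟨k, y', hky, hiso⟩ := iso2 (cm_symm u v e) he
  obtain ⟨l1, l2, l3, l4⟩ := line_vals h12 h23 h0
  -- the isotropic space is not the line itself
  have hne : ¬ (k 2 = 0 ∧ y' 2 = 0) := by
    rintro ⟨hk2, hy2⟩
    set δ := k 0 * y' 1 - k 1 * y' 0 with hδ
    have hδ0 : δ ≠ 0 := by
      intro hδ0
      have c1 : y' 1 • k + (-(k 1)) • y' = 0 := by
        funext i
        fin_cases i
        · simp; linear_combination hδ0 - hδ
        · simp; ring
        · simp [hk2, hy2]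
      have c2 : (-(y' 0)) • k + k 0 • y' = 0 := by
        funext i
        fin_cases i
        · simp; ring
        · simp; linear_combination hδ0 - hδ
        · simp [hk2, hy2]
      have d1 := hky _ _ c1
      have d2 := hky _ _ c2
      have : k = 0 := by
        funext i
        fin_cases i
        · exact d2.2
        · have := d1.2
          simpa using this
        · exact hk2
      have := (hky 1 0 (by rw [this]; simp)).1
      exact one_ne_zero this
    have hval : ∀ s t : ℂ, T e u u * (s * k 0 + t * y' 0) ^ 2 +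
        2 * T e u v * (s * k 0 + t * y' 0) * (s * k 1 + t * y' 1) +
        T e v v * (s * k 1 + t * y' 1) ^ 2 = 0 := by
      intro s t
      have h := hiso s t
      simp [bq, cm, Matrix.mulVec, dotProduct, Fin.sum_univ_three, hk2, hy2] at h
      linear_combination h
    have hA : T e u u = 0 := by
      have h := hval (y' 1) (-(k 1))
      have h2 : T e u u * δ ^ 2 = 0 := by
        rw [hδ]
        linear_combination h
      exact (mul_eq_zero.1 h2).resolve_right (pow_ne_zero _ hδ0)
    have hCc : T e v v = 0 := by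
      have h := hval (-(y' 0)) (k 0)
      have h2 : T e v v * δ ^ 2 = 0 := by
        rw [hδ]
        linear_combination h
      exact (mul_eq_zero.1 h2).resolve_right (pow_ne_zero _ hδ0)
    have hBb : T e u v = 0 := by
      have h := hval (y' 1 - y' 0) (k 0 - k 1)
      rw [hA, hCc] at h
      have h2 : T e u v * (2 * δ ^ 2) = 0 := by
        rw [hδ]
        linear_combination h
      exact (mul_eq_zero.1 h2).resolve_right (mul_ne_zero two_ne_zero (pow_ne_zero _ hδ0))
    obtain ⟨a, b, hab, hz⟩ := bin_quad (T u u e') (T u v e') (T v v e')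
    apply hab
    have hz0 : a • u + b • v = 0 := by
      apply hsm
      intro w
      have e2 : T u u e = T e u u := by rw [h23, h12]
      have e6 : T v v e = T e v v := by rw [h23, h12]
      have e12 : T u v e = T e u v := by rw [h23, h12]
      refine func_zero hdim hind (T (a • u + b • v) (a • u + b • v)) ?_ ?_ ?_ ?_ w
      · simp only [map_add, map_smul, LinearMap.add_apply, LinearMap.smul_apply, smul_eq_mul]
        rw [h12 v u e, e2, e6, e12, hA, hBb, hCc]
        ring
      · simp only [map_add, map_smul, LinearMap.add_apply, LinearMap.smul_apply, smul_eq_mul]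
        rw [h12 v u e']
        linear_combination hz
      · simp only [map_add, map_smul, LinearMap.add_apply, LinearMap.smul_apply, smul_eq_mul]
        rw [h12 v u u, h23 u v u, h23 v v u, h12 v u v, l1, l2, l3]
        ring
      · simp only [map_add, map_smul, LinearMap.add_apply, LinearMap.smul_apply, smul_eq_mul]
        rw [h12 v u v, l2, l3, l4]
        ring
    have := hind 0 0 a b (by rw [zero_smul, zero_smul, zero_add, zero_add]; exact hz0)
    exact this.2.2
  -- `κ` in the line, `η` outside
  set κ : Fin 3 → ℂ := y' 2 • k + (-(k 2)) • y' with hκ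
  have hκ2 : κ 2 = 0 := by
    rw [hκ]
    simp
    ring
  have hκ0 : ¬ (κ 0 = 0 ∧ κ 1 = 0) := by
    rintro ⟨h1, h2⟩
    have h3 : κ = 0 := by
      funext i
      fin_cases i
      · exact h1
      · exact h2
      · exact hκ2
    have h4 := hky _ _ h3
    exact hne ⟨by simpa using h4.2, h4.1⟩
  obtain ⟨p, q, hpq⟩ : ∃ p q : ℂ, (p • k + q • y') 2 ≠ 0 := by
    by_cases hk2 : k 2 = 0
    · exact ⟨0, 1, by simpa using fun h => hne ⟨hk2, h⟩⟩
    · exact ⟨1, 0, by simpa using hk2⟩
  set η : Fin 3 → ℂ := p • k + q • y' with hη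
  have hf3 : yv u v e κ = κ 0 • u + κ 1 • v := by
    rw [yv, hκ2, zero_smul, zero_add]
  -- a second vector of the line
  obtain ⟨a, b, hab⟩ : ∃ a b : ℂ, κ 0 * b - κ 1 * a ≠ 0 := by
    by_cases hk : κ 0 = 0
    · exact ⟨1, 0, by simpa using fun h => hκ0 ⟨hk, h⟩⟩
    · exact ⟨0, 1, by simpa using hk⟩
  refine ⟨a • u + b • v, e', yv u v e η, yv u v e κ, ?_, ?_, ?_, ?_⟩
  · rw [Fintype.linearIndependent_iff]
    intro g hg
    rw [Fin.sum_univ_four] at hg
    simp only [Matrix.cons_val] at hg
    obtain ⟨g1, g2, g3, g4⟩ := hind (g 2 * η 2) (g 1) (g 0 * a + g 2 * η 0 + g 3 * κ 0)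
      (g 0 * b + g 2 * η 1 + g 3 * κ 1) (by
        rw [← hg, hf3, yv]
        module)
    have c2 : g 2 = 0 := (mul_eq_zero.1 g1).resolve_right hpq
    rw [c2] at g3 g4
    have c0 : g 0 = 0 := by
      have : g 0 * (κ 0 * b - κ 1 * a) = 0 := by linear_combination κ 0 * g4 - κ 1 * g3
      exact (mul_eq_zero.1 this).resolve_right hab
    have c3 : g 3 = 0 := by
      have : g 3 * (κ 0 * b - κ 1 * a) = 0 := by linear_combination b * g3 - a * g4
      exact (mul_eq_zero.1 this).resolve_right hab
    intro i
    fin_cases i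
    · exact c0
    · exact g2
    · exact c2
    · exact c3
  · rw [hf3]
    apply le_antisymm
    · rw [Submodule.span_le]
      intro z hz
      rcases hz with rfl | hz
      · exact Submodule.add_mem _ (Submodule.smul_mem _ _ (Submodule.subset_span (by simp)))
          (Submodule.smul_mem _ _ (Submodule.subset_span (by simp)))
      · rw [Set.mem_singleton_iff.1 hz]
        exact Submodule.add_mem _ (Submodule.smul_mem _ _ (Submodule.subset_span (by simp)))
          (Submodule.smul_mem _ _ (Submodule.subset_span (by simp)))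
    · have hu : u = (-(κ 1) / (κ 0 * b - κ 1 * a)) • (a • u + b • v)
          + (b / (κ 0 * b - κ 1 * a)) • (κ 0 • u + κ 1 • v) := by
        have : (-(κ 1) / (κ 0 * b - κ 1 * a)) • (a • u + b • v)
          + (b / (κ 0 * b - κ 1 * a)) • (κ 0 • u + κ 1 • v) =
          ((κ 0 * b - κ 1 * a) / (κ 0 * b - κ 1 * a)) • u := by module
        rw [this, div_self hab, one_smul]
      have hv : v = (κ 0 / (κ 0 * b - κ 1 * a)) • (a • u + b • v)
          + (-a / (κ 0 * b - κ 1 * a)) • (κ 0 • u + κ 1 • v) := by
        have : (κ 0 / (κ 0 * b - κ 1 * a)) • (a • u + b • v)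
          + (-a / (κ 0 * b - κ 1 * a)) • (κ 0 • u + κ 1 • v) =
          ((κ 0 * b - κ 1 * a) / (κ 0 * b - κ 1 * a)) • v := by module
        rw [this, div_self hab, one_smul]
      rw [Submodule.span_le]
      intro z hz
      have key : ∀ r s : ℂ, r • (a • u + b • v) + s • (κ 0 • u + κ 1 • v) ∈
          Submodule.span ℂ {a • u + b • v, κ 0 • u + κ 1 • v} := by
        intro r s
        exact Submodule.add_mem _ (Submodule.smul_mem _ _ (Submodule.subset_span (by simp)))
          (Submodule.smul_mem _ _ (Submodule.subset_span (by simp)))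
      rcases hz with rfl | hz
      · have := key (-(κ 1) / (κ 0 * b - κ 1 * a)) (b / (κ 0 * b - κ 1 * a))
        rw [← hu] at this
        exact this
      · rw [Set.mem_singleton_iff.1 hz]
        have := key (κ 0 / (κ 0 * b - κ 1 * a)) (-a / (κ 0 * b - κ 1 * a))
        rw [← hv] at this
        exact this
  · intro s t
    rw [hf3]
    have e3 : s • (a • u + b • v) + t • (κ 0 • u + κ 1 • v) =
        (s * a + t * κ 0) • u + (s * b + t * κ 1) • v := by module
    rw [e3]
    exact h0 _ _
  · intro s t
    rw [yv_lin, yv_val h12 h23 h0]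
    have e3 : s • η + t • κ = (s * p + t * y' 2) • k + (s * q + t * (-(k 2))) • y' := by
      rw [hη, hκ]
      module
    rw [e3, hiso, mul_zero]

end P287H468
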