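import Mathlib
import Vale.Agent.P287.H468.Gl2

set_option autoImplicit false
set_option linter.all false

/-!
A smooth cubic surface with two lines meeting in a point contains a line skew to the first one.
-/

namespace P287H468
open Module Polynomial

/-- the line component of a degenerate conic, by completing the square -/
theorem n2b_alg (A B C D E F : ℂ) (hC : C ≠ 0)
    (hdet : 4 * (A * C - B ^ 2) * F - 3 * A * E ^ 2 + 6 * B * D * E - 3 * C * D ^ 2 = 0) :
    ∃ b1 b2 : ℂ, C * b1 ^ 2 + 2 * B * b1 + A = 0 ∧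
      2 * C * b1 * b2 + 2 * B * b2 + E * b1 + D = 0 ∧
      3 * C * b2 ^ 2 + 3 * E * b2 + F = 0 := by
  obtain ⟨u, hu⟩ := IsAlgClosed.exists_pow_nat_eq (B ^ 2 - A * C) (n := 2) (by norm_num)
  obtain ⟨v, hv⟩ := IsAlgClosed.exists_pow_nat_eq (E ^ 2 / 4 - C * F / 3) (n := 2) (by norm_num)
  have key : ∃ v : ℂ, v ^ 2 = E ^ 2 / 4 - C * F / 3 ∧ u * v = (B * E - C * D) / 2 := by
    have h1 : (u * v - (B * E - C * D) / 2) * (u * v + (B * E - C * D) / 2) = 0 := by
      have h2 : u ^ 2 * v ^ 2 = (B ^ 2 - A * C) * (E ^ 2 / 4 - C * F / 3) := by rw [hu, hv]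
      linear_combination h2 + (C / 12) * hdet
    rcases mul_eq_zero.1 h1 with h | h
    · exact ⟨v, hv, by linear_combination h⟩
    · exact ⟨-v, by linear_combination hv, by linear_combination -h⟩
  obtain ⟨w, hw, huw⟩ := key
  refine ⟨(-B + u) / C, (-(E / 2) + w) / C, ?_, ?_, ?_⟩
  · field_simp
    linear_combination hu
  · field_simp
    linear_combination 2 * huw
  · field_simp
    linear_combination 12 * hw

theorem n2b_quartic (c4 c3 c2 c1 c0 : ℂ) (h : c4 ≠ 0) :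
    ∃ x : ℂ, c4 * x ^ 4 + c3 * x ^ 3 + c2 * x ^ 2 + c1 * x + c0 = 0 := by
  have hd : (C c4 * X ^ 4 + C c3 * X ^ 3 + C c2 * X ^ 2 + C c1 * X + C c0 : ℂ[X]).degree = 4 := by
    compute_degree!
  obtain ⟨x, hx⟩ := IsAlgClosed.exists_root
    (C c4 * X ^ 4 + C c3 * X ^ 3 + C c2 * X ^ 2 + C c1 * X + C c0 : ℂ[X]) (by rw [hd]; norm_num)
  refine ⟨x, ?_⟩
  simpa [IsRoot.def] using hx

/-- a degenerate member of the pencil of conics -/
theorem n2b_lam (p p' q q' c d2 d1 d0 e1 e0 g2 g1 g0 : ℂ)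
    (h : 4 * q ^ 2 * g2 - 4 * q * d2 * e1 + c * d2 ^ 2 ≠ 0) :
    ∃ l : ℂ, 4 * ((l * p + p') * c - (l * q + q') ^ 2) * (3 * l ^ 2 * g2 + 3 * l * g1 + g0)
      - 3 * (l * p + p') * (2 * l * e1 + e0) ^ 2
      + 6 * (l * q + q') * (l ^ 2 * d2 + 2 * l * d1 + d0) * (2 * l * e1 + e0)
      - 3 * c * (l ^ 2 * d2 + 2 * l * d1 + d0) ^ 2 = 0 := by
  obtain ⟨l, hl⟩ := n2b_quartic (-3 * (4 * q ^ 2 * g2 - 4 * q * d2 * e1 + c * d2 ^ 2))
    (4 * (-q ^ 2 * (3 * g1) + (p * c - 2 * q * q') * (3 * g2)) - 3 * p * (4 * e1 ^ 2)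
      + 6 * (q * (d2 * e0 + 4 * d1 * e1) + q' * (2 * d2 * e1)) - 3 * c * (4 * d2 * d1))
    (4 * (-q ^ 2 * g0 + (p * c - 2 * q * q') * (3 * g1) + (p' * c - q' ^ 2) * (3 * g2))
      - 3 * (p * (4 * e1 * e0) + p' * (4 * e1 ^ 2))
      + 6 * (q * (2 * d1 * e0 + 2 * d0 * e1) + q' * (d2 * e0 + 4 * d1 * e1))
      - 3 * c * (4 * d1 ^ 2 + 2 * d2 * d0))
    (4 * ((p * c - 2 * q * q') * g0 + (p' * c - q' ^ 2) * (3 * g1))
      - 3 * (p * e0 ^ 2 + p' * (4 * e1 * e0))
      + 6 * (q * (d0 * e0) + q' * (2 * d1 * e0 + 2 * d0 * e1)) - 3 * c * (4 * d1 * d0))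
    (4 * (p' * c - q' ^ 2) * g0 - 3 * p' * e0 ^ 2 + 6 * q' * (d0 * e0) - 3 * c * d0 ^ 2)
    (by
      intro h0
      apply h
      linear_combination (-1 / 3) * h0)
  refine ⟨l, ?_⟩
  linear_combination hl

section
variable {E : Type} [AddCommGroup E] [Module ℂ E] {T : E →ₗ[ℂ] E →ₗ[ℂ] E →ₗ[ℂ] ℂ}

theorem n2b_sym13 (h12 : ∀ x y z, T x y z = T y x z) (h23 : ∀ x y z, T x y z = T x z y)
    (x y z : E) : T x y z = T z y x := by
  rw [h23 x y z, h12 x z y, h23 z x y]

/-- the cube of a combination of two vectors -/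
theorem n2b_cube (h12 : ∀ x y z, T x y z = T y x z) (h23 : ∀ x y z, T x y z = T x z y)
    (x y : E) (s t : ℂ) : T (s • x + t • y) (s • x + t • y) (s • x + t • y) =
      s ^ 3 * T x x x + 3 * s ^ 2 * t * T x x y + 3 * s * t ^ 2 * T x y y + t ^ 3 * T y y y := by
  simp only [map_add, map_smul, LinearMap.add_apply, LinearMap.smul_apply, smul_eq_mul]
  rw [h23 x y x, h12 y x x, h23 x y x, h12 y x y, n2b_sym13 h12 h23 y y x]
  ring

/-- a cubic vanishing on the span of two vectors -/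
theorem n2b_coef (h12 : ∀ x y z, T x y z = T y x z) (h23 : ∀ x y z, T x y z = T x z y)
    {x y : E} (h0 : ∀ s t : ℂ, T (s • x + t • y) (s • x + t • y) (s • x + t • y) = 0) :
    T x x x = 0 ∧ T x x y = 0 ∧ T x y y = 0 ∧ T y y y = 0 := by
  have e1 := h0 1 0
  have e2 := h0 0 1
  have e3 := h0 1 1
  have e4 := h0 1 (-1)
  rw [n2b_cube h12 h23] at e1 e2 e3 e4
  have a1 : T x x x = 0 := by linear_combination e1
  have a2 : T y y y = 0 := by linear_combination e2
  refine ⟨a1, ?_, ?_, a2⟩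
  · linear_combination (1 / 6) * e3 - (1 / 6) * e4 - (1 / 3) * a2
  · linear_combination (1 / 6) * e3 + (1 / 6) * e4 - (1 / 3) * a1

end

section
variable {E : Type} [AddCommGroup E] [Module ℂ E] {T : E →ₗ[ℂ] E →ₗ[ℂ] E →ₗ[ℂ] ℂ}

theorem n2b_smooth [FiniteDimensional ℂ E] (hdim : finrank ℂ E = 4)
    (hsm : ∀ x, (∀ y, T x x y = 0) → x = 0) {f0 f1 f2 f3 : E}
    (hf : LinearIndependent ℂ ![f0, f1, f2, f3]) {x : E} (h0 : T x x f0 = 0)
    (h1 : T x x f1 = 0) (h2 : T x x f2 = 0) (h3 : T x x f3 = 0) : x = 0 := by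
  have hspan := hf.span_eq_top_of_card_eq_finrank (by rw [hdim]; rfl)
  apply hsm
  have h : T x x = 0 := by
    apply LinearMap.ext_on hspan
    rintro y ⟨i, rfl⟩
    fin_cases i
    · simpa using h0
    · simpa using h1
    · simpa using h2
    · simpa using h3
  intro y
  rw [h]
  rfl

theorem n2b [FiniteDimensional ℂ E] (hdim : finrank ℂ E = 4)
    (h12 : ∀ x y z, T x y z = T y x z) (h23 : ∀ x y z, T x y z = T x z y)
    (hsm : ∀ x, (∀ y, T x x y = 0) → x = 0) {f0 f1 f2 f3 : E}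
    (hf : LinearIndependent ℂ ![f0, f1, f2, f3])
    (h03 : ∀ s t : ℂ, T (s • f0 + t • f3) (s • f0 + t • f3) (s • f0 + t • f3) = 0)
    (h2333 : ∀ s t : ℂ, T (s • f2 + t • f3) (s • f2 + t • f3) (s • f2 + t • f3) = 0) :
    ∃ y1 y2 : E, LinearIndependent ℂ ![f0, f3, y1, y2] ∧
      ∀ s t : ℂ, T (s • y1 + t • y2) (s • y1 + t • y2) (s • y1 + t • y2) = 0 := by
  obtain ⟨t000, t003, t033, t333⟩ := n2b_coef h12 h23 h03
  obtain ⟨t222, t223, t233, -⟩ := n2b_coef h12 h23 h2333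
  have r010 : T f0 f1 f0 = T f0 f0 f1 := h23 f0 f1 f0
  have r020 : T f0 f2 f0 = T f0 f0 f2 := h23 f0 f2 f0
  have r021 : T f0 f2 f1 = T f0 f1 f2 := h23 f0 f2 f1
  have r030 : T f0 f3 f0 = T f0 f0 f3 := h23 f0 f3 f0
  have r031 : T f0 f3 f1 = T f0 f1 f3 := h23 f0 f3 f1
  have r032 : T f0 f3 f2 = T f0 f2 f3 := h23 f0 f3 f2
  have r100 : T f1 f0 f0 = T f0 f0 f1 := (h12 f1 f0 f0).trans (h23 f0 f1 f0)
  have r101 : T f1 f0 f1 = T f0 f1 f1 := h12 f1 f0 f1
  have r102 : T f1 f0 f2 = T f0 f1 f2 := h12 f1 f0 f2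
  have r103 : T f1 f0 f3 = T f0 f1 f3 := h12 f1 f0 f3
  have r110 : T f1 f1 f0 = T f0 f1 f1 := (h23 f1 f1 f0).trans (h12 f1 f0 f1)
  have r120 : T f1 f2 f0 = T f0 f1 f2 := (h23 f1 f2 f0).trans (h12 f1 f0 f2)
  have r121 : T f1 f2 f1 = T f1 f1 f2 := h23 f1 f2 f1
  have r130 : T f1 f3 f0 = T f0 f1 f3 := (h23 f1 f3 f0).trans (h12 f1 f0 f3)
  have r131 : T f1 f3 f1 = T f1 f1 f3 := h23 f1 f3 f1
  have r132 : T f1 f3 f2 = T f1 f2 f3 := h23 f1 f3 f2
  have r200 : T f2 f0 f0 = T f0 f0 f2 := (h12 f2 f0 f0).trans (h23 f0 f2 f0)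
  have r201 : T f2 f0 f1 = T f0 f1 f2 := (h12 f2 f0 f1).trans (h23 f0 f2 f1)
  have r202 : T f2 f0 f2 = T f0 f2 f2 := h12 f2 f0 f2
  have r203 : T f2 f0 f3 = T f0 f2 f3 := h12 f2 f0 f3
  have r210 : T f2 f1 f0 = T f0 f1 f2 := n2b_sym13 h12 h23 _ _ _
  have r211 : T f2 f1 f1 = T f1 f1 f2 := (h12 f2 f1 f1).trans (h23 f1 f2 f1)
  have r212 : T f2 f1 f2 = T f1 f2 f2 := h12 f2 f1 f2
  have r213 : T f2 f1 f3 = T f1 f2 f3 := h12 f2 f1 f3
  have r220 : T f2 f2 f0 = T f0 f2 f2 := (h23 f2 f2 f0).trans (h12 f2 f0 f2)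
  have r221 : T f2 f2 f1 = T f1 f2 f2 := (h23 f2 f2 f1).trans (h12 f2 f1 f2)
  have r230 : T f2 f3 f0 = T f0 f2 f3 := (h23 f2 f3 f0).trans (h12 f2 f0 f3)
  have r231 : T f2 f3 f1 = T f1 f2 f3 := (h23 f2 f3 f1).trans (h12 f2 f1 f3)
  have r232 : T f2 f3 f2 = T f2 f2 f3 := h23 f2 f3 f2
  have r300 : T f3 f0 f0 = T f0 f0 f3 := (h12 f3 f0 f0).trans (h23 f0 f3 f0)
  have r301 : T f3 f0 f1 = T f0 f1 f3 := (h12 f3 f0 f1).trans (h23 f0 f3 f1)
  have r302 : T f3 f0 f2 = T f0 f2 f3 := (h12 f3 f0 f2).trans (h23 f0 f3 f2)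
  have r303 : T f3 f0 f3 = T f0 f3 f3 := h12 f3 f0 f3
  have r310 : T f3 f1 f0 = T f0 f1 f3 := n2b_sym13 h12 h23 _ _ _
  have r311 : T f3 f1 f1 = T f1 f1 f3 := (h12 f3 f1 f1).trans (h23 f1 f3 f1)
  have r312 : T f3 f1 f2 = T f1 f2 f3 := (h12 f3 f1 f2).trans (h23 f1 f3 f2)
  have r313 : T f3 f1 f3 = T f1 f3 f3 := h12 f3 f1 f3
  have r320 : T f3 f2 f0 = T f0 f2 f3 := n2b_sym13 h12 h23 _ _ _
  have r321 : T f3 f2 f1 = T f1 f2 f3 := n2b_sym13 h12 h23 _ _ _
  have r322 : T f3 f2 f2 = T f2 f2 f3 := (h12 f3 f2 f2).trans (h23 f2 f3 f2)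
  have r323 : T f3 f2 f3 = T f2 f3 f3 := h12 f3 f2 f3
  have r330 : T f3 f3 f0 = T f0 f3 f3 := (h23 f3 f3 f0).trans (h12 f3 f0 f3)
  have r331 : T f3 f3 f1 = T f1 f3 f3 := (h23 f3 f3 f1).trans (h12 f3 f1 f3)
  have r332 : T f3 f3 f2 = T f2 f3 f3 := (h23 f3 f3 f2).trans (h12 f3 f2 f3)
  have hfi := Fintype.linearIndependent_iff.1 hf
  have hc : T f1 f3 f3 ≠ 0 := by
    intro h
    have h3 : f3 = 0 := n2b_smooth hdim hsm hf (by rw [r330, t033]) (by rw [r331, h])
      (by rw [r332, t233]) t333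
    exact hf.ne_zero 3 (by simpa using h3)
  have hsp : ∀ s t : ℂ, s ^ 2 * T f0 f0 f2 + 2 * s * t * T f0 f2 f3 = 0 →
      s ^ 2 * T f0 f0 f1 + 2 * s * t * T f0 f1 f3 + t ^ 2 * T f1 f3 f3 = 0 → s = 0 ∧ t = 0 := by
    intro s t e2 e1
    have hx : s • f0 + t • f3 = 0 := by
      apply n2b_smooth hdim hsm hf
      · simp only [map_add, map_smul, LinearMap.add_apply, LinearMap.smul_apply, smul_eq_mul,
          r010, r020, r021, r030, r031, r032, r100, r101, r102, r103, r110, r120,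
          r121, r130, r131, r132, r200, r201, r202, r203, r210, r211, r212, r213,
          r220, r221, r230, r231, r232, r300, r301, r302, r303, r310, r311, r312,
          r313, r320, r321, r322, r323, r330, r331, r332]
        rw [t000, t003, t033]
        ring
      · simp only [map_add, map_smul, LinearMap.add_apply, LinearMap.smul_apply, smul_eq_mul,
          r010, r020, r021, r030, r031, r032, r100, r101, r102, r103, r110, r120,
          r121, r130, r131, r132, r200, r201, r202, r203, r210, r211, r212, r213,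
          r220, r221, r230, r231, r232, r300, r301, r302, r303, r310, r311, r312,
          r313, r320, r321, r322, r323, r330, r331, r332]
        linear_combination e1
      · simp only [map_add, map_smul, LinearMap.add_apply, LinearMap.smul_apply, smul_eq_mul,
          r010, r020, r021, r030, r031, r032, r100, r101, r102, r103, r110, r120,
          r121, r130, r131, r132, r200, r201, r202, r203, r210, r211, r212, r213,
          r220, r221, r230, r231, r232, r300, r301, r302, r303, r310, r311, r312,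
          r313, r320, r321, r322, r323, r330, r331, r332]
        rw [t233]
        linear_combination e2
      · simp only [map_add, map_smul, LinearMap.add_apply, LinearMap.smul_apply, smul_eq_mul,
          r010, r020, r021, r030, r031, r032, r100, r101, r102, r103, r110, r120,
          r121, r130, r131, r132, r200, r201, r202, r203, r210, r211, r212, r213,
          r220, r221, r230, r231, r232, r300, r301, r302, r303, r310, r311, r312,
          r313, r320, r321, r322, r323, r330, r331, r332]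
        rw [t333, t003, t033]
        ring
    have h4 := hfi ![s, 0, 0, t] (by
      rw [Fin.sum_univ_four]
      simpa using hx)
    exact ⟨by simpa using h4 0, by simpa using h4 3⟩
  have hqd : ¬ (T f0 f2 f3 = 0 ∧ T f0 f0 f2 = 0) := by
    rintro ⟨hq, hd⟩
    obtain ⟨w, hw⟩ := IsAlgClosed.exists_pow_nat_eq
      ((T f0 f1 f3) ^ 2 - T f1 f3 f3 * T f0 f0 f1) (n := 2) (by norm_num)
    have h5 := hsp 1 ((-(T f0 f1 f3) + w) / T f1 f3 f3) (by rw [hq, hd]; ring) (by
      field_simp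
      linear_combination hw)
    exact one_ne_zero h5.1
  have hlead : 4 * (T f0 f2 f3) ^ 2 * T f0 f0 f1 - 4 * T f0 f2 f3 * T f0 f0 f2 * T f0 f1 f3
      + T f1 f3 f3 * (T f0 f0 f2) ^ 2 ≠ 0 := by
    intro h
    obtain ⟨h6, h7⟩ := hsp (2 * T f0 f2 f3) (-T f0 f0 f2) (by ring) (by linear_combination h)
    apply hqd
    exact ⟨by linear_combination (1 / 2) * h6, by linear_combination -h7⟩
  obtain ⟨l, hl⟩ := n2b_lam (T f0 f2 f2) (T f1 f2 f2) (T f0 f2 f3) (T f1 f2 f3) (T f1 f3 f3)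
    (T f0 f0 f2) (T f0 f1 f2) (T f1 f1 f2) (T f0 f1 f3) (T f1 f1 f3) (T f0 f0 f1) (T f0 f1 f1)
    (T f1 f1 f1) hlead
  obtain ⟨b1, b2, k1, k2, k3⟩ := n2b_alg (l * T f0 f2 f2 + T f1 f2 f2)
    (l * T f0 f2 f3 + T f1 f2 f3) (T f1 f3 f3)
    (l ^ 2 * T f0 f0 f2 + 2 * l * T f0 f1 f2 + T f1 f1 f2) (2 * l * T f0 f1 f3 + T f1 f1 f3)
    (3 * l ^ 2 * T f0 f0 f1 + 3 * l * T f0 f1 f1 + T f1 f1 f1) hc (by linear_combination hl)
  refine ⟨f2 + b1 • f3, l • f0 + f1 + b2 • f3, ?_, ?_⟩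
  · rw [Fintype.linearIndependent_iff]
    intro g hg
    rw [Fin.sum_univ_four] at hg
    have h8 := hfi ![g 0 + l * g 3, g 3, g 2, g 1 + g 2 * b1 + g 3 * b2] (by
      rw [Fin.sum_univ_four]
      simp only [Matrix.cons_val_zero, Matrix.cons_val_one, Matrix.cons_val] at hg ⊢
      rw [← hg]
      module)
    have g3 : g 3 = 0 := by simpa using h8 1
    have g2 : g 2 = 0 := by simpa using h8 2
    have g0 : g 0 = 0 := by simpa [g3] using h8 0
    have g1 : g 1 = 0 := by simpa [g3, g2] using h8 3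
    intro i
    fin_cases i
    · exact g0
    · exact g1
    · exact g2
    · exact g3
  · intro s t
    rw [n2b_cube h12 h23]
    have m1 : T (f2 + b1 • f3) (f2 + b1 • f3) (f2 + b1 • f3) = 0 := by
      simpa using h2333 1 b1
    have m2 : T (f2 + b1 • f3) (f2 + b1 • f3) (l • f0 + f1 + b2 • f3) = 0 := by
      simp only [map_add, map_smul, LinearMap.add_apply, LinearMap.smul_apply, smul_eq_mul,
        r010, r020, r021, r030, r031, r032, r100, r101, r102, r103, r110, r120,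
          r121, r130, r131, r132, r200, r201, r202, r203, r210, r211, r212, r213,
          r220, r221, r230, r231, r232, r300, r301, r302, r303, r310, r311, r312,
          r313, r320, r321, r322, r323, r330, r331, r332]
      rw [t333, t033, t233, t223]
      linear_combination k1
    have m3 : T (f2 + b1 • f3) (l • f0 + f1 + b2 • f3) (l • f0 + f1 + b2 • f3) = 0 := by
      simp only [map_add, map_smul, LinearMap.add_apply, LinearMap.smul_apply, smul_eq_mul,
        r010, r020, r021, r030, r031, r032, r100, r101, r102, r103, r110, r120,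
          r121, r130, r131, r132, r200, r201, r202, r203, r210, r211, r212, r213,
          r220, r221, r230, r231, r232, r300, r301, r302, r303, r310, r311, r312,
          r313, r320, r321, r322, r323, r330, r331, r332]
      rw [t333, t033, t233, t003]
      linear_combination k2
    have m4 : T (l • f0 + f1 + b2 • f3) (l • f0 + f1 + b2 • f3) (l • f0 + f1 + b2 • f3) = 0 := by
      simp only [map_add, map_smul, LinearMap.add_apply, LinearMap.smul_apply, smul_eq_mul,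
        r010, r020, r021, r030, r031, r032, r100, r101, r102, r103, r110, r120,
          r121, r130, r131, r132, r200, r201, r202, r203, r210, r211, r212, r213,
          r220, r221, r230, r231, r232, r300, r301, r302, r303, r310, r311, r312,
          r313, r320, r321, r322, r323, r330, r331, r332]
      rw [t333, t033, t003, t000]
      linear_combination k3
    rw [m1, m2, m3, m4]
    ring

end

end P287H468
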