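import Mathlib
import Vale.Agent.P287.H468.Gl2
import Vale.Agent.P287.H468.N2a2
import Vale.Agent.P287.H468.N2b

set_option autoImplicit false
set_option linter.all false

/-!
For every line on a smooth cubic surface there is a line skew to it.
-/

namespace P287H468
open Module

theorem skewStmt : SkewStmt := by
  intro E _ _ _ hdim T h12 h23 hsm u v huv h0
  obtain ⟨f0, f1, f2, f3, hli, hspan, h1, h2⟩ := n2a hdim T h12 h23 hsm u v huv h0
  obtain ⟨y1, y2, hli2, h3⟩ := n2b hdim h12 h23 hsm hli h1 h2
  refine ⟨y1, y2, ?_, h3⟩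
  rw [Fintype.linearIndependent_iff] at hli2 ⊢
  intro g hg
  rw [Fin.sum_univ_four] at hg
  simp only [Matrix.cons_val] at hg
  have hmem : g 0 • u + g 1 • v ∈ Submodule.span ℂ {f0, f3} := by
    rw [hspan]
    exact Submodule.add_mem _ (Submodule.smul_mem _ _ (Submodule.subset_span (by simp)))
      (Submodule.smul_mem _ _ (Submodule.subset_span (by simp)))
  rw [Submodule.mem_span_pair] at hmem
  obtain ⟨a, b, hab⟩ := hmem
  have h4 := hli2 ![a, b, g 2, g 3] (by
    rw [Fin.sum_univ_four]
    simp only [Matrix.cons_val]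
    rw [hab, ← hg])
  have ha : a = 0 := by simpa using h4 0
  have hb : b = 0 := by simpa using h4 1
  have g2 : g 2 = 0 := by simpa using h4 2
  have g3 : g 3 = 0 := by simpa using h4 3
  rw [ha, hb, zero_smul, zero_smul, add_zero] at hab
  rw [LinearIndependent.pair_iff] at huv
  obtain ⟨g0, g1⟩ := huv (g 0) (g 1) hab.symm
  intro i
  fin_cases i
  · exact g0
  · exact g1
  · exact g2
  · exact g3

end P287H468
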