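import Mathlib
import Vale.Agent.P287.H468.Fin3
import Vale.Agent.P287.H468.Skew

set_option autoImplicit false
set_option linter.all false

/-!
The dichotomy for smooth cubic fourfolds with an anti-symplectic involution.
-/

namespace P287H468
open MvPolynomial Matrix

/-- statement of L1 -/
def L1 : Prop := ∀ {F : MvPolynomial (Fin 6) ℂ}, F.IsHomogeneous 3 → SmoothForm F →
  ∀ {A : Matrix (Fin 6) (Fin 6) ℂ}, A * A = 1 → (A - 1).rank = 1 →
  (∀ x, eval (A *ᵥ x) F = eval x F) → ∀ {p : Fin 6 → ℂ}, p ≠ 0 → A *ᵥ p = -p → EckardtPoint F p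
/-- statement of L2 -/
def L2 : Prop := ∀ {F : MvPolynomial (Fin 6) ℂ}, F.IsHomogeneous 3 → SmoothForm F →
  ∀ {p : Fin 6 → ℂ}, EckardtPoint F p → ∃ A : Matrix (Fin 6) (Fin 6) ℂ, A * A = 1 ∧
    A.det = -1 ∧ (A - 1).rank = 1 ∧ (∀ x, eval (A *ᵥ x) F = eval x F) ∧ A *ᵥ p = -p
/-- statement of L3 -/
def L3 : Prop := ∀ {F : MvPolynomial (Fin 6) ℂ}, F.IsHomogeneous 3 → SmoothForm F →
  ∀ {A A' : Matrix (Fin 6) (Fin 6) ℂ}, A * A = 1 → (A - 1).rank = 1 →
  (∀ x, eval (A *ᵥ x) F = eval x F) → A' * A' = 1 → (A' - 1).rank = 1 →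
  (∀ x, eval (A' *ᵥ x) F = eval x F) → ∀ {p : Fin 6 → ℂ}, p ≠ 0 → A *ᵥ p = -p →
  A' *ᵥ p = -p → A = A'

section
variable {F : MvPolynomial (Fin 6) ℂ} (hF : F.IsHomogeneous 3)
include hF

theorem unique_point (hsm : SmoothForm F) (hnr : ¬ RationalForm F) {p : Fin 6 → ℂ}
    (hp : EckardtPoint F p) (q : Fin 6 → ℂ) (hq : EckardtPoint F q) : ∃ r : ℂ, q = r • p := by
  by_contra hcon
  push Not at hcon
  apply hnr
  refine rational_two_eckardt hF skewStmt hsm hp hq ?_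
  rw [LinearIndependent.pair_iff' hp.1]
  intro a h
  exact hcon a h.symm

theorem planes_through (hsm : SmoothForm F) (hnr : ¬ RationalForm F) {p : Fin 6 → ℂ}
    (hp : EckardtPoint F p) (W : Submodule ℂ (Fin 6 → ℂ)) (hW : Module.finrank ℂ W = 3)
    (h0 : ∀ x ∈ W, eval x F = 0) : p ∈ W := by
  by_contra hpW
  exact hnr (rational_eckardt_plane hF skewStmt hsm hp W hW hpW h0)

theorem unique_inv (l1 : L1) (l3 : L3) (hsm : SmoothForm F) (hnr : ¬ RationalForm F)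
    {A : Matrix (Fin 6) (Fin 6) ℂ} (hA : A * A = 1) (hd : A.det = -1) (hr : (A - 1).rank = 1)
    (hinv : ∀ x, eval (A *ᵥ x) F = eval x F) {p : Fin 6 → ℂ} (hp : EckardtPoint F p)
    (hAp : A *ᵥ p = -p) (B : Matrix (Fin 6) (Fin 6) ℂ) (hB : B * B = 1)
    (hiB : ∀ x, eval (B *ᵥ x) F = eval x F) : B = 1 ∨ B = A := by
  by_contra hcon
  push Not at hcon
  obtain ⟨hB1, hBA⟩ := hcon
  apply hnr
  by_cases hc : A * B = B * A
  · exact rational_commuting hF hsm A B hA hB hc hBA.symm hB1 hd hinv hiB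
  exfalso
  apply hc
  set A' := B * A * B with hA'
  have hBdet : IsUnit B := ⟨⟨B, B, hB, hB⟩, rfl⟩
  have h1 : A' * A' = 1 := by
    calc A' * A' = B * A * (B * B) * A * B := by rw [hA']; noncomm_ring
      _ = B * (A * A) * B := by rw [hB]; noncomm_ring
      _ = 1 := by rw [hA, mul_one, hB]
  have h2 : (A' - 1).rank = 1 := by
    have e : A' - 1 = B * (A - 1) * B := by
      rw [hA', mul_sub, sub_mul, mul_one, hB]
    have hBu : IsUnit B.det := (Matrix.isUnit_iff_isUnit_det B).1 hBdet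
    rw [e, Matrix.rank_mul_eq_left_of_isUnit_det B _ hBu,
      Matrix.rank_mul_eq_right_of_isUnit_det B _ hBu, hr]
  have h3 : ∀ x, eval (A' *ᵥ x) F = eval x F := by
    intro x
    rw [hA', ← Matrix.mulVec_mulVec, ← Matrix.mulVec_mulVec, hiB, hinv, hiB]
  have hBp0 : B *ᵥ p ≠ 0 := by
    intro h
    apply hp.1
    have : B *ᵥ (B *ᵥ p) = p := by rw [Matrix.mulVec_mulVec, hB, Matrix.one_mulVec]
    rw [← this, h, Matrix.mulVec_zero]
  have h4 : A' *ᵥ (B *ᵥ p) = -(B *ᵥ p) := by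
    rw [Matrix.mulVec_mulVec, hA']
    have : B * A * B * B = B * A := by rw [mul_assoc (B * A), hB, mul_one]
    rw [this, ← Matrix.mulVec_mulVec, hAp, Matrix.mulVec_neg]
  have h5 := l1 hF hsm h1 h2 h3 hBp0 h4
  obtain ⟨r, hr2⟩ := unique_point hF hsm hnr hp _ h5
  have hr0 : r ≠ 0 := by
    rintro rfl
    apply hBp0
    rw [hr2, zero_smul]
  have h6 : A' *ᵥ p = -p := by
    rw [hr2, Matrix.mulVec_smul, ← smul_neg] at h4
    have h7 := congrArg (fun z => r⁻¹ • z) h4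
    simp only [smul_smul, inv_mul_cancel₀ hr0, one_smul] at h7
    exact h7
  have h8 := l3 hF hsm hA hr hinv h1 h2 h3 hp.1 hAp h6
  calc A * B = B * A * B * B := by rw [← hA', ← h8]
    _ = B * A := by rw [mul_assoc (B * A), hB, mul_one]

/-- the dichotomy -/
theorem dichotomy (l1 : L1) (l2 : L2) (l3 : L3) (hsm : SmoothForm F)
    (h : (∃ A : Matrix (Fin 6) (Fin 6) ℂ, A * A = 1 ∧ A.det = -1 ∧
        ∀ x, eval (A *ᵥ x) F = eval x F) ∨ ∃ p, EckardtPoint F p) :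
    RationalForm F ∨ ∃ (p : Fin 6 → ℂ) (A : Matrix (Fin 6) (Fin 6) ℂ),
      EckardtPoint F p ∧ A * A = 1 ∧ (A - 1).rank = 1 ∧ A *ᵥ p = -p ∧
      (∀ x, eval (A *ᵥ x) F = eval x F) ∧
      (∀ q, EckardtPoint F q → ∃ r : ℂ, q = r • p) ∧
      (∀ B : Matrix (Fin 6) (Fin 6) ℂ, B * B = 1 → (∀ x, eval (B *ᵥ x) F = eval x F) →
        B = 1 ∨ B = A) ∧
      (∀ W : Submodule ℂ (Fin 6 → ℂ), Module.finrank ℂ W = 3 → (∀ x ∈ W, eval x F = 0) →
        p ∈ W) := by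
  by_cases hnr : RationalForm F
  · exact Or.inl hnr
  right
  obtain ⟨p, A, hp, hA, hd, hr, hAp, hinv⟩ : ∃ (p : Fin 6 → ℂ) (A : Matrix (Fin 6) (Fin 6) ℂ),
      EckardtPoint F p ∧ A * A = 1 ∧ A.det = -1 ∧ (A - 1).rank = 1 ∧ A *ᵥ p = -p ∧
      ∀ x, eval (A *ᵥ x) F = eval x F := by
    rcases h with ⟨A, hA, hd, hinv⟩ | ⟨p, hp⟩
    · have hr : (A - 1).rank = 1 := by
        by_contra hr
        exact hnr (rational_antisymplectic hF hsm A hA hd hr hinv)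
      obtain ⟨p, hp0, hpk⟩ : ∃ p : Fin 6 → ℂ, p ≠ 0 ∧ A *ᵥ p = -p := by
        have h1 := rank_eq_minus hA
        rw [hr] at h1
        have h2 : LinearMap.ker (Matrix.toLin' (A + 1)) ≠ ⊥ := by
          intro h0
          rw [h0, finrank_bot] at h1
          exact one_ne_zero h1
        obtain ⟨p, hp, hp0⟩ := Submodule.exists_mem_ne_zero_of_ne_bot h2
        refine ⟨p, hp0, ?_⟩
        rw [LinearMap.mem_ker, Matrix.toLin'_apply, Matrix.add_mulVec, Matrix.one_mulVec] at hp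
        exact eq_neg_of_add_eq_zero_left hp
      exact ⟨p, A, l1 hF hsm hA hr hinv hp0 hpk, hA, hd, hr, hpk, hinv⟩
    · obtain ⟨A, hA, hd, hr, hinv, hAp⟩ := l2 hF hsm hp
      exact ⟨p, A, hp, hA, hd, hr, hAp, hinv⟩
  exact ⟨p, A, hp, hA, hr, hAp, hinv, unique_point hF hsm hnr hp,
    unique_inv hF l1 l3 hsm hnr hA hd hr hinv hp hAp, planes_through hF hsm hnr hp⟩

end

end P287H468
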