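import Vale.Agent.P287.H468.Defs

set_option autoImplicit false

/-!
A smooth cubic fourfold which contains two disjoint planes is rational.
-/

namespace P287H468
open MvPolynomial

section tri
variable (a : Fin 6 → Fin 6 → Fin 6 → ℂ)

theorem Tri_add1 (x x' y z : Fin 6 → ℂ) :
    Tri a (x + x') y z = Tri a x y z + Tri a x' y z := by
  simp only [Tri, ← Finset.sum_add_distrib, Pi.add_apply]
  refine Finset.sum_congr rfl fun i _ => Finset.sum_congr rfl fun j _ =>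
    Finset.sum_congr rfl fun k _ => ?_
  ring

theorem Tri_add2 (x y y' z : Fin 6 → ℂ) :
    Tri a x (y + y') z = Tri a x y z + Tri a x y' z := by
  simp only [Tri, ← Finset.sum_add_distrib, Pi.add_apply]
  refine Finset.sum_congr rfl fun i _ => Finset.sum_congr rfl fun j _ =>
    Finset.sum_congr rfl fun k _ => ?_
  ring

theorem Tri_add3 (x y z z' : Fin 6 → ℂ) :
    Tri a x y (z + z') = Tri a x y z + Tri a x y z' := by
  simp only [Tri, ← Finset.sum_add_distrib, Pi.add_apply]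
  refine Finset.sum_congr rfl fun i _ => Finset.sum_congr rfl fun j _ =>
    Finset.sum_congr rfl fun k _ => ?_
  ring

theorem Tri_smul1 (c : ℂ) (x y z : Fin 6 → ℂ) : Tri a (c • x) y z = c * Tri a x y z := by
  simp only [Tri, Finset.mul_sum, Pi.smul_apply, smul_eq_mul]
  refine Finset.sum_congr rfl fun i _ => Finset.sum_congr rfl fun j _ =>
    Finset.sum_congr rfl fun k _ => ?_
  ring

theorem Tri_smul2 (c : ℂ) (x y z : Fin 6 → ℂ) : Tri a x (c • y) z = c * Tri a x y z := by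
  simp only [Tri, Finset.mul_sum, Pi.smul_apply, smul_eq_mul]
  refine Finset.sum_congr rfl fun i _ => Finset.sum_congr rfl fun j _ =>
    Finset.sum_congr rfl fun k _ => ?_
  ring

theorem Tri_smul3 (c : ℂ) (x y z : Fin 6 → ℂ) : Tri a x y (c • z) = c * Tri a x y z := by
  simp only [Tri, Finset.mul_sum, Pi.smul_apply, smul_eq_mul]
  refine Finset.sum_congr rfl fun i _ => Finset.sum_congr rfl fun j _ =>
    Finset.sum_congr rfl fun k _ => ?_
  ring

variable {a}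

theorem Tri_swap12 (hs : SymT a) (x y z : Fin 6 → ℂ) : Tri a x y z = Tri a y x z := by
  simp only [Tri]
  rw [Finset.sum_comm]
  refine Finset.sum_congr rfl fun i _ => Finset.sum_congr rfl fun j _ =>
    Finset.sum_congr rfl fun k _ => ?_
  rw [(hs j i k).1]
  ring

theorem Tri_swap23 (hs : SymT a) (x y z : Fin 6 → ℂ) : Tri a x y z = Tri a x z y := by
  simp only [Tri]
  refine Finset.sum_congr rfl fun i _ => ?_
  rw [Finset.sum_comm]
  refine Finset.sum_congr rfl fun j _ => Finset.sum_congr rfl fun k _ => ?_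
  rw [(hs i k j).2]
  ring

/-- polarisation -/
theorem Tri_add_all (hs : SymT a) (x y : Fin 6 → ℂ) :
    Tri a (x + y) (x + y) (x + y) =
      Tri a x x x + 3 * Tri a x x y + 3 * Tri a x y y + Tri a y y y := by
  simp only [Tri_add1, Tri_add2, Tri_add3]
  have e1 : Tri a x y x = Tri a x x y := Tri_swap23 hs x y x
  have e2 : Tri a y x x = Tri a x x y := by rw [Tri_swap12 hs y x x, e1]
  have e3 : Tri a y x y = Tri a x y y := Tri_swap12 hs y x y
  have e4 : Tri a y y x = Tri a x y y := by rw [Tri_swap23 hs y y x, e3]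
  rw [e1, e2, e3, e4]
  ring

theorem PH_Tri {ι : Type} {p q r : ℕ} {X Y Z : (ι → ℂ) → (Fin 6 → ℂ)}
    (hX : ∀ i, PH p (fun t => X t i)) (hY : ∀ i, PH q (fun t => Y t i))
    (hZ : ∀ i, PH r (fun t => Z t i)) :
    PH (p + q + r) (fun t => Tri a (X t) (Y t) (Z t)) := by
  unfold Tri
  refine PH.sum _ fun i _ => PH.sum _ fun j _ => PH.sum _ fun k _ => ?_
  exact (((hX i).cmul (a i j k)).mul (hY j)).mul (hZ k)

end tri

theorem pt_split (z : Fin 6 → ℂ) : pt (xx z) 0 + pt 0 (ww z) = z := by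
  ext i
  fin_cases i <;> simp [pt, xx, ww]

/-- polarisation of `Tri = 0` on a linear space -/
theorem Tri_polar {a : Fin 6 → Fin 6 → Fin 6 → ℂ} (hs : SymT a) {x y : Fin 6 → ℂ}
    (hx : Tri a x x x = 0) (hy : Tri a y y y = 0)
    (h1 : Tri a (x + y) (x + y) (x + y) = 0)
    (h2 : Tri a (x + (-1 : ℂ) • y) (x + (-1 : ℂ) • y) (x + (-1 : ℂ) • y) = 0) :
    Tri a x x y = 0 ∧ Tri a x y y = 0 := by
  rw [Tri_add_all hs, hx, hy] at h1
  rw [Tri_add_all hs, hx] at h2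
  simp only [Tri_smul1, Tri_smul2, Tri_smul3, hy] at h2
  constructor
  · linear_combination (1 / 6 : ℂ) * h1 - (1 / 6 : ℂ) * h2
  · linear_combination (1 / 6 : ℂ) * h1 + (1 / 6 : ℂ) * h2

/-- a smooth cubic fourfold with two disjoint planes is rational -/
theorem two_planes (a : Fin 6 → Fin 6 → Fin 6 → ℂ) (hs : SymT a) (hsm : Smo a)
    (h1 : ∀ x, Tri a (pt x 0) (pt x 0) (pt x 0) = 0)
    (h2 : ∀ w, Tri a (pt 0 w) (pt 0 w) (pt 0 w) = 0) : IsRat (fun z => Tri a z z z) := by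
  classical
  -- linear maps
  have padd1 : ∀ x y : Fin 3 → ℂ, pt x 0 + pt y 0 = pt (x + y) 0 := by
    intro x y; ext i; fin_cases i <;> simp [pt]
  have padd2 : ∀ x y : Fin 3 → ℂ, pt 0 x + pt 0 y = pt 0 (x + y) := by
    intro x y; ext i; fin_cases i <;> simp [pt]
  have psm1 : ∀ (c : ℂ) (x : Fin 3 → ℂ), c • pt x 0 = pt (c • x) 0 := by
    intro c x; ext i; fin_cases i <;> simp [pt]
  have psm2 : ∀ (c : ℂ) (x : Fin 3 → ℂ), c • pt 0 x = pt 0 (c • x) := by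
    intro c x; ext i; fin_cases i <;> simp [pt]
  have pol1 : ∀ x y : Fin 3 → ℂ, Tri a (pt x 0) (pt x 0) (pt y 0) = 0 := by
    intro x y
    refine (Tri_polar hs (h1 x) (h1 y) ?_ ?_).1
    · rw [padd1]; exact h1 _
    · rw [psm1, padd1]; exact h1 _
  have pol2 : ∀ x y : Fin 3 → ℂ, Tri a (pt 0 x) (pt 0 x) (pt 0 y) = 0 := by
    intro x y
    refine (Tri_polar hs (h2 x) (h2 y) ?_ ?_).1
    · rw [padd2]; exact h2 _
    · rw [psm2, padd2]; exact h2 _
  have key : ∀ z : Fin 6 → ℂ, Tri a z z z =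
      3 * Tri a (pt (xx z) 0) (pt (xx z) 0) (pt 0 (ww z)) +
        3 * Tri a (pt (xx z) 0) (pt 0 (ww z)) (pt 0 (ww z)) := by
    intro z
    conv_lhs => rw [← pt_split z]
    rw [Tri_add_all hs, h1, h2]
    ring
  -- coordinates
  have hc1 : ∀ i : Fin 6, PH 1 (fun z : Fin 6 → ℂ => pt (xx z) 0 i) := by
    intro i
    fin_cases i
    · exact PH.coord 0
    · exact PH.coord 1
    · exact PH.coord 2
    · exact PH.zero 1
    · exact PH.zero 1
    · exact PH.zero 1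
  have hc2 : ∀ i : Fin 6, PH 1 (fun z : Fin 6 → ℂ => pt 0 (ww z) i) := by
    intro i
    fin_cases i
    · exact PH.zero 1
    · exact PH.zero 1
    · exact PH.zero 1
    · exact PH.coord 3
    · exact PH.coord 4
    · exact PH.coord 5
  have hd1 : ∀ i : Fin 6, PH 1 (fun t : Fin 5 → ℂ => pt ![t 0, t 1, t 2] 0 i) := by
    intro i
    fin_cases i
    · exact PH.coord 0
    · exact PH.coord 1
    · exact PH.coord 2
    · exact PH.zero 1
    · exact PH.zero 1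
    · exact PH.zero 1
  have hd2 : ∀ i : Fin 6, PH 1 (fun t : Fin 5 → ℂ => pt 0 ![t 0, t 3, t 4] i) := by
    intro i
    fin_cases i
    · exact PH.zero 1
    · exact PH.zero 1
    · exact PH.zero 1
    · exact PH.coord 0
    · exact PH.coord 3
    · exact PH.coord 4
  set G : (Fin 6 → ℂ) → ℂ := fun z => Tri a (pt (xx z) 0) (pt (xx z) 0) (pt 0 (ww z)) with hG
  set H : (Fin 6 → ℂ) → ℂ := fun z => Tri a (pt (xx z) 0) (pt 0 (ww z)) (pt 0 (ww z)) with hH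
  set g : (Fin 5 → ℂ) → ℂ := fun t =>
    Tri a (pt ![t 0, t 1, t 2] 0) (pt ![t 0, t 1, t 2] 0) (pt 0 ![t 0, t 3, t 4]) with hg
  set h : (Fin 5 → ℂ) → ℂ := fun t =>
    Tri a (pt ![t 0, t 1, t 2] 0) (pt 0 ![t 0, t 3, t 4]) (pt 0 ![t 0, t 3, t 4]) with hh
  have pG : PH 3 G := PH_Tri hc1 hc1 hc2
  have pH : PH 3 H := PH_Tri hc1 hc2 hc2
  have pg : PH 3 g := PH_Tri hd1 hd1 hd2
  have ph : PH 3 h := PH_Tri hd1 hd2 hd2
  set φ : (Fin 5 → ℂ) → (Fin 6 → ℂ) := fun t =>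
    (-(h t)) • pt ![t 0, t 1, t 2] 0 + (g t) • pt 0 ![t 0, t 3, t 4] with hφ
  set ψ : (Fin 6 → ℂ) → (Fin 5 → ℂ) := fun z =>
    ![z 0 * z 3, z 1 * z 3, z 2 * z 3, z 0 * z 4, z 0 * z 5] with hψ
  have U1 : ∀ z, pt ![(ψ z) 0, (ψ z) 1, (ψ z) 2] 0 = z 3 • pt (xx z) 0 := by
    intro z; ext i; fin_cases i <;> simp [pt, xx, hψ] <;> ring
  have U2 : ∀ z, pt 0 ![(ψ z) 0, (ψ z) 3, (ψ z) 4] = z 0 • pt 0 (ww z) := by
    intro z; ext i; fin_cases i <;> simp [pt, ww, hψ]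
  have gψ : ∀ z, g (ψ z) = z 3 ^ 2 * z 0 * G z := by
    intro z
    simp only [hg, hG]
    rw [U1, U2, Tri_smul1, Tri_smul2, Tri_smul3]
    ring
  have hψ' : ∀ z, h (ψ z) = z 3 * z 0 ^ 2 * H z := by
    intro z
    simp only [hh, hH]
    rw [U1, U2, Tri_smul1, Tri_smul2, Tri_smul3]
    ring
  have V1 : ∀ t, pt (xx (φ t)) 0 = (-(h t)) • pt ![t 0, t 1, t 2] 0 := by
    intro t; ext i; fin_cases i <;> simp [pt, xx, hφ]
  have V2 : ∀ t, pt 0 (ww (φ t)) = (g t) • pt 0 ![t 0, t 3, t 4] := by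
    intro t; ext i; fin_cases i <;> simp [pt, ww, hφ]
  have Gφ : ∀ t, G (φ t) = h t ^ 2 * g t * g t := by
    intro t
    have e : G (φ t) = Tri a (pt (xx (φ t)) 0) (pt (xx (φ t)) 0) (pt 0 (ww (φ t))) := rfl
    rw [e, V1, V2, Tri_smul1, Tri_smul2, Tri_smul3]
    have e2 : Tri a (pt ![t 0, t 1, t 2] 0) (pt ![t 0, t 1, t 2] 0) (pt 0 ![t 0, t 3, t 4])
      = g t := rfl
    rw [e2]
    ring
  have Hφ : ∀ t, H (φ t) = -(h t * g t ^ 2 * h t) := by
    intro t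
    have e : H (φ t) = Tri a (pt (xx (φ t)) 0) (pt 0 (ww (φ t))) (pt 0 (ww (φ t))) := rfl
    rw [e, V1, V2, Tri_smul1, Tri_smul2, Tri_smul3]
    have e2 : Tri a (pt ![t 0, t 1, t 2] 0) (pt 0 ![t 0, t 3, t 4]) (pt 0 ![t 0, t 3, t 4])
      = h t := rfl
    rw [e2]
    ring
  have φ0 : ∀ t, φ t 0 = -(h t) * t 0 := by intro t; simp [hφ, pt]
  have φ1 : ∀ t, φ t 1 = -(h t) * t 1 := by intro t; simp [hφ, pt]
  have φ2 : ∀ t, φ t 2 = -(h t) * t 2 := by intro t; simp [hφ, pt]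
  have φ3 : ∀ t, φ t 3 = g t * t 0 := by intro t; simp [hφ, pt]
  have φ4 : ∀ t, φ t 4 = g t * t 3 := by intro t; simp [hφ, pt]
  have φ5 : ∀ t, φ t 5 = g t * t 4 := by intro t; simp [hφ, pt]
  -- G and H are not identically zero
  have neG : ∃ z, G z ≠ 0 := by
    by_contra hcon
    push Not at hcon
    have h3 : pt ![1, 0, 0] 0 = 0 := by
      apply hsm
      intro y
      rw [← pt_split y, Tri_add3, pol1, zero_add]
      have h4 := hcon (pt ![1, 0, 0] (ww y))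
      have e1 : xx (pt ![1, 0, 0] (ww y)) = ![1, 0, 0] := by
        ext i; fin_cases i <;> simp [xx, pt]
      have e2 : ww (pt ![1, 0, 0] (ww y)) = ww y := by
        ext i; fin_cases i <;> simp [ww, pt]
      have h5 : Tri a (pt (xx (pt ![1, 0, 0] (ww y))) 0) (pt (xx (pt ![1, 0, 0] (ww y))) 0)
        (pt 0 (ww (pt ![1, 0, 0] (ww y)))) = 0 := h4
      rw [e1, e2] at h5
      exact h5
    have h4 := congrFun h3 0
    simp [pt] at h4
  have neH : ∃ z, H z ≠ 0 := by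
    by_contra hcon
    push Not at hcon
    have h3 : pt 0 ![1, 0, 0] = 0 := by
      apply hsm
      intro y
      rw [← pt_split y, Tri_add3, pol2, add_zero]
      have h4 := hcon (pt (xx y) ![1, 0, 0])
      have e1 : xx (pt (xx y) ![1, 0, 0]) = xx y := by
        ext i; fin_cases i <;> simp [xx, pt]
      have e2 : ww (pt (xx y) ![1, 0, 0]) = ![1, 0, 0] := by
        ext i; fin_cases i <;> simp [ww, pt]
      have h5 : Tri a (pt (xx (pt (xx y) ![1, 0, 0])) 0) (pt 0 (ww (pt (xx y) ![1, 0, 0])))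
        (pt 0 (ww (pt (xx y) ![1, 0, 0]))) = 0 := h4
      rw [e1, e2] at h5
      rw [Tri_swap23 hs, Tri_swap12 hs]
      exact h5
    have h4 := congrFun h3 3
    simp [pt] at h4
  have neAll : ∃ z : Fin 6 → ℂ, z 0 ≠ 0 ∧ z 3 ≠ 0 ∧ G z ≠ 0 ∧ H z ≠ 0 := by
    have n1 : ∃ z : Fin 6 → ℂ, z 0 ≠ 0 := ⟨fun _ => 1, one_ne_zero⟩
    have n2 : ∃ z : Fin 6 → ℂ, z 3 ≠ 0 := ⟨fun _ => 1, one_ne_zero⟩
    have m1 := (PH.coord (ι := Fin 6) 0).mul_ne (PH.coord 3) n1 n2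
    have m2 := pG.mul_ne pH neG neH
    obtain ⟨z1, ha, hb⟩ := m1
    obtain ⟨z2, hc, hd⟩ := m2
    obtain ⟨z, hz1, hz2⟩ := ((PH.coord (ι := Fin 6) 0).mul (PH.coord 3)).mul_ne (pG.mul pH)
      ⟨z1, mul_ne_zero ha hb⟩ ⟨z2, mul_ne_zero hc hd⟩
    exact ⟨z, left_ne_zero_of_mul hz1, right_ne_zero_of_mul hz1, left_ne_zero_of_mul hz2,
      right_ne_zero_of_mul hz2⟩
  refine ⟨4, 2, 1 + 3 + 3, 1 + 1 + 3, φ, ψ, fun t => t 0 * g t * h t,
    fun z => z 0 * z 3 * G z, ?_, ?_, ?_, ?_, ?_, ?_, ?_⟩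
  · intro i
    have e1 : PH (3 + 1) (fun t => (-(h t)) * pt ![t 0, t 1, t 2] 0 i) := ph.neg.mul (hd1 i)
    have e2 : PH (3 + 1) (fun t => g t * pt 0 ![t 0, t 3, t 4] i) := pg.mul (hd2 i)
    exact (e1.add e2).congr (fun t => by simp only [hφ, Pi.add_apply, Pi.smul_apply, smul_eq_mul])
  · intro i
    fin_cases i
    · exact (PH.coord (ι := Fin 6) 0).mul (PH.coord 3)
    · exact (PH.coord (ι := Fin 6) 1).mul (PH.coord 3)
    · exact (PH.coord (ι := Fin 6) 2).mul (PH.coord 3)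
    · exact (PH.coord (ι := Fin 6) 0).mul (PH.coord 4)
    · exact (PH.coord (ι := Fin 6) 0).mul (PH.coord 5)
  · exact ((PH.coord (ι := Fin 5) 0).mul pg).mul ph
  · exact ((PH.coord (ι := Fin 6) 0).mul (PH.coord 3)).mul pG
  · obtain ⟨z, z0, z3, zG, zH⟩ := neAll
    refine ⟨ψ z, ?_⟩
    have e0 : (ψ z) 0 = z 0 * z 3 := rfl
    show (ψ z) 0 * g (ψ z) * h (ψ z) ≠ 0
    rw [e0, gψ, hψ']
    simp only [ne_eq, mul_eq_zero, pow_eq_zero_iff, not_or]
    refine ⟨⟨⟨z0, z3⟩, ?_⟩, ?_⟩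
    · exact ⟨⟨by simpa using z3, z0⟩, zG⟩
    · exact ⟨⟨z3, by simpa using z0⟩, zH⟩
  · intro t ht
    have ht1 : t 0 ≠ 0 := left_ne_zero_of_mul (left_ne_zero_of_mul ht)
    have ht2 : g t ≠ 0 := right_ne_zero_of_mul (left_ne_zero_of_mul ht)
    have ht3 : h t ≠ 0 := right_ne_zero_of_mul ht
    refine ⟨?_, ?_, -(h t) * g t * t 0, ?_, ?_⟩
    · have e := key (φ t)
      have e1 : Tri a (φ t) (φ t) (φ t) = 3 * G (φ t) + 3 * H (φ t) := e
      show Tri a (φ t) (φ t) (φ t) = 0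
      rw [e1, Gφ, Hφ]
      ring
    · show φ t 0 * φ t 3 * G (φ t) ≠ 0
      rw [φ0, φ3, Gφ]
      refine mul_ne_zero (mul_ne_zero (mul_ne_zero (neg_ne_zero.2 ht3) ht1)
        (mul_ne_zero ht2 ht1)) (mul_ne_zero (mul_ne_zero (pow_ne_zero _ ht3) ht2) ht2)
    · exact mul_ne_zero (mul_ne_zero (neg_ne_zero.2 ht3) ht2) ht1
    · ext i
      fin_cases i
      · show φ t 0 * φ t 3 = (-(h t) * g t * t 0) * t 0
        rw [φ0, φ3]; ring
      · show φ t 1 * φ t 3 = (-(h t) * g t * t 0) * t 1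
        rw [φ1, φ3]; ring
      · show φ t 2 * φ t 3 = (-(h t) * g t * t 0) * t 2
        rw [φ2, φ3]; ring
      · show φ t 0 * φ t 4 = (-(h t) * g t * t 0) * t 3
        rw [φ0, φ4]; ring
      · show φ t 0 * φ t 5 = (-(h t) * g t * t 0) * t 4
        rw [φ0, φ5]; ring
  · intro z hz hd
    have z0 : z 0 ≠ 0 := left_ne_zero_of_mul (left_ne_zero_of_mul hd)
    have z3 : z 3 ≠ 0 := right_ne_zero_of_mul (left_ne_zero_of_mul hd)
    have zG : G z ≠ 0 := right_ne_zero_of_mul hd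
    have e := key z
    have e1 : Tri a z z z = 3 * G z + 3 * H z := e
    have e2 : H z = - G z := by
      have hz' : Tri a z z z = 0 := hz
      rw [e1] at hz'
      linear_combination (1 / 3 : ℂ) * hz'
    refine ⟨?_, z 0 ^ 2 * z 3 ^ 2 * G z, ?_, ?_⟩
    · have e0 : (ψ z) 0 = z 0 * z 3 := rfl
      show (ψ z) 0 * g (ψ z) * h (ψ z) ≠ 0
      rw [e0, gψ, hψ', e2]
      exact mul_ne_zero (mul_ne_zero (mul_ne_zero z0 z3)
        (mul_ne_zero (mul_ne_zero (pow_ne_zero _ z3) z0) zG))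
        (mul_ne_zero (mul_ne_zero z3 (pow_ne_zero _ z0)) (neg_ne_zero.2 zG))
    · exact mul_ne_zero (mul_ne_zero (pow_ne_zero _ z0) (pow_ne_zero _ z3)) zG
    · have e4 : φ (ψ z) = (-(h (ψ z))) • pt ![(ψ z) 0, (ψ z) 1, (ψ z) 2] 0
        + (g (ψ z)) • pt 0 ![(ψ z) 0, (ψ z) 3, (ψ z) 4] := rfl
      rw [e4, U1, U2, gψ, hψ', e2]
      have e5 : (z 0 ^ 2 * z 3 ^ 2 * G z) • z =
          (z 0 ^ 2 * z 3 ^ 2 * G z) • (pt (xx z) 0 + pt 0 (ww z)) := by rw [pt_split z]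
      rw [e5, smul_add, smul_smul, smul_smul]
      have e6 : -(z 3 * z 0 ^ 2 * -G z) * z 3 = z 0 ^ 2 * z 3 ^ 2 * G z := by ring
      have e7 : z 3 ^ 2 * z 0 * G z * z 0 = z 0 ^ 2 * z 3 ^ 2 * G z := by ring
      rw [e6, e7]

end P287H468
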